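import Crest.Agent.R166.H.Defs

/-! Row 166, block H: topological measure theory on matrices. -/

set_option autoImplicit false
set_option linter.unusedSectionVars false

open MeasureTheory ProbabilityTheory Filter Topology Complex
open scoped ENNReal NNReal BigOperators Matrix ComplexConjugate BoundedContinuousFunction

noncomputable section

namespace Crest.Agent.R166.H

instance matApprox {κ ι : Type} [Fintype κ] [Fintype ι] : HasOuterApproxClosed (Matrix κ ι ℂ) :=
  inferInstanceAs (HasOuterApproxClosed (κ → ι → ℂ))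

instance matSC {κ ι : Type} [Fintype κ] [Fintype ι] : SecondCountableTopology (Matrix κ ι ℂ) :=
  inferInstanceAs (SecondCountableTopology (κ → ι → ℂ))

theorem mp_of_integral {X Y : Type} [MeasurableSpace X] [MeasurableSpace Y] [TopologicalSpace Y]
    [HasOuterApproxClosed Y] [BorelSpace Y] {μ : Measure X} {ν : Measure Y} [IsFiniteMeasure μ]
    [IsFiniteMeasure ν] {f : X → Y} (hf : Measurable f)
    (h : ∀ F : Y →ᵇ ℝ, ∫ x, F (f x) ∂μ = ∫ y, F y ∂ν) : MeasurePreserving f μ ν :=
  ⟨hf, ext_of_forall_integral_eq_of_IsFiniteMeasure fun F => by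
    rw [integral_map_of_stronglyMeasurable hf F.continuous.measurable.stronglyMeasurable, h]⟩

theorem _root_.MeasureTheory.MeasurePreserving.integral_comp_of_sm {X Y E : Type} [MeasurableSpace X]
    [MeasurableSpace Y] [NormedAddCommGroup E] [NormedSpace ℝ E] [MeasurableSpace E] [BorelSpace E]
    [SecondCountableTopology E] {μ : Measure X} {ν : Measure Y} {f : X → Y} (h : MeasurePreserving f μ ν)
    {F : Y → E} (hF : Measurable F) : ∫ x, F (f x) ∂μ = ∫ y, F y ∂ν := by
  rw [← h.map_eq, integral_map_of_stronglyMeasurable h.measurable hF.stronglyMeasurable]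

theorem exists_lim {α E : Type} [MeasurableSpace E] [TopologicalSpace E] [T2Space E] [BorelSpace E]
    (U : Ultrafilter α) {K : Set E} (hK : IsCompact K) (ν : α → Measure E) [∀ a, IsProbabilityMeasure (ν a)]
    (h : ∀ a, ∀ᵐ x ∂ν a, x ∈ K) : ∃ μ : Measure E, IsProbabilityMeasure μ ∧ (∀ᵐ x ∂μ, x ∈ K) ∧
      ∀ F : E → ℝ, Continuous F → Tendsto (fun a => ∫ x, F x ∂ν a) U (𝓝 (∫ x, F x ∂μ)) := by
  have hc := isCompact_setOfPred_probabilityMeasure_mass_eq_compl_isCompact_le (u := fun _ => 0)
    (K := fun _ => K) tendsto_const_nhds (fun _ => hK) (Or.inr monotone_const)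
  obtain ⟨μ, hμ, hl⟩ := hc.ultrafilter_le_nhds (U.map fun a => (⟨ν a, inferInstance⟩ : ProbabilityMeasure E))
    (le_principal_iff.2 (Filter.mem_map.2 (univ_mem' fun a _ => le_of_eq
      ((ProbabilityMeasure.null_iff_toMeasure_null _ _).2 (h a)))))
  have h0 : ∀ᵐ x ∂(μ : Measure E), x ∈ K :=
    (ProbabilityMeasure.null_iff_toMeasure_null _ _).1 (le_zero_iff.1 (hμ 0))
  refine ⟨μ, inferInstance, h0, fun F hF => ?_⟩
  obtain ⟨C, hC⟩ := hK.exists_bound_of_continuousOn hF.continuousOn
  let G : E →ᵇ ℝ := .ofNormedAddCommGroup (fun x => max (-|C|) (min |C| (F x))) (by fun_prop) |C| fun x =>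
    abs_le.2 ⟨le_max_left _ _, max_le (neg_le_self (abs_nonneg C)) (min_le_left _ _)⟩
  have e : ∀ x ∈ K, F x = G x := fun x hx => by
    obtain ⟨h1, h2⟩ := abs_le.1 ((hC x hx).trans (le_abs_self C))
    show F x = max _ (min _ _)
    rw [min_eq_right h2, max_eq_right h1]
  rw [integral_congr_ae (h0.mono e)]
  exact (ProbabilityMeasure.tendsto_iff_forall_integral_tendsto.1 hl G).congr fun a =>
    (integral_congr_ae ((h a).mono e)).symm

end Crest.Agent.R166.H
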