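import Crest.Agent.R166.H.Gauss
import Crest.Agent.R166.H.Top

/-! Row 166, block H: ultrafilter limits of the laws of the model `S`-matrices. -/

set_option autoImplicit false
set_option linter.unusedSectionVars false

open MeasureTheory ProbabilityTheory Filter Topology Complex
open scoped ENNReal NNReal BigOperators Matrix ComplexConjugate BoundedContinuousFunction

noncomputable section

namespace Crest.Agent.R166.H

variable {ι κ : Type} [Fintype ι] [DecidableEq ι] [Fintype κ] [DecidableEq κ] {n : ℕ}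

def unif (δ : ℝ) : Measure ℝ := (ENNReal.ofReal δ)⁻¹ • volume.restrict (Set.Ioc 0 δ)

theorem unif_prob {δ : ℝ} (hδ : 0 < δ) : IsProbabilityMeasure (unif δ) :=
  ⟨by simp [unif, ENNReal.inv_mul_cancel, hδ]⟩

def law (P : Measure (Fin n → ℝ)) (b : ℝ → ℝ) (δ : ℝ) (ι : Type) [Fintype ι] [DecidableEq ι] :
    Measure (Matrix ι ι ℂ) :=
  ((P.prod (unif δ)).prod (gpi2 (Fin n) ι)).map fun q => cay (modelK b (fun i => q.1.1 i - q.1.2) q.2)

variable {P : Measure (Fin n → ℝ)} [IsProbabilityMeasure P] {b : ℝ → ℝ} {δ : ℝ}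

theorem law_prob (hb : Measurable b) (hδ : 0 < δ) : IsProbabilityMeasure (law P b δ ι) := by
  have := unif_prob hδ
  exact Measure.isProbabilityMeasure_map (measurable_model hb).aemeasurable

theorem law_lam (hb : Measurable b) : ∀ᵐ S ∂law P b δ ι, Lam S :=
  (ae_map_iff (measurable_model hb).aemeasurable isCompact_lam.isClosed.measurableSet).2
    (ae_of_all _ fun _ => lam_cay (KK_symm _ _))

theorem integral_law (hb : Measurable b) (hδ : 0 < δ) {F : Matrix ι ι ℂ → ℝ} (hF : Continuous F) :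
    ∫ S, F S ∂law P b δ ι = ∫ ξ, modelE b δ F ξ ∂P := by
  have := unif_prob hδ
  obtain ⟨C, hC⟩ := isCompact_lam.exists_bound_of_continuousOn hF.continuousOn
  rw [law, integral_map_of_stronglyMeasurable (measurable_model hb) hF.measurable.stronglyMeasurable,
    integral_prod _ (.of_bound (hF.measurable.fun_comp (measurable_model hb)).aestronglyMeasurable C
      (ae_of_all _ fun q => hC _ (lam_cay (KK_symm _ _)))),
    integral_prod _ (.of_bound (measurable_inner hb hF.measurable).aestronglyMeasurable C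
      (ae_of_all _ fun q => abs_inner_le hC _))]
  refine integral_congr_ae (ae_of_all _ fun ξ => ?_)
  simp only [modelE, unif, integral_smul_measure, intervalIntegral.integral_of_le hδ.le, smul_eq_mul,
    ENNReal.toReal_inv, ENNReal.toReal_ofReal hδ.le]

theorem law_map (hb : Measurable b) (hδ : 0 < δ) {T : Matrix κ ι ℝ} (hT : T * Tᵀ = 1)
    {φ : Matrix ι ι ℂ → Matrix κ κ ℂ} (hφ : Measurable φ) (h : ∀ K, Kᵀ = K → cay (T * K * Tᵀ) = φ (cay K)) :
    MeasurePreserving φ (law P b δ ι) (law P b δ κ) := by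
  have := unif_prob hδ
  refine ⟨hφ, ?_⟩
  rw [law, law, Measure.map_map hφ (measurable_model hb),
    ← ((MeasurePreserving.id (P.prod (unif δ))).prod (mp_mulVec (n := n) hT)).map_eq,
    Measure.map_map (measurable_model hb) (measurable_id.prodMap (mp_mulVec hT).measurable)]
  congr 1
  funext q
  exact (h _ (KK_symm _ _)).symm.trans (congrArg cay (KK_mulVec T _ _).symm)

theorem sel_mul (f : κ → ι) (K : Matrix ι ι ℝ) :
    (1 : Matrix ι ι ℝ).submatrix f id * K * ((1 : Matrix ι ι ℝ).submatrix f id)ᵀ = K.submatrix f f := by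
  ext i j
  simp [Matrix.mul_apply, Matrix.one_apply]

theorem law_sel (hb : Measurable b) (hδ : 0 < δ) {f : κ → ι} (hf : Function.Injective f)
    {φ : Matrix ι ι ℂ → Matrix κ κ ℂ} (hφ : Measurable φ) (h : ∀ K, Kᵀ = K → cay (K.submatrix f f) = φ (cay K)) :
    MeasurePreserving φ (law P b δ ι) (law P b δ κ) :=
  law_map hb hδ (T := (1 : Matrix ι ι ℝ).submatrix f id)
    (by simpa [Matrix.submatrix_one f hf] using sel_mul f 1) hφ fun K hK => by rw [sel_mul, h K hK]

theorem cay_submatrix (e : κ ≃ ι) (K : Matrix ι ι ℝ) : cay (K.submatrix e e) = (cay K).submatrix e e := by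
  have : (K.submatrix e e).map (fun x : ℝ => (x : ℂ)) + I • (1 : Matrix κ κ ℂ) =
      (K.map (fun x : ℝ => (x : ℂ)) + I • (1 : Matrix ι ι ℂ)).submatrix e e := by
    ext i j
    simp [Matrix.one_apply]
  rw [cay, this, Matrix.inv_submatrix_equiv]
  ext i j
  simp [cay, Matrix.one_apply]

theorem continuous_cut {N : ℕ} (F : Mat N →ᵇ ℝ) {η : ℝ} (hη : 0 < η) :
    Continuous fun S : Mat (N + 1) => (1 - chi η (S 0 0)) * F (sub S) := by
  have hc : Continuous fun S : Mat (N + 1) => 1 - chi η (S 0 0) :=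
    continuous_const.sub ((continuous_chi hη).comp (by fun_prop))
  refine continuous_iff_continuousAt.2 fun S => ?_
  by_cases h : S 0 0 = 1
  · have h0 : 1 - chi η (S 0 0) = 0 := by simp [h, chi, hη.ne']
    rw [ContinuousAt, h0, zero_mul]
    exact (h0 ▸ hc.tendsto S).zero_mul_isBoundedUnder_le
      (isBoundedUnder_of ⟨‖F‖, fun S => F.norm_coe_le_norm _⟩)
  · refine hc.continuousAt.mul (F.continuous.continuousAt.comp ?_)
    refine continuousAt_pi.2 fun i => continuousAt_pi.2 fun j => ?_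
    have e : ∀ i j, Continuous fun S : Mat (N + 1) => S i j := fun i j => by fun_prop
    exact (e _ _).continuousAt.add (((e _ _).mul (e _ _)).continuousAt.div
      (continuous_const.sub (e _ _)).continuousAt (sub_ne_zero.2 (Ne.symm h)))

theorem abs_cut_le {N : ℕ} (ν : Measure (Mat (N + 1))) [IsProbabilityMeasure ν] (F : Mat N →ᵇ ℝ) {η : ℝ}
    (hη : 0 < η) : |∫ S, F (sub S) ∂ν - ∫ S, (1 - chi η (S 0 0)) * F (sub S) ∂ν| ≤ ‖F‖ * ∫ S, chi η (S 0 0) ∂ν := by
  have m1 : Measurable fun S : Mat (N + 1) => chi η (S 0 0) :=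
    (continuous_chi hη).measurable.comp (measurable_entry 0 0)
  have i1 : Integrable (fun S : Mat (N + 1) => F (sub S)) ν := .of_bound
    (F.continuous.measurable.comp measurable_sub).aestronglyMeasurable ‖F‖ (ae_of_all _ fun _ => F.norm_coe_le_norm _)
  have b1 : ∀ᵐ S ∂ν, ‖chi η (S 0 0)‖ ≤ 1 := ae_of_all _ fun S => by
    rw [Real.norm_of_nonneg (chi_pos hη _).le]
    exact chi_le_one hη _
  have i2 := i1.bdd_mul m1.aestronglyMeasurable b1
  simp only [sub_mul, one_mul]
  rw [integral_sub i1 i2, sub_sub_cancel, ← integral_const_mul]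
  refine abs_integral_le_integral_abs.trans (integral_mono i2.abs
    ((Integrable.of_bound m1.aestronglyMeasurable 1 b1).const_mul _) fun S => ?_)
  simp only [abs_mul, abs_of_pos (chi_pos hη _)]
  rw [mul_comm]
  exact mul_le_mul_of_nonneg_right (F.norm_coe_le_norm _) (chi_pos hη _).le

theorem ev_curry {α β : Type} {l : Filter α} {m : Filter β} {p : α → β → Prop} (h : ∀ᶠ x in l, ∀ᶠ y in m, p x y) :
    ∀ᶠ z in l.curry m, p z.1 z.2 := eventually_curry_iff.2 h

theorem exists_fam {n : ℕ → ℕ} {P : ∀ j, Measure (Fin (n j) → ℝ)} [∀ j, IsProbabilityMeasure (P j)]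
    {b : ℝ → ℝ → ℝ} (hb : ∀ L, Measurable (b L)) (h2 : H2 n P b) {δ : ℝ} (hδ : 0 < δ) (hδ1 : δ ≤ 1)
    (U : Ultrafilter (ℝ × ℕ)) (hU : (U : Filter (ℝ × ℕ)) ≤ Filter.curry atTop atTop) :
    ∃ μ : ∀ N, Measure (Mat N), Fam μ ∧ ∀ (N : ℕ) (F : Mat N → ℝ), Continuous F →
      Tendsto (EE P b δ F) U (𝓝 (∫ S, F S ∂μ N)) := by
  have hp : ∀ N (p : ℝ × ℕ), IsProbabilityMeasure (law (P p.2) (b p.1) δ (Fin N)) := fun N p =>
    law_prob (hb _) hδ
  choose μ m1 m2 m3 using fun N => exists_lim U isCompact_lam (fun p : ℝ × ℕ => law (P p.2) (b p.1) δ (Fin N))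
    fun p => law_lam (hb _)
  have ca : ∀ {N} (u : Mat N), Continuous (act u : Mat N → Mat N) := fun u =>
    continuous_act.comp (continuous_const.prodMk continuous_id)
  refine ⟨μ, ⟨m1, m2, fun N O hO => mp_of_integral (measurable_act _) fun F => ?_,
    fun N h0 => mp_of_integral measurable_sub fun F => ?_, fun k => ?_⟩,
    fun N F hF => (m3 N F hF).congr fun p => integral_law (hb _) hδ hF⟩
  · refine tendsto_nhds_unique (m3 N _ (F.continuous.comp (ca _))) ((m3 N F F.continuous).congr fun p => ?_)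
    exact ((law_map (hb _) hδ hO (measurable_act _) fun K hK =>
      cay_conj hO (mul_eq_one_comm.1 hO) hK).integral_comp_of_sm F.continuous.measurable).symm
  · refine eq_of_forall_dist_le fun e he => ?_
    obtain ⟨η, hη, hχ⟩ := exists_chi (μ (N + 1)) (measurable_entry 0 0) h0
      (div_pos he (by positivity : 0 < 2 * ‖F‖ + 1))
    have h1 := abs_cut_le (μ (N + 1)) F hη
    have h3 : |∫ S, F S ∂μ N - ∫ S, (1 - chi η (S 0 0)) * F (sub S) ∂μ (N + 1)| ≤
        ‖F‖ * ∫ S, chi η (S 0 0) ∂μ (N + 1) := by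
      refine le_of_tendsto_of_tendsto' ((m3 N F F.continuous).sub (m3 _ _ (continuous_cut F hη))).abs
        ((m3 _ _ ((continuous_chi hη).comp (by fun_prop : Continuous fun S : Mat (N + 1) => S 0 0))).const_mul _)
        fun p => ?_
      rw [← (law_sel (hb _) hδ (Fin.succ_injective N) measurable_sub fun K hK =>
        cay_sub hK).integral_comp_of_sm F.continuous.measurable]
      exact abs_cut_le _ F hη
    rw [le_div_iff₀ (by positivity)] at hχ
    have h4 : 0 ≤ ∫ S, chi η (S 0 0) ∂μ (N + 1) := integral_nonneg fun S => (chi_pos hη _).le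
    rw [Real.dist_eq, abs_le] at *
    constructor <;> linarith [h1.1, h1.2, h3.1, h3.2]
  · obtain ⟨N₀, W₀, hW, ⟨j, a, hj⟩, H⟩ := h2
    obtain ⟨k', hk, H⟩ := H δ hδ hδ1 (k + 1)
    set e := (finSumFinEquiv : Fin N₀ ⊕ Fin k' ≃ _)
    have cs : Continuous fun S : Matrix (Fin N₀ ⊕ Fin k') (Fin N₀ ⊕ Fin k') ℂ => S.submatrix e.symm e.symm :=
      continuous_id.matrix_submatrix _ _
    have hB : blk W₀ k' * star (blk W₀ k') = 1 := by
      simp [blk, Matrix.star_eq_conjTranspose, Matrix.fromBlocks_conjTranspose, Matrix.fromBlocks_multiply,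
        show W₀ * W₀ᴴ = 1 from Matrix.mem_unitaryGroup_iff.1 hW]
    refine ⟨N₀ + k', by omega, (blk W₀ k').submatrix e.symm e.symm, e (.inl a), e (.inl j), e (.inr ⟨0, by omega⟩),
      Matrix.mem_unitaryGroup_iff.2 ?_, by simpa [blk] using hj, fun i => ?_, by simp [blk],
      mp_of_integral (measurable_act _) fun F => ?_⟩
    · rw [Matrix.star_eq_conjTranspose, Matrix.conjTranspose_submatrix, Matrix.submatrix_mul_equiv,
        ← Matrix.star_eq_conjTranspose, hB, Matrix.submatrix_one_equiv]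
    · obtain ⟨i, rfl⟩ := e.surjective i
      rcases i with i | i <;> simp [blk, Matrix.one_apply]
    · refine eq_of_forall_dist_le fun ε hε => ?_
      rw [dist_comm, Real.dist_eq]
      refine le_of_tendsto ((m3 _ F F.continuous).sub (m3 _ _ (F.continuous.comp (ca _)))).abs ?_
      filter_upwards [hU (ev_curry (H _ (F.continuous.comp cs) ε hε))] with p hp
      have h1 := law_sel (P := P p.2) (hb p.1) hδ e.symm.injective cs.measurable fun K _ => cay_submatrix e.symm K
      rw [← h1.integral_comp_of_sm F.continuous.measurable,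
        ← h1.integral_comp_of_sm (F.continuous.comp (ca _)).measurable, integral_law (hb _) hδ (F.continuous.comp' cs),
        integral_law (hb _) hδ ((F.continuous.comp (ca _)).comp' cs)]
      simpa only [act, Function.comp_def, Matrix.transpose_submatrix, Matrix.submatrix_mul_equiv] using hp

end Crest.Agent.R166.H
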