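import Crest.Agent.R166.H.AlgA

/-! Row 166, block H: facts on the circle. -/

set_option autoImplicit false
set_option linter.unusedSectionVars false

open MeasureTheory ProbabilityTheory Filter Topology Complex
open scoped ENNReal NNReal BigOperators Matrix ComplexConjugate

noncomputable section

namespace Crest.Agent.R166.H

/-- the integrand of `gp` -/
def CircA_f (p : ℕ) (s : ℂ) (θ : ℝ) : ℂ := ((1 - conj (cexp (θ * I) * s)) / (cexp (θ * I) * s - 1)) ^ p

theorem CircA_meas (p : ℕ) : Measurable fun q : ℂ × ℝ => CircA_f p q.1 q.2 :=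
  ((Continuous.measurable (by fun_prop)).div (Continuous.measurable (by fun_prop))).pow_const p

theorem CircA_norm (p : ℕ) (s : ℂ) (θ : ℝ) : ‖CircA_f p s θ‖ ≤ 1 := by
  unfold CircA_f
  rw [norm_pow, norm_div]
  refine pow_le_one₀ (by positivity) (div_le_one_of_le₀ (le_of_eq ?_) (norm_nonneg _))
  rw [norm_sub_rev (cexp (θ * I) * s), ← RCLike.norm_conj (1 - cexp (θ * I) * s), map_sub, map_one]

theorem CircA_int (p : ℕ) (s : ℂ) (a b : ℝ) : IntervalIntegrable (CircA_f p s) volume a b :=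
  (intervalIntegrable_const (c := (1 : ℝ))).mono_fun'
    ((CircA_meas p).comp measurable_prodMk_left).aestronglyMeasurable
    (Eventually.of_forall fun θ => CircA_norm p s θ)

theorem CircA_gp (p : ℕ) (s : ℂ) :
    gp p s = (2 * Real.pi : ℝ)⁻¹ • ∫ θ in (0 : ℝ)..(2 * Real.pi), CircA_f p s θ := rfl

theorem CircA_conj (p : ℕ) (r θ : ℝ) : CircA_f p r (2 * Real.pi - θ) = conj (CircA_f p r θ) := by
  have e : cexp (((2 * Real.pi - θ : ℝ) : ℂ) * I) = conj (cexp (θ * I)) := by
    rw [← Complex.exp_conj, map_mul, Complex.conj_ofReal, Complex.conj_I]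
    push_cast
    rw [sub_mul, Complex.exp_sub, Complex.exp_two_pi_mul_I, mul_neg, Complex.exp_neg, one_div]
  simp only [CircA_f, e, map_pow, map_div₀, map_sub, map_one, map_mul, Complex.conj_ofReal]

theorem CircA_re (p : ℕ) (s : ℂ) (θ : ℝ) : |(CircA_f p s θ).re| ≤ 1 - (CircA_f p s θ).im ^ 2 / 2 := by
  have h := pow_le_one₀ (n := 2) (norm_nonneg _) (CircA_norm p s θ)
  rw [Complex.sq_norm, Complex.normSq_apply] at h
  nlinarith [sq_nonneg (|(CircA_f p s θ).re| - 1), sq_abs (CircA_f p s θ).re]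

theorem CircA_im {p : ℕ} (hp : 1 ≤ p) {r ψ : ℝ} (hr0 : 0 ≤ r) (hr : r ≤ 1) (h0 : 0 ≤ ψ)
    (h1 : ψ ≤ Real.pi / (4 * p)) : (r * Real.sin ψ / 2) ^ 2 ≤ (CircA_f p r (Real.pi + ψ)).im ^ 2 := by
  have hp' : (1 : ℝ) ≤ p := by exact_mod_cast hp
  have hπ := Real.pi_pos
  rw [le_div_iff₀ (by positivity)] at h1
  have h2 : ψ ≤ Real.pi / 4 := by nlinarith
  have hs : 0 ≤ Real.sin ψ := Real.sin_nonneg_of_nonneg_of_le_pi h0 (by linarith)
  have hc : 0 ≤ Real.cos ψ := Real.cos_nonneg_of_neg_pi_div_two_le_of_le (by linarith) (by linarith)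
  set w : ℂ := 1 + cexp (ψ * I) * r with hw
  have hre : w.re = 1 + Real.cos ψ * r := by simp [hw, Complex.exp_ofReal_mul_I_re]
  have him : w.im = Real.sin ψ * r := by simp [hw, Complex.exp_ofReal_mul_I_im]
  have hre1 : 1 ≤ w.re := by rw [hre]; nlinarith
  have hw0 : w ≠ 0 := fun h => by rw [h, Complex.zero_re] at hre1; linarith
  have hn : ‖w‖ ≤ 2 := by
    refine (norm_add_le _ _).trans ?_
    rw [norm_one, norm_mul, Complex.norm_exp_ofReal_mul_I, Complex.norm_real, Real.norm_of_nonneg hr0]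
    linarith
  have a0 : 0 ≤ arg w := Complex.arg_nonneg_iff.2 (by rw [him]; positivity)
  have a1 : arg w ≤ ψ := by
    have h3 := (abs_lt.1 (Complex.abs_arg_lt_pi_div_two_iff.2 (Or.inl (zero_lt_one.trans_le hre1)))).2
    refine (Real.le_tan a0 h3).trans ?_
    rw [Complex.tan_arg, div_le_iff₀ (by linarith), him]
    nlinarith [Real.sin_le h0]
  have a2 : r * Real.sin ψ / 2 ≤ Real.sin (2 * p * arg w) := by
    refine le_trans ?_ (Real.sin_le_sin_of_le_of_le_pi_div_two (x := arg w) (by linarith) (by nlinarith)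
      (by nlinarith))
    rw [Complex.sin_arg, him, mul_comm r]
    exact div_le_div_of_nonneg_left (by positivity) (norm_pos_iff.2 hw0) hn
  have e1 : cexp (((Real.pi + ψ : ℝ) : ℂ) * I) = -cexp (ψ * I) := by
    push_cast
    rw [add_mul, Complex.exp_add, Complex.exp_pi_mul_I, neg_one_mul]
  have e2 : conj w / w = cexp (-(2 * arg w * I)) := by
    have h3 := Complex.norm_mul_exp_arg_mul_I w
    have h4 : conj w = ‖w‖ * cexp (-(arg w * I)) := by
      conv_lhs => rw [← h3]
      rw [map_mul, Complex.conj_ofReal, ← Complex.exp_conj, map_mul, Complex.conj_ofReal, Complex.conj_I,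
        mul_neg]
    rw [div_eq_iff hw0, h4]
    conv_rhs => rw [← h3]
    rw [h3, mul_comm _ w]
    conv_rhs => rw [← h3]
    rw [h3]
    calc (‖w‖ : ℂ) * cexp (-(arg w * I)) = ‖w‖ * cexp (arg w * I) * cexp (-(2 * arg w * I)) := by
          rw [mul_assoc, ← Complex.exp_add]
          congr 2
          ring
      _ = _ := by rw [h3]
  have e3 : CircA_f p r (Real.pi + ψ) = (-1) ^ p * cexp (((-(2 * p * arg w) : ℝ) : ℂ) * I) := by
    have : (1 - conj (-cexp (ψ * I) * r)) / (-cexp (ψ * I) * r - 1) = -(conj w / w) := by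
      rw [← div_neg, hw, map_add, map_one, neg_mul, map_neg, sub_neg_eq_add, neg_add', ← neg_add',
        neg_add_rev, sub_eq_add_neg]
    rw [CircA_f, e1, this, e2, neg_pow, ← Complex.exp_nat_mul]
    congr 2
    push_cast
    ring
  have e4 : (CircA_f p r (Real.pi + ψ)).im ^ 2 = Real.sin (2 * p * arg w) ^ 2 := by
    rw [e3]
    rcases neg_one_pow_eq_or ℂ p with h | h <;>
      simp only [h, one_mul, neg_mul, Complex.neg_im, Complex.exp_ofReal_mul_I_im, Real.sin_neg, neg_sq]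
  rw [e4]
  exact pow_le_pow_left₀ (by positivity) a2 2

theorem measurable_gp (p : ℕ) : Measurable (gp p) := by
  have h := (CircA_meas p).stronglyMeasurable.integral_prod_right'
    (ν := volume.restrict (Set.Ioc (0 : ℝ) (2 * Real.pi)))
  have e : gp p = fun s => (2 * Real.pi : ℝ)⁻¹ • ∫ θ in Set.Ioc (0 : ℝ) (2 * Real.pi), CircA_f p s θ :=
    funext fun s => by rw [CircA_gp, intervalIntegral.integral_of_le (by positivity)]
  rw [e]
  exact h.measurable.const_smul ((2 * Real.pi : ℝ)⁻¹)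
theorem gp_rot (p : ℕ) {c : ℂ} (hc : ‖c‖ = 1) (s : ℂ) : gp p (c * s) = gp p s := by
  have hper : Function.Periodic (CircA_f p s) (2 * Real.pi) := fun θ => by
    simp only [CircA_f, Complex.ofReal_add, add_mul, Complex.exp_add]
    push_cast
    rw [Complex.exp_two_pi_mul_I, mul_one]
  have e : ∀ θ, CircA_f p (c * s) θ = CircA_f p s (θ + arg c) := fun θ => by
    have := Complex.norm_mul_exp_arg_mul_I c
    rw [hc, Complex.ofReal_one, one_mul] at this
    simp only [CircA_f, Complex.ofReal_add, add_mul, Complex.exp_add, this, mul_assoc]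
  rw [CircA_gp, CircA_gp]
  simp only [e]
  rw [intervalIntegral.integral_comp_add_right, zero_add, add_comm (2 * Real.pi),
    hper.intervalIntegral_add_eq (arg c) 0, zero_add]
/-- WLOG `s = r ∈ [0,1]` (`gp_rot`).  `φ θ` = integrand has modulus `≤ 1`, `φ (-θ) = conj (φ θ)`, so `gp` is the mean of
`re φ`, and `|re φ| ≤ 1 - (im φ)²/2` when `‖φ‖ = 1` (a.e. `θ`).  For `θ = π + ψ`, `ψ ∈ [x, 2x]`, `x = π/(8p)`:
`w = 1 + r e^{iψ}`, `φ = (-1)^p (conj w / w)^p = ± e^{-2 i p α}`, `α = arg w ∈ [0, ψ]`,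
`|im φ| = sin (2 p α) ≥ sin α = r sin ψ / ‖w‖ ≥ r sin x / 2`. -/
theorem norm_gp_le {p : ℕ} (hp : 1 ≤ p) :
    ∃ a : ℝ, 0 < a ∧ ∀ s : ℂ, ‖s‖ ≤ 1 → ‖gp p s‖ ≤ 1 - a * ‖s‖ ^ 2 := by
  have hp' : (1 : ℝ) ≤ p := by exact_mod_cast hp
  have hπ := Real.pi_pos
  obtain ⟨x, hx⟩ : ∃ x : ℝ, x = Real.pi / (8 * p) := ⟨_, rfl⟩
  have x0 : 0 < x := by rw [hx]; positivity
  have x1 : 2 * x = Real.pi / (4 * p) := by rw [hx]; field_simp; norm_num
  have x2 : 2 * x ≤ Real.pi / 4 := by rw [x1]; gcongr; linarith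
  have s0 : 0 < Real.sin x := Real.sin_pos_of_pos_of_lt_pi x0 (by linarith)
  refine ⟨(2 * Real.pi)⁻¹ * (x * (Real.sin x ^ 2 / 8)), by positivity, fun s hs => ?_⟩
  have e0 : gp p s = gp p (‖s‖ : ℝ) := by
    conv_lhs => rw [← Complex.norm_mul_exp_arg_mul_I s, mul_comm]
    exact gp_rot p (Complex.norm_exp_ofReal_mul_I _) _
  have hr0 := norm_nonneg s
  rw [e0]
  generalize ‖s‖ = r at hs hr0
  set J := ∫ θ in (0 : ℝ)..(2 * Real.pi), CircA_f p r θ with hJ
  have h1 : conj J = J := by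
    have := intervalIntegral.integral_comp_sub_left (a := 0) (b := 2 * Real.pi) (CircA_f p r) (2 * Real.pi)
    simp only [CircA_conj, sub_self, sub_zero] at this
    rw [intervalIntegral.intervalIntegral_conj] at this
    exact this
  have hi : ∀ a b, IntervalIntegrable (fun θ => (CircA_f p r θ).re) volume a b := fun a b =>
    ⟨(CircA_int p r a b).1.re, (CircA_int p r a b).2.re⟩
  have h2 : J.re = ∫ θ in (0 : ℝ)..(2 * Real.pi), (CircA_f p r θ).re :=
    (Complex.reCLM.intervalIntegral_comp_comm (CircA_int p r _ _)).symm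
  have b1 : ∀ a b, ‖∫ θ in a..b, (CircA_f p r θ).re‖ ≤ 1 * |b - a| := fun a b =>
    intervalIntegral.norm_integral_le_of_norm_le_const fun θ _ =>
      (Complex.abs_re_le_norm _).trans (CircA_norm p r θ)
  have b2 : ‖∫ θ in (Real.pi + x)..(Real.pi + 2 * x), (CircA_f p r θ).re‖ ≤
      (1 - (r * Real.sin x / 2) ^ 2 / 2) * |Real.pi + 2 * x - (Real.pi + x)| :=
    intervalIntegral.norm_integral_le_of_norm_le_const fun θ hθ => by
      rw [Set.uIoc_of_le (by linarith)] at hθ
      have h3 := CircA_im hp hr0 hs (ψ := θ - Real.pi) (by linarith [hθ.1]) (by linarith [hθ.2])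
      rw [add_sub_cancel] at h3
      have h4 : Real.sin x ≤ Real.sin (θ - Real.pi) :=
        Real.sin_le_sin_of_le_of_le_pi_div_two (by linarith) (by linarith [hθ.2]) (by linarith [hθ.1])
      have h5 : (r * Real.sin x / 2) ^ 2 ≤ (r * Real.sin (θ - Real.pi) / 2) ^ 2 := by gcongr
      exact (CircA_re p r θ).trans (by linarith)
  have h3 : ‖J‖ ≤ 2 * Real.pi - x * (Real.sin x ^ 2 / 8) * r ^ 2 := by
    rw [← Complex.conj_eq_iff_re.1 h1, Complex.norm_real, h2,
      ← intervalIntegral.integral_add_adjacent_intervals (hi 0 (Real.pi + x)) (hi _ _),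
      ← intervalIntegral.integral_add_adjacent_intervals (hi (Real.pi + x) (Real.pi + 2 * x)) (hi _ _)]
    refine (norm_add_le _ _).trans ((add_le_add (b1 _ _) ((norm_add_le _ _).trans
      (add_le_add b2 (b1 _ _)))).trans (le_of_eq ?_))
    rw [abs_of_pos (by linarith), abs_of_pos (by linarith), abs_of_pos (by linarith)]
    ring
  rw [CircA_gp, norm_smul, Real.norm_of_nonneg (by positivity)]
  refine (mul_le_mul_of_nonneg_left h3 (by positivity)).trans (le_of_eq ?_)
  field_simp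

end Crest.Agent.R166.H
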