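import Crest.Agent.R166.H.AlgA

/-! Row 166, block H: facts on the circle. -/

set_option autoImplicit false
set_option linter.unusedSectionVars false

open MeasureTheory ProbabilityTheory Filter Topology Complex
open scoped ENNReal NNReal BigOperators Matrix ComplexConjugate

noncomputable section

namespace Crest.Agent.R166.H

/-- a finite measure has countably many atoms (`Measure.countable_meas_level_set_pos`), the circle is uncountable -/
theorem no_atom {X : Type} [MeasurableSpace X] {μ : Measure X} [IsFiniteMeasure μ] {s : X → ℂ}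
    (hs : Measurable s) (h : ∀ c : ℂ, ‖c‖ = 1 → μ {x | s x = c} = μ {x | s x = 1}) : μ {x | s x = 1} = 0 := by
  by_contra h0
  refine Set.not_countable_univ (((Measure.countable_meas_level_set_pos (μ := μ) hs).preimage_circleMap 0
    one_ne_zero).mono fun θ _ => ?_)
  show 0 < μ {x | s x = circleMap 0 1 θ}
  rw [h _ (by simp)]
  exact pos_iff_ne_zero.2 h0
theorem CircB_mom {ν ν' : Measure ℂ} [IsProbabilityMeasure ν] [IsProbabilityMeasure ν']
    (h : ∀ᵐ z ∂ν, ‖z‖ = 1) (h' : ∀ᵐ z ∂ν', ‖z‖ = 1) (hm : ∀ p : ℕ, 1 ≤ p → ∫ z, z ^ p ∂ν = ∫ z, z ^ p ∂ν')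
    (a b : ℕ) : ∫ z, z ^ a * conj z ^ b ∂ν = ∫ z, z ^ a * conj z ^ b ∂ν' := by
  have h0 : ∀ p : ℕ, ∫ z, z ^ p ∂ν = ∫ z, z ^ p ∂ν' := fun p => by
    rcases Nat.eq_zero_or_pos p with rfl | hp
    · simp
    · exact hm p hp
  have h1 : ∀ z : ℂ, ‖z‖ = 1 → z * conj z = 1 := fun z hz => by
    simp [Complex.mul_conj, Complex.normSq_eq_norm_sq, hz]
  rcases le_total b a with hab | hab <;> obtain ⟨p, rfl⟩ := Nat.exists_eq_add_of_le hab
  · have h2 : ∀ z : ℂ, ‖z‖ = 1 → z ^ (b + p) * conj z ^ b = z ^ p := fun z hz => by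
      rw [pow_add, mul_right_comm, ← mul_pow, h1 z hz, one_pow, one_mul]
    rw [integral_congr_ae (h.mono h2), integral_congr_ae (h'.mono h2), h0]
  · have h2 : ∀ z : ℂ, ‖z‖ = 1 → z ^ a * conj z ^ (a + p) = conj (z ^ p) := fun z hz => by
      rw [pow_add, ← mul_assoc, ← mul_pow, h1 z hz, one_pow, one_mul, map_pow]
    rw [integral_congr_ae (h.mono h2), integral_congr_ae (h'.mono h2), integral_conj, integral_conj, h0]
theorem CircB_g : ∃ g : BoundedContinuousFunction ℂ ℂ, Function.Injective g ∧ ∀ z : ℂ, ‖z‖ = 1 → g z = z := by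
  have hp : ∀ z : ℂ, 0 < 1 + ‖z‖ := fun z => by positivity
  have hn : ∀ z : ℂ, ‖(2 / (1 + ‖z‖)) • z‖ = 2 - 2 / (1 + ‖z‖) := fun z => by
    rw [norm_smul, Real.norm_of_nonneg (by positivity)]
    field_simp [(hp z).ne']
    ring
  refine ⟨.ofNormedAddCommGroup (fun z => (2 / (1 + ‖z‖)) • z)
    ((continuous_const.div (by fun_prop) fun z => (hp z).ne').smul continuous_id) 2 fun z => ?_,
    fun z w hzw => ?_, fun z hz => ?_⟩
  · rw [hn]
    exact sub_le_self _ (by positivity)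
  · have h1 : (2 / (1 + ‖z‖)) • z = (2 / (1 + ‖w‖)) • w := hzw
    have h2 := congrArg norm h1
    rw [hn, hn, sub_right_inj] at h2
    rw [← h2] at h1
    exact smul_right_injective ℂ (by positivity) h1
  · show (2 / (1 + ‖z‖)) • z = z
    rw [hz]
    norm_num
/-- Stone-Weierstrass on the circle (`span_fourier_closure_eq_top` with `z ↦ (arg z : AddCircle (2π))`) -/
theorem circle_ext {ν ν' : Measure ℂ} [IsProbabilityMeasure ν] [IsProbabilityMeasure ν']
    (h : ∀ᵐ z ∂ν, ‖z‖ = 1) (h' : ∀ᵐ z ∂ν', ‖z‖ = 1) (hm : ∀ p : ℕ, 1 ≤ p → ∫ z, z ^ p ∂ν = ∫ z, z ^ p ∂ν') :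
    ν = ν' := by
  obtain ⟨g, hg, hg1⟩ := CircB_g
  refine ext_of_forall_mem_subalgebra_integral_eq_of_polish (𝕜 := ℂ) (A := StarAlgebra.adjoin ℂ {g})
    (fun x y hxy => ⟨_, ⟨_, ⟨g, StarAlgebra.self_mem_adjoin_singleton ℂ g, rfl⟩, rfl⟩, hg.ne hxy⟩) fun f hf => ?_
  have h1 : f ∈ Submodule.span ℂ (Submonoid.closure {g, star g} : Set (BoundedContinuousFunction ℂ ℂ)) := by
    rw [← Algebra.adjoin_eq_span]
    have h2 : f ∈ (StarAlgebra.adjoin ℂ {g}).toSubalgebra := hf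
    rwa [StarAlgebra.adjoin_toSubalgebra, Set.star_singleton, Set.singleton_union] at h2
  clear hf
  induction h1 using Submodule.span_induction with
  | mem f hf =>
    obtain ⟨a, b, rfl⟩ := (Submonoid.mem_closure_pair _ _ _).1 hf
    have h2 : ∀ z : ℂ, ‖z‖ = 1 → (g ^ a * star g ^ b) z = z ^ a * conj z ^ b := fun z hz => by
      simp [hg1 z hz]
    rw [integral_congr_ae (h.mono h2), integral_congr_ae (h'.mono h2), CircB_mom h h' hm]
  | zero => simp
  | add f f' _ _ h1 h2 =>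
    simp only [BoundedContinuousFunction.add_apply]
    rw [integral_add (f.integrable ν) (f'.integrable ν), integral_add (f.integrable ν') (f'.integrable ν'),
      h1, h2]
  | smul c f _ h1 =>
    simp only [BoundedContinuousFunction.smul_apply]
    rw [integral_smul, integral_smul, h1]
/-- `‖a 0‖ ≤ ∏ (1 - c/(k+2)) ≤ exp (-c ∑ 1/(k+2)) → 0` -/
theorem eq_zero_of_rec {a : ℕ → ℂ} {c : ℝ} (hc : 0 < c) (h1 : ∀ k, ‖a k‖ ≤ 1)
    (h : ∀ k, ‖a k‖ ≤ ‖a (k + 1)‖ * (1 - c / (k + 2))) (k : ℕ) : a k = 0 := by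
  have hm : Monotone fun k => ‖a k‖ * Real.exp (-(c * ∑ i ∈ Finset.range (k + 1), (1 / (i + 1) : ℝ))) := by
    refine monotone_nat_of_le_succ fun k => ?_
    have h2 : 1 - c / (k + 2) ≤ Real.exp (-(c / (k + 2))) := by
      linarith [Real.add_one_le_exp (-(c / (k + 2)))]
    rw [Finset.sum_range_succ _ (k + 1), mul_add, neg_add, Real.exp_add, mul_comm (Real.exp _), ← mul_assoc]
    refine mul_le_mul_of_nonneg_right ((h k).trans (mul_le_mul_of_nonneg_left (h2.trans_eq ?_)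
      (norm_nonneg _))) (Real.exp_pos _).le
    push_cast
    ring_nf
  have ht : Tendsto (fun k => Real.exp (-(c * ∑ i ∈ Finset.range (k + 1), (1 / (i + 1) : ℝ)))) atTop (𝓝 0) :=
    Real.tendsto_exp_neg_atTop_nhds_zero.comp
      ((Real.tendsto_sum_range_one_div_nat_succ_atTop.comp (tendsto_add_atTop_nat 1)).const_mul_atTop hc)
  have h2 := ge_of_tendsto ht ((eventually_ge_atTop k).mono fun n hn =>
    (hm hn).trans (mul_le_of_le_one_left (Real.exp_pos _).le (h1 n)))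
  exact norm_le_zero_iff.1 (nonpos_of_mul_nonpos_left h2 (Real.exp_pos _))
theorem CircB_act {N : ℕ} {a j : Fin N} (hj : a ≠ j) (c s : ℝ) (S : Mat N) :
    act (cx (rot2 a j c s)) S a a = c * (c * S a a + s * S j a) + s * (c * S a j + s * S j j) := by
  have h1 : ∀ f : Fin N → ℂ, ∑ k, cx (rot2 a j c s) a k * f k = c * f a + s * f j := fun f => by
    rw [Finset.sum_eq_add a j hj (fun k _ hk => ?_) (by simp) (by simp)] <;>
      simp [cx, rot2_apply hj, hj.symm, *]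
  simp only [act, Matrix.mul_apply, Matrix.transpose_apply, h1, mul_comm _ (cx (rot2 a j c s) a _)]
/-- `∫ ‖vᵀ S v‖² = m` for `v = (e₀ ± e_j)/√2` (`rot2`), `S 0 j = (v₊ᵀ S v₊ - v₋ᵀ S v₋)/2`, `∑_j ‖S 0 j‖² = 1`. -/
theorem msq {N : ℕ} {μ : Measure (Mat (N + 1))} [IsProbabilityMeasure μ] (hs : ∀ᵐ S ∂μ, Lam S) (hO : OInv μ) :
    1 / (N + 1 : ℝ) ≤ ∫ S, ‖S 0 0‖ ^ 2 ∂μ := by
  have hi : ∀ i j, Integrable (fun S : Mat (N + 1) => ‖S i j‖ ^ 2) μ := fun i j =>
    (integrable_const (1 : ℝ)).mono' ((measurable_entry i j).norm.pow_const 2).aestronglyMeasurable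
      (hs.mono fun S hS => by
        rw [Real.norm_of_nonneg (sq_nonneg _)]
        exact pow_le_one₀ (norm_nonneg _) (hS.norm_le i j))
  have h1 : ∀ u, Inv μ u → Integrable (fun S => ‖act u S 0 0‖ ^ 2) μ ∧
      ∫ S, ‖act u S 0 0‖ ^ 2 ∂μ = ∫ S, ‖S 0 0‖ ^ 2 ∂μ := fun u hu => by
    refine ⟨hu.integrable_comp_of_integrable (hi 0 0), ?_⟩
    have := integral_map (μ := μ) hu.aemeasurable (hu.map_eq.symm ▸ (hi 0 0).aestronglyMeasurable)
    rw [hu.map_eq] at this
    exact this.symm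
  have h2 : ∀ j, ∫ S, ‖S 0 j‖ ^ 2 ∂μ ≤ ∫ S, ‖S 0 0‖ ^ 2 ∂μ := fun j => by
    rcases eq_or_ne 0 j with rfl | hj
    · exact le_rfl
    obtain ⟨c, hc⟩ : ∃ c : ℝ, c ^ 2 = 1 / 2 := ⟨√(1 / 2), Real.sq_sqrt (by norm_num)⟩
    obtain ⟨p1, p2⟩ := h1 _ (hO _ (rot2_orth hj (c := c) (s := c) (by linarith)))
    obtain ⟨q1, q2⟩ := h1 _ (hO _ (rot2_orth hj (c := c) (s := -c) (by linarith)))
    have h3 := integral_mono_ae ((hi 0 j).const_mul 2) (p1.add q1) (hs.mono fun S hS => by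
      have h4 : S j 0 = S 0 j := congrFun (congrFun hS.2 0) j
      have h5 : act (cx (rot2 0 j c c)) S 0 0 - act (cx (rot2 0 j c (-c))) S 0 0 = 2 * S 0 j := by
        have hc' : (c : ℂ) ^ 2 = 1 / 2 := by
          rw [← Complex.ofReal_pow, hc]
          norm_num
        rw [CircB_act hj, CircB_act hj, h4]
        push_cast
        linear_combination 4 * S 0 j * hc'
      have h6 := norm_sub_le (act (cx (rot2 0 j c c)) S 0 0) (act (cx (rot2 0 j c (-c))) S 0 0)
      rw [h5, norm_mul, Complex.norm_two] at h6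
      simp only [Pi.add_apply]
      nlinarith [norm_nonneg (S 0 j), sq_nonneg (‖act (cx (rot2 0 j c c)) S 0 0‖ -
        ‖act (cx (rot2 0 j c (-c))) S 0 0‖)])
    rw [integral_const_mul, integral_add' p1 q1, p2, q2] at h3
    linarith
  have h3 : ∑ j, ∫ S, ‖S 0 j‖ ^ 2 ∂μ = 1 := by
    rw [← integral_finset_sum _ fun j _ => hi 0 j, integral_congr_ae (hs.mono fun S hS => hS.sum_sq 0)]
    simp
  have h4 := Finset.sum_le_card_nsmul Finset.univ _ _ fun j _ => h2 j
  rw [h3, Finset.card_univ, Fintype.card_fin, nsmul_eq_mul] at h4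
  rw [div_le_iff₀' (by positivity)]
  exact_mod_cast h4

end Crest.Agent.R166.H
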