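import Crest.Agent.R166.H.Haar
import Crest.Agent.R166.H.CircA
import Crest.Agent.R166.H.CircB

/-! Row 166, block H: uniqueness of the limiting family. -/

set_option autoImplicit false
set_option linter.unusedSectionVars false

open MeasureTheory ProbabilityTheory Filter Topology Complex
open scoped ENNReal NNReal BigOperators Matrix ComplexConjugate

noncomputable section

namespace Crest.Agent.R166.H

theorem Ph.rot {N : ℕ} {μ : Measure (Mat (N + 2))} (h : Ph μ) {c : ℂ} (hc : ‖c‖ = 1) :
    ∃ u, Inv μ u ∧ ∀ S, (act u S).det = S.det ∧ act u S 0 0 = c * S 0 0 := by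
  obtain ⟨r, rfl⟩ := IsAlgClosed.exists_pow_nat_eq c two_pos
  rw [norm_pow, pow_eq_one_iff_of_nonneg (norm_nonneg _) two_ne_zero] at hc
  have h0 : r ≠ 0 := norm_ne_zero_iff.1 (by simp [hc])
  have hp : ∏ i, (Fin.cons r (Fin.cons r⁻¹ 1) : Fin (N + 2) → ℂ) i = 1 := by simp [Fin.prod_univ_succ, h0]
  refine ⟨_, h _ (Fin.cases hc (Fin.cases (by simp [hc]) (by simp))) hp, fun S => ⟨?_, ?_⟩⟩
  · rw [det_act, Matrix.det_diagonal, hp, one_pow, one_mul]
  · rw [act_diagonal, Fin.cons_zero]
    ring

theorem Ph.atom {N : ℕ} {μ : Measure (Mat (N + 2))} [IsFiniteMeasure μ] (h : Ph μ) : μ {S | S 0 0 = 1} = 0 :=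
  no_atom (measurable_entry 0 0) fun c hc => by
    obtain ⟨u, hu, h1⟩ := h.rot hc
    refine (hu.measure_preimage ((measurable_entry 0 0) (measurableSet_singleton c)).nullMeasurableSet).symm.trans
      (congrArg μ ?_)
    ext S
    simp [(h1 S).2, norm_ne_zero_iff.1 (hc.trans_ne one_ne_zero)]

variable {μ μ' : ∀ N, Measure (Mat N)}

theorem Fam.ph_of_succ (h : Fam μ) (N : ℕ) (hP : Ph (μ (N + 1))) : Ph (μ N) := by
  intro d hd hp
  rcases N with _ | N
  · exact Subsingleton.elim 1 (Matrix.diagonal d) ▸ inv_one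
  have := h.prob (N + 2)
  have h1 := h.cons _ hP.atom
  have h2 := hP (Fin.cons 1 d) (Fin.cases norm_one hd) (by simpa [Fin.prod_univ_succ] using hp)
  refine ⟨measurable_act _, ?_⟩
  conv_lhs => rw [← h1.map_eq]
  rw [Measure.map_map (measurable_act _) measurable_sub, ← (h1.comp h2).map_eq]
  congr 1
  ext S i j
  simp only [Function.comp, act_diagonal, sub, Matrix.of_apply, Fin.cons_zero, Fin.cons_succ]
  ring

theorem Fam.ph (h : Fam μ) (N : ℕ) : Ph (μ N) := by
  obtain ⟨M, hM, hS⟩ := h.sw N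
  have := h.prob M
  exact Nat.decreasingInduction (motive := fun k _ => Ph (μ k)) (fun k _ => h.ph_of_succ k)
    (hS.ph (h.orth M)) hM

theorem norm_ratio_le (z : ℂ) (p : ℕ) : ‖((1 - conj z) / (z - 1)) ^ p‖ ≤ 1 := by
  rw [norm_pow, norm_div, ← map_one conj, ← map_sub, Complex.norm_conj, map_one, norm_sub_rev]
  exact pow_le_one₀ (by positivity) (div_self_le_one _)

theorem Fam.mom_succ (h : Fam μ) (N p : ℕ) :
    ∫ S, S.det ^ p ∂μ (N + 1) = ∫ S, S.det ^ p * gp p (S 0 0) ∂μ (N + 2) := by
  have := h.prob (N + 2)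
  have hP := h.ph (N + 2)
  have mφ : Measurable fun z : ℂ => ((1 - conj z) / (z - 1)) ^ p := by fun_prop
  have md := (measurable_det (ι := Fin (N + 2))).pow_const p
  have h1 : ∀ θ : ℝ, ∫ S, S.det ^ p * ((1 - conj (cexp (θ * I) * S 0 0)) / (cexp (θ * I) * S 0 0 - 1)) ^ p
      ∂μ (N + 2) = ∫ S, S.det ^ p ∂μ (N + 1) := fun θ => by
    obtain ⟨u, hu, h1⟩ := hP.rot (norm_exp_ofReal_mul_I θ)
    have h2 := hu.integral_comp_of_sm (F := fun S => S.det ^ p * ((1 - conj (S 0 0)) / (S 0 0 - 1)) ^ p)
      (md.mul (mφ.comp (measurable_entry 0 0)))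
    simp only [h1] at h2
    rw [h2, ← (h.cons _ hP.atom).integral_comp_of_sm (measurable_det.pow_const p)]
    refine integral_congr_ae ?_
    filter_upwards [h.supp (N + 2), compl_mem_ae_iff.2 hP.atom] with S h1 h2
    rw [det_sub h1 h2, mul_pow]
  have i1 : Integrable (Function.uncurry fun (θ : ℝ) (S : Mat (N + 2)) =>
      S.det ^ p * ((1 - conj (cexp (θ * I) * S 0 0)) / (cexp (θ * I) * S 0 0 - 1)) ^ p)
      ((volume.restrict (Set.Ioc 0 (2 * Real.pi))).prod (μ (N + 2))) := by
    refine .of_bound ((md.comp measurable_snd).mul (mφ.comp (Measurable.mul (by fun_prop)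
      ((measurable_entry 0 0).comp measurable_snd)))).aestronglyMeasurable 1 ?_
    filter_upwards [Measure.quasiMeasurePreserving_snd.ae (h.supp (N + 2))] with q hq
    refine (norm_mul _ _).trans_le ?_
    rw [norm_pow, hq.norm_det, one_pow, one_mul]
    exact norm_ratio_le _ _
  have h2 := integral_integral_swap i1
  simp only [h1, ← intervalIntegral.integral_of_le Real.two_pi_pos.le, intervalIntegral.integral_const_mul,
    intervalIntegral.integral_const, sub_zero] at h2
  simp only [gp, mul_smul_comm, integral_smul, ← h2, inv_smul_smul₀ Real.two_pi_pos.ne']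

theorem Fam.mom (h : Fam μ) (N : ℕ) {p : ℕ} (hp : 1 ≤ p) : ∫ S, S.det ^ p ∂μ (N + 1) = 0 := by
  obtain ⟨a, ha, hg⟩ := norm_gp_le hp
  refine eq_zero_of_rec (a := fun k => ∫ S, S.det ^ p ∂μ (k + 1)) ha (fun k => ?_) (fun k => ?_) N
  · have := h.prob (k + 1)
    simpa using norm_integral_le_of_norm_le_const (C := 1) ((h.supp (k + 1)).mono fun S hS => by
      rw [norm_pow, hS.norm_det, one_pow])
  have := h.prob (k + 2)
  have i1 : Integrable (fun S : Mat (k + 2) => ‖S 0 0‖ ^ 2) (μ (k + 2)) :=
    .of_bound ((measurable_entry 0 0).norm.pow_const 2).aestronglyMeasurable 1 ((h.supp _).mono fun S hS => by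
      simpa using pow_le_one₀ (n := 2) (norm_nonneg _) (hS.norm_le 0 0))
  rw [h.mom_succ, factor (h.supp _) (h.orth _) (h.ph _) (F := fun S => gp p (S 0 0))
    ((measurable_gp p).comp (measurable_entry 0 0)) (C := 1)
    (fun S hS => (hg _ (hS.norm_le 0 0)).trans (sub_le_self _ (by positivity)))
    (fun c S hc => gp_rot p hc _) (continuous_pow p), norm_mul]
  refine mul_le_mul_of_nonneg_left ((norm_integral_le_of_norm_le ((integrable_const 1).sub (i1.const_mul a))
    ((h.supp _).mono fun S hS => hg _ (hS.norm_le 0 0))).trans ?_) (norm_nonneg _)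
  have h1 := mul_le_mul_of_nonneg_left (msq (h.supp (k + 2)) (h.orth _)) ha.le
  rw [integral_sub' (integrable_const 1) (i1.const_mul a), integral_const_mul]
  simp only [integral_const, probReal_univ, one_smul]
  rw [mul_one_div, Nat.cast_succ, add_assoc, one_add_one_eq_two] at h1
  linarith

theorem Fam.det_eq (h : Fam μ) (h' : Fam μ') (N : ℕ) {c : ℂ} (hc : ‖c‖ = 1) :
    (μ (N + 1)).map (fun S => c * S.det) = (μ' (N + 1)).map Matrix.det := by
  have := h.prob (N + 1)
  have := h'.prob (N + 1)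
  have m1 := (measurable_det (ι := Fin (N + 1))).const_mul c
  have := Measure.isProbabilityMeasure_map (μ := μ (N + 1)) m1.aemeasurable
  have := Measure.isProbabilityMeasure_map (μ := μ' (N + 1)) measurable_det.aemeasurable
  have hm : MeasurableSet {z : ℂ | ‖z‖ = 1} := measurable_norm (measurableSet_singleton 1)
  refine circle_ext ((ae_map_iff m1.aemeasurable hm).2 ((h.supp _).mono fun S hS => by
    rw [norm_mul, hc, hS.norm_det, one_mul]))
    ((ae_map_iff measurable_det.aemeasurable hm).2 ((h'.supp _).mono fun S hS => hS.norm_det)) fun p hp => ?_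
  rw [integral_map_of_stronglyMeasurable m1 (continuous_pow p).stronglyMeasurable,
    integral_map_of_stronglyMeasurable measurable_det (continuous_pow p).stronglyMeasurable, h'.mom N hp]
  simp only [mul_pow, integral_const_mul, h.mom N hp, mul_zero]

theorem Fam.unique (h : Fam μ) (h' : Fam μ') (N : ℕ) : μ (N + 1) = μ' (N + 1) := by
  have := h.prob (N + 1)
  have := h'.prob (N + 1)
  exact eq_of_det (h.supp _) (h.orth _) (h.ph _) (h'.supp _) (h'.orth _) (h'.ph _)
    (by simpa using h.det_eq h' N norm_one)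

theorem Fam.atom (h : Fam μ) : μ 1 {S | S 0 0 = 1} = 0 := by
  have := h.prob 1
  refine no_atom (measurable_entry 0 0) fun c hc => ?_
  have h1 := congrArg (· {c}) (h.det_eq h 0 hc)
  simp only [Measure.map_apply (measurable_det.const_mul c) (measurableSet_singleton c),
    Measure.map_apply measurable_det (measurableSet_singleton c)] at h1
  convert h1.symm using 2 <;> ext S <;> simp [norm_ne_zero_iff.1 (hc.trans_ne one_ne_zero)]

end Crest.Agent.R166.H
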