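import Crest.Agent.R166.H.X0
import Crest.Agent.R166.H.Lim
import Crest.Agent.R166.H.Uniq

/-! Row 166, block H: main theorem. -/

set_option autoImplicit false
set_option linter.unusedSectionVars false

open MeasureTheory ProbabilityTheory Filter Topology Complex
open scoped ENNReal NNReal BigOperators Matrix ComplexConjugate

noncomputable section

namespace Crest.Agent.R166.H

theorem modelE_nonneg {n N : ℕ} (b : ℝ → ℝ) {δ : ℝ} (hδ : 0 < δ) {F : Mat N → ℝ} (hF : ∀ S, 0 ≤ F S)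
    (ξ : Fin n → ℝ) : 0 ≤ modelE b δ F ξ :=
  mul_nonneg (inv_nonneg.2 hδ.le) (intervalIntegral.integral_nonneg hδ.le fun _ _ =>
    integral_nonneg fun _ => hF _)

theorem approx {n N : ℕ} {P : Measure (Fin n → ℝ)} [IsProbabilityMeasure P] {b h : ℝ → ℝ} {δ ε C R₁ R : ℝ}
    {F : Mat N → ℝ} {G : Mat 1 → ℝ} (hb : Measurable b) (hδ : 0 < δ) (hF : Continuous F)
    (hF1 : ∀ S, 0 ≤ F S ∧ F S ≤ 1) (hG : Continuous G) (hG1 : ∀ S, 0 ≤ G S ∧ G S ≤ 1) (hc : Continuous h)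
    (h0 : ∀ t, 0 ≤ h t) (hε : 0 < ε)
    (hx : ∀ ξ : Fin n → ℝ, ∑ i, R₁ / (ξ i ^ 2 + R₁ ^ 2) ≤ C → ∑ i, R / (ξ i ^ 2 + R ^ 2) ≤ C →
      |modelE b δ F ξ - Real.exp (-∑ i, h (ξ i))| ≤ ε + 4 * modelE b δ G ξ)
    (h1 : P {ξ | C < ∑ i, R₁ / (ξ i ^ 2 + R₁ ^ 2)} ≤ ENNReal.ofReal ε)
    (h2 : P {ξ | C < ∑ i, R / (ξ i ^ 2 + R ^ 2)} ≤ ENNReal.ofReal ε) :
    |∫ ξ, modelE b δ F ξ ∂P - ∫ ξ, Real.exp (-∑ i, h (ξ i)) ∂P| ≤ 5 * ε + 4 * ∫ ξ, modelE b δ G ξ ∂P := by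
  have a1 := abs_modelE_le (n := n) b hδ (F := F) (C := 1) fun S _ => abs_le.2 ⟨by linarith [hF1 S], (hF1 S).2⟩
  have a2 := abs_modelE_le (n := n) b hδ (F := G) (C := 1) fun S _ => abs_le.2 ⟨by linarith [hG1 S], (hG1 S).2⟩
  have a3 : ∀ ξ : Fin n → ℝ, |Real.exp (-∑ i, h (ξ i))| ≤ 1 := fun ξ => by
    rw [abs_of_pos (Real.exp_pos _), Real.exp_le_one_iff, neg_nonpos]
    exact Finset.sum_nonneg fun i _ => h0 _
  have i1 : Integrable (modelE b δ F) P :=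
    .of_bound (measurable_modelE hb δ hF.measurable).aestronglyMeasurable 1 (ae_of_all _ a1)
  have i2 : Integrable (modelE b δ G) P :=
    .of_bound (measurable_modelE hb δ hG.measurable).aestronglyMeasurable 1 (ae_of_all _ a2)
  have i3 : Integrable (fun ξ : Fin n → ℝ => Real.exp (-∑ i, h (ξ i))) P :=
    .of_bound (Continuous.aestronglyMeasurable (by fun_prop)) 1 (ae_of_all _ a3)
  set A := {ξ : Fin n → ℝ | C < ∑ i, R₁ / (ξ i ^ 2 + R₁ ^ 2)} ∪ {ξ | C < ∑ i, R / (ξ i ^ 2 + R ^ 2)}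
  have hA : MeasurableSet A :=
    (measurableSet_lt measurable_const (by fun_prop)).union (measurableSet_lt measurable_const (by fun_prop))
  have hP : P.real A ≤ ε + ε := (measureReal_union_le _ _).trans
    (add_le_add (ENNReal.toReal_le_of_le_ofReal hε.le h1) (ENNReal.toReal_le_of_le_ofReal hε.le h2))
  have i4 : Integrable (A.indicator fun _ => (2 : ℝ)) P := (integrable_const _).indicator hA
  rw [← integral_sub i1 i3]
  refine abs_integral_le_integral_abs.trans ((integral_mono (i1.sub i3).abs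
    (((integrable_const ε).add (i2.const_mul 4)).add i4) fun ξ => ?_).trans ?_)
  · have := modelE_nonneg b hδ (fun S => (hG1 S).1) ξ
    by_cases hξ : ξ ∈ A
    · simp only [Pi.add_apply, Pi.sub_apply, Set.indicator_of_mem hξ]
      linarith [abs_sub (modelE b δ F ξ) (Real.exp (-∑ i, h (ξ i))), a1 ξ, a3 ξ]
    · simp only [Pi.add_apply, Pi.sub_apply, Set.indicator_of_notMem hξ, add_zero]
      exact hx ξ (not_lt.1 fun h => hξ (Or.inl h)) (not_lt.1 fun h => hξ (Or.inr h))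
  · rw [integral_add' ((integrable_const ε).add (i2.const_mul 4)) i4,
      integral_add' (integrable_const ε) (i2.const_mul 4), integral_const_mul, integral_indicator_const _ hA]
    simp only [integral_const, probReal_univ, smul_eq_mul]
    linarith

theorem _root_.Crest.Agent.R166.stH : StH := by
  intro n n' P P' b b' _ _ hb hb' h1 h1' h2 h2' h hc hs h0
  set D := fun j => ∫ ξ, Real.exp (-∑ i, h (ξ i)) ∂P j - ∫ ξ, Real.exp (-∑ i, h (ξ i)) ∂P' j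
  suffices H : Tendsto (fun p : ℝ × ℕ => D p.2) (Filter.curry atTop atTop) (𝓝 0) from
    fun s hs => (eventually_curry_iff.1 (H hs)).exists.choose_spec
  refine (tendsto_iff_ultrafilter _ _ _).2 fun U hU => Metric.tendsto_nhds.2 fun e he => ?_
  obtain ⟨ε, hε, rfl⟩ : ∃ ε, 0 < ε ∧ e = 30 * ε := ⟨e / 30, by positivity, by ring⟩
  obtain ⟨C, hC⟩ := h1 ε hε
  obtain ⟨C', hC'⟩ := h1' ε hε
  obtain ⟨R₀, H⟩ := x0 hc hs h0 hε (max C C')
  obtain ⟨R₁, r1, r2, r3⟩ := ((eventually_ge_atTop R₀).and (hC.and hC')).exists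
  obtain ⟨δ, hδ, hδ1, R₂, H⟩ := H R₁ r1
  obtain ⟨R, r4, r5, r6⟩ := ((eventually_ge_atTop R₂).and (hC.and hC')).exists
  obtain ⟨μ, hμ, t⟩ := exists_fam hb.1 h2 hδ hδ1 U hU
  obtain ⟨μ', hμ', t'⟩ := exists_fam hb'.1 h2' hδ hδ1 U hU
  have := hμ.prob 1
  obtain ⟨η, hη, hχ⟩ := exists_chi (μ 1) (measurable_entry 0 0) hμ.atom hε
  obtain ⟨N, F, ε', hF, hF1, hε', H⟩ := H R r4 η hη
  have hG : Continuous fun S : Mat 1 => chi η (S 0 0) := (continuous_chi hη).comp (by fun_prop)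
  have hG1 := fun S : Mat 1 => And.intro (chi_pos hη (S 0 0)).le (chi_le_one hη (S 0 0))
  have e1 := Metric.tendsto_nhds.1 (t _ F hF) ε hε
  have e2 := Metric.tendsto_nhds.1 (t' _ F hF) ε hε
  have e3 := Metric.tendsto_nhds.1 (t _ _ hG) ε hε
  have e4 := Metric.tendsto_nhds.1 (t' _ _ hG) ε hε
  rw [← hμ.unique hμ' N] at e2
  rw [← show μ 1 = μ' 1 from hμ.unique hμ' 0] at e4
  have f1 : Tendsto Prod.fst (U : Filter (ℝ × ℕ)) atTop := fun s hs =>
    hU (eventually_curry_iff.2 (Filter.Eventually.mono hs fun L hL => .of_forall fun _ => hL))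
  have f2 : Tendsto Prod.snd (U : Filter (ℝ × ℕ)) atTop := fun s hs =>
    hU (eventually_curry_iff.2 (.of_forall fun _ => hs))
  filter_upwards [e1, e2, e3, e4, f1 ((hb.2.2 R ε' hε').and (hb'.2.2 R ε' hε')),
    f2 ((r2.and r3).and (r5.and r6))] with p e1 e2 e3 e4 ⟨b1, b2⟩ ⟨⟨c1, c2⟩, c3, c4⟩
  have a1 := approx (P := P p.2) (hb.1 p.1) hδ hF hF1 hG hG1 hc h0 hε
    (fun ξ => H _ _ ξ (hb.1 _) (hb.2.1 _) b1)
    (le_trans (measure_mono fun ξ hξ => lt_of_le_of_lt (le_max_left C C') hξ) c1)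
    (le_trans (measure_mono fun ξ hξ => lt_of_le_of_lt (le_max_left C C') hξ) c3)
  have a2 := approx (P := P' p.2) (hb'.1 p.1) hδ hF hF1 hG hG1 hc h0 hε
    (fun ξ => H _ _ ξ (hb'.1 _) (hb'.2.1 _) b2)
    (le_trans (measure_mono fun ξ hξ => lt_of_le_of_lt (le_max_right C C') hξ) c2)
    (le_trans (measure_mono fun ξ hξ => lt_of_le_of_lt (le_max_right C C') hξ) c4)
  simp only [Real.dist_eq, EE, sub_zero, D, abs_lt, abs_le] at e1 e2 e3 e4 a1 a2 ⊢
  constructor <;> linarith [e1.1, e1.2, e2.1, e2.2, e3.2, e4.2, a1.1, a1.2, a2.1, a2.2]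

end Crest.Agent.R166.H
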