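import Crest.Agent.R166.H.Defs

/-! Row 166, block H: algebra of the Cayley transform. -/

set_option autoImplicit false
set_option linter.unusedSectionVars false

open MeasureTheory ProbabilityTheory Filter Topology Complex
open scoped ENNReal NNReal BigOperators Matrix ComplexConjugate

noncomputable section

namespace Crest.Agent.R166.H

variable {ι κ : Type} [Fintype ι] [DecidableEq ι] [Fintype κ] [DecidableEq κ] {N : ℕ}

theorem cx_mul {τ : Type} (A : Matrix κ ι ℝ) (B : Matrix ι τ ℝ) : cx (A * B) = cx A * cx B := by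
  ext i j
  simp [cx, Matrix.mul_apply]
theorem cx_one : cx (1 : Matrix ι ι ℝ) = 1 := by
  ext i j
  simp only [cx, Matrix.map_apply, Matrix.one_apply]
  split_ifs <;> simp
theorem cx_transpose (A : Matrix κ ι ℝ) : cx Aᵀ = (cx A)ᵀ := rfl
theorem cx_star (A : Matrix ι ι ℝ) : star (cx A) = (cx A)ᵀ := by
  ext i j
  simp [cx]
theorem cx_mem {O : Matrix ι ι ℝ} (h : O * Oᵀ = 1) : cx O ∈ Matrix.unitaryGroup ι ℂ := by
  rw [Matrix.mem_unitaryGroup_iff, cx_star, ← cx_transpose, ← cx_mul, h, cx_one]
theorem det_cx_sq {O : Matrix ι ι ℝ} (h : O * Oᵀ = 1) : (cx O).det ^ 2 = 1 := by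
  have := congrArg Matrix.det (congrArg cx h)
  rwa [cx_mul, cx_transpose, cx_one, Matrix.det_mul, Matrix.det_transpose, Matrix.det_one, ← sq] at this
theorem act_mul {τ : Type} (u : Matrix τ κ ℂ) (v : Matrix κ ι ℂ) (S : Matrix ι ι ℂ) :
    act (u * v) S = act u (act v S) := by
  simp only [act, Matrix.transpose_mul, Matrix.mul_assoc]
theorem act_one (S : Matrix ι ι ℂ) : act 1 S = S := by
  simp [act]
theorem act_diagonal (d : ι → ℂ) (S : Matrix ι ι ℂ) (i j : ι) :
    act (Matrix.diagonal d) S i j = d i * S i j * d j := by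
  simp [act]
theorem det_act (u S : Matrix ι ι ℂ) : (act u S).det = u.det ^ 2 * S.det := by
  rw [act, Matrix.det_mul, Matrix.det_mul, Matrix.det_transpose]
  ring
theorem continuous_act : Continuous fun p : Matrix κ ι ℂ × Matrix ι ι ℂ => act p.1 p.2 := by
  unfold act
  fun_prop
theorem measurable_act (u : Matrix κ ι ℂ) : Measurable (act u : Matrix ι ι ℂ → Matrix κ κ ℂ) := by
  exact (continuous_act.comp (Continuous.prodMk_right u)).measurable
theorem measurable_sub : Measurable (sub : Mat (N + 1) → Mat N) := by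
  have h : ∀ i j : Fin (N + 1), Measurable fun S : Mat (N + 1) => S i j := fun i j =>
    (measurable_pi_apply j).comp (measurable_pi_apply i)
  exact measurable_pi_lambda _ fun i => measurable_pi_lambda _ fun j =>
    (h _ _).add (((h _ _).mul (h _ _)).div (measurable_const.sub (h _ _)))
theorem measurable_entry (i : κ) (j : ι) : Measurable fun S : Matrix κ ι ℂ => S i j := by
  exact (measurable_pi_apply j).comp (measurable_pi_apply i)
theorem measurable_det : Measurable fun S : Matrix ι ι ℂ => S.det := by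
  exact (Continuous.matrix_det continuous_id).measurable
theorem Lam.norm_le {S : Matrix ι ι ℂ} (h : Lam S) (i j : ι) : ‖S i j‖ ≤ 1 := by
  exact entry_norm_bound_of_unitary h.1 i j
theorem Lam.norm_det {S : Matrix ι ι ℂ} (h : Lam S) : ‖S.det‖ = 1 := by
  exact CStarRing.norm_of_mem_unitary (Matrix.det_of_mem_unitary h.1)
theorem Lam.sum_sq {S : Matrix ι ι ℂ} (h : Lam S) (i : ι) : ∑ j, ‖S i j‖ ^ 2 = 1 := by
  have h1 := congrFun (congrFun (Matrix.mem_unitaryGroup_iff.1 h.1) i) i
  simp only [Matrix.mul_apply, Matrix.star_apply, Matrix.one_apply_eq, RCLike.star_def, Complex.mul_conj,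
    Complex.normSq_eq_norm_sq] at h1
  exact_mod_cast h1
theorem lam_diagonal {d : ι → ℂ} (hd : ∀ i, ‖d i‖ = 1) : Lam (Matrix.diagonal d) := by
  refine ⟨?_, Matrix.diagonal_transpose d⟩
  rw [Matrix.mem_unitaryGroup_iff, Matrix.star_eq_conjTranspose, Matrix.diagonal_conjTranspose,
    Matrix.diagonal_mul_diagonal, ← Matrix.diagonal_one]
  congr 1
  funext i
  simp [Complex.mul_conj, Complex.normSq_eq_norm_sq, hd]
theorem isCompact_unitary : IsCompact (Matrix.unitaryGroup ι ℂ : Set (Matrix ι ι ℂ)) := by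
  have h1 : IsCompact (Set.univ.pi fun _ : ι => Set.univ.pi fun _ : ι => Metric.closedBall (0 : ℂ) 1) :=
    isCompact_univ_pi fun _ => isCompact_univ_pi fun _ => isCompact_closedBall 0 1
  have h2 : IsClosed {S : Matrix ι ι ℂ | S * star S = 1} := isClosed_eq (by fun_prop) continuous_const
  have h3 : (Matrix.unitaryGroup ι ℂ : Set (Matrix ι ι ℂ)) = {S : Matrix ι ι ℂ | S * star S = 1} :=
    Set.ext fun S => Matrix.mem_unitaryGroup_iff
  exact IsCompact.of_isClosed_subset h1 (h3 ▸ h2) fun S hS i _ j _ =>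
    mem_closedBall_zero_iff.2 (entry_norm_bound_of_unitary hS i j)
theorem isCompact_lam : IsCompact {S : Matrix ι ι ℂ | Lam S} := by
  exact isCompact_unitary.inter_right (isClosed_eq (f := fun S : Matrix ι ι ℂ => Sᵀ) (by fun_prop) continuous_id)
theorem rot2_orth {a b : Fin N} (hab : a ≠ b) {c s : ℝ} (h : c ^ 2 + s ^ 2 = 1) :
    rot2 a b c s * (rot2 a b c s)ᵀ = 1 := by
  have e : (rot2 a b c s)ᵀ = 1 + (c - 1) • (Matrix.single a a 1 + Matrix.single b b 1) -
      s • (Matrix.single a b 1 - Matrix.single b a 1) := by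
    simp only [rot2, Matrix.transpose_add, Matrix.transpose_smul, Matrix.transpose_sub, Matrix.transpose_one,
      Matrix.transpose_single, smul_sub]
    abel
  rw [e, rot2]
  simp only [Matrix.add_mul, Matrix.mul_add, Matrix.mul_sub, Matrix.sub_mul, Matrix.smul_mul, Matrix.mul_smul,
    Matrix.one_mul, Matrix.mul_one, Matrix.single_mul_single_same, Matrix.single_mul_single_of_ne _ _ _ _ hab,
    Matrix.single_mul_single_of_ne _ _ _ _ hab.symm, mul_one]
  match_scalars <;> linarith
theorem rot2_apply {a b : Fin N} (hab : a ≠ b) (c s : ℝ) (j : Fin N) :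
    rot2 a b c s a j = if j = a then c else if j = b then s else 0 := by
  simp only [rot2, Matrix.add_apply, Matrix.smul_apply, Matrix.sub_apply, Matrix.one_apply, Matrix.single_apply,
    smul_eq_mul]
  by_cases h1 : j = a
  · subst h1
    simp [hab.symm]
  · by_cases h2 : j = b
    · subst h2
      simp [hab, hab.symm]
    · simp [h1, h2, Ne.symm h1, Ne.symm h2]
theorem chi_pos {η : ℝ} (hη : 0 < η) (s : ℂ) : 0 < chi η s := by
  unfold chi
  positivity
theorem chi_le_one {η : ℝ} (hη : 0 < η) (s : ℂ) : chi η s ≤ 1 := by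
  exact div_le_one_of_le₀ (le_add_of_nonneg_right (norm_nonneg _)) (by positivity)
theorem continuous_chi {η : ℝ} (hη : 0 < η) : Continuous (chi η) := by
  exact continuous_const.div (by fun_prop) fun s => by positivity
/-- dominated convergence: `chi (1/(k+1)) s → 1_{s = 1}` -/
theorem exists_chi {X : Type} [MeasurableSpace X] (μ : Measure X) [IsFiniteMeasure μ] {s : X → ℂ}
    (hs : Measurable s) (h : μ {x | s x = 1} = 0) {ε : ℝ} (hε : 0 < ε) :
    ∃ η : ℝ, 0 < η ∧ ∫ x, chi η (s x) ∂μ ≤ ε := by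
  have hp : ∀ k : ℕ, (0 : ℝ) < 1 / ((k : ℝ) + 1) := fun k => by positivity
  have h1 : Tendsto (fun k : ℕ => ∫ x, chi (1 / ((k : ℝ) + 1)) (s x) ∂μ) atTop (𝓝 (∫ _x, (0 : ℝ) ∂μ)) := by
    refine tendsto_integral_of_dominated_convergence (fun _ => 1)
      (fun k => ((continuous_chi (hp k)).measurable.comp hs).aestronglyMeasurable) (integrable_const 1)
      (fun k => Eventually.of_forall fun x => by
        rw [Real.norm_of_nonneg (chi_pos (hp k) _).le]; exact chi_le_one (hp k) _) ?_
    filter_upwards [measure_eq_zero_iff_ae_notMem.1 h] with x hx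
    have h0 : ‖1 - s x‖ ≠ 0 := norm_ne_zero_iff.2 (sub_ne_zero.2 (Ne.symm hx))
    have := tendsto_one_div_add_atTop_nhds_zero_nat (𝕜 := ℝ)
    have h2 := this.div (this.add_const ‖1 - s x‖) (by simpa using h0)
    rw [zero_div] at h2
    exact h2
  rw [integral_zero] at h1
  obtain ⟨k, hk⟩ := (h1.eventually (eventually_le_nhds hε)).exists
  exact ⟨_, hp k, hk⟩

end Crest.Agent.R166.H
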