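import Crest.Agent.R166.H.AlgA

/-! Row 166, block H: algebra of the Cayley transform. -/

set_option autoImplicit false
set_option linter.unusedSectionVars false

open MeasureTheory ProbabilityTheory Filter Topology Complex
open scoped ENNReal NNReal BigOperators Matrix ComplexConjugate

noncomputable section

namespace Crest.Agent.R166.H

variable {ι κ : Type} [Fintype ι] [DecidableEq ι] [Fintype κ] [DecidableEq κ] {N : ℕ}

theorem algB_cay (K : Matrix ι ι ℝ) : cay K = 1 - (2 * I) • (cx K + I • (1 : Matrix ι ι ℂ))⁻¹ := rfl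

theorem algB_star {K : Matrix ι ι ℝ} (hK : Kᵀ = K) : star (cx K) = cx K := by
  rw [cx_star, ← cx_transpose, hK]

theorem algB_mul {K : Matrix ι ι ℝ} (hK : Kᵀ = K) :
    (cx K + I • (1 : Matrix ι ι ℂ)) * star (cx K + I • (1 : Matrix ι ι ℂ)) = 1 + cx K * cx K ∧
    star (cx K + I • (1 : Matrix ι ι ℂ)) * (cx K + I • (1 : Matrix ι ι ℂ)) = 1 + cx K * cx K := by
  simp only [star_add, star_smul, star_one, algB_star hK, Complex.star_def, conj_I, add_mul, mul_add,
    mul_smul_comm, smul_mul_assoc, mul_one, one_mul, smul_add, smul_smul, neg_mul, mul_neg, I_mul_I, neg_neg,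
    one_smul, neg_smul, smul_neg]
  constructor <;> abel

/-- `(K + i) v = 0` gives `im (v* K v) + |v|² = 0`; or `(K + i)(K - i) = K² + 1` is positive definite. -/
theorem isUnit_cay {K : Matrix ι ι ℝ} (hK : Kᵀ = K) : IsUnit (cx K + I • (1 : Matrix ι ι ℂ)).det := by
  open scoped ComplexOrder in
  have h := (Matrix.PosDef.one.add_posSemidef (Matrix.posSemidef_self_mul_conjTranspose (cx K))).isUnit
  rw [← Matrix.star_eq_conjTranspose, algB_star hK, ← (algB_mul hK).1, Matrix.isUnit_iff_isUnit_det,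
    Matrix.det_mul] at h
  exact isUnit_of_mul_isUnit_left h
/-- with `G = (K + i)⁻¹`: `Gᵀ = G`, `G* = (K - i)⁻¹`, `G* - G = 2 i G G*` -/
theorem lam_cay {K : Matrix ι ι ℝ} (hK : Kᵀ = K) : Lam (cay K) := by
  have h1 := Matrix.mul_nonsing_inv _ (isUnit_cay hK)
  refine ⟨Matrix.mem_unitaryGroup_iff'.2 ?_, ?_⟩
  · have e : cay K = star (cx K + I • (1 : Matrix ι ι ℂ)) * (cx K + I • (1 : Matrix ι ι ℂ))⁻¹ := by
      have e : star (cx K + I • (1 : Matrix ι ι ℂ)) = cx K + I • 1 - (2 * I) • 1 := by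
        rw [star_add, star_smul, star_one, algB_star hK, Complex.star_def, conj_I, add_sub_assoc, ← sub_smul]
        congr 2
        ring
      rw [algB_cay, e, sub_mul, h1, smul_one_mul]
    rw [e, star_mul, star_star, mul_assoc, ← mul_assoc _ (star _), (algB_mul hK).1, ← (algB_mul hK).2,
      mul_assoc, h1, mul_one, ← star_mul, h1, star_one]
  · simp only [algB_cay, Matrix.transpose_sub, Matrix.transpose_one, Matrix.transpose_smul,
      Matrix.transpose_nonsing_inv, Matrix.transpose_add, ← cx_transpose, hK]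
theorem cay_conj {T : Matrix κ ι ℝ} (h1 : T * Tᵀ = 1) (h2 : Tᵀ * T = 1) {K : Matrix ι ι ℝ} (hK : Kᵀ = K) :
    cay (T * K * Tᵀ) = act (cx T) (cay K) := by
  have h3 : cx T * (cx T)ᵀ = 1 := by rw [← cx_transpose, ← cx_mul, h1, cx_one]
  have h4 : (cx T)ᵀ * cx T = 1 := by rw [← cx_transpose, ← cx_mul, h2, cx_one]
  have e : cx (T * K * Tᵀ) + I • (1 : Matrix κ κ ℂ) = cx T * (cx K + I • (1 : Matrix ι ι ℂ)) * (cx T)ᵀ := by
    simp only [cx_mul, cx_transpose, Matrix.mul_add, Matrix.add_mul, Matrix.mul_smul, Matrix.smul_mul,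
      Matrix.mul_one, h3]
  rw [algB_cay, algB_cay, e, Matrix.inv_eq_right_inv
    (B := cx T * (cx K + I • (1 : Matrix ι ι ℂ))⁻¹ * (cx T)ᵀ) ?_]
  · simp only [act, Matrix.mul_sub, Matrix.sub_mul, Matrix.mul_smul, Matrix.smul_mul, Matrix.mul_one, h3]
  · simp only [Matrix.mul_assoc]
    rw [← Matrix.mul_assoc (cx T)ᵀ, h4, Matrix.one_mul, Matrix.mul_nonsing_inv_cancel_left _ _ (isUnit_cay hK), h3]
theorem cay_diagonal (k : ι → ℝ) :
    cay (Matrix.diagonal k) = Matrix.diagonal fun i => 1 - 2 * I / (k i + I) := by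
  have h : ∀ i, (k i : ℂ) + I ≠ 0 := fun i e => by simpa using congrArg Complex.im e
  have e : cx (Matrix.diagonal k) + I • (1 : Matrix ι ι ℂ) = Matrix.diagonal fun i => (k i : ℂ) + I := by
    ext i j
    by_cases hij : i = j <;> simp [cx, hij]
  rw [algB_cay, e, Matrix.inv_eq_right_inv (B := Matrix.diagonal fun i => ((k i : ℂ) + I)⁻¹)
    (by simp [Matrix.diagonal_mul_diagonal, h])]
  ext i j
  by_cases hij : i = j <;> simp [hij, div_eq_mul_inv]
theorem cay_one (K : Matrix (Fin 1) (Fin 1) ℝ) : cay K 0 0 = 1 - 2 * I / (K 0 0 + I) := by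
  have e : K = Matrix.diagonal fun _ => K 0 0 := by
    ext i j
    simp [Subsingleton.elim i 0, Subsingleton.elim j 0]
  rw [e, cay_diagonal]
  simp
/-- if `S i i = 1` the `i`-th row of `S` is `e_i` (`Lam.sum_sq`), so `1 - S = 2 i G` has a zero row -/
theorem cay_ne {K : Matrix ι ι ℝ} (hK : Kᵀ = K) (i : ι) : cay K i i ≠ 1 := by
  intro h
  have h1 := (lam_cay hK).sum_sq i
  rw [← Finset.add_sum_erase _ _ (Finset.mem_univ i), h, norm_one, one_pow, add_eq_left,
    Finset.sum_eq_zero_iff_of_nonneg fun _ _ => sq_nonneg _] at h1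
  have h2 : ∀ j, (cx K + I • (1 : Matrix ι ι ℂ))⁻¹ i j = 0 := fun j => by
    by_cases hj : j = i
    · simpa [algB_cay, hj] using h
    · simpa [algB_cay, Matrix.one_apply_ne (Ne.symm hj)] using h1 j (by simpa using hj)
  simpa [Matrix.mul_apply, h2] using congrFun (congrFun (Matrix.nonsing_inv_mul _ (isUnit_cay hK)) i) i
/-- Schur complement: `M' (G' - G_{·0} G_{0·} / G_{00}) = 1` follows entrywise from `M G = 1`
(`Fin.sum_univ_succ`), `M = K + i`, `G 0 0 ≠ 0` by `cay_ne`. -/
theorem cay_sub {K : Matrix (Fin (N + 1)) (Fin (N + 1)) ℝ} (hK : Kᵀ = K) :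
    cay (K.submatrix Fin.succ Fin.succ) = sub (cay K) := by
  have h0 := cay_ne hK 0
  have h1 := Matrix.mul_nonsing_inv _ (isUnit_cay hK)
  have e : cx (K.submatrix Fin.succ Fin.succ) + I • (1 : Mat N) =
      (cx K + I • (1 : Mat (N + 1))).submatrix Fin.succ Fin.succ := by
    ext i j
    simp [cx, Matrix.one_apply]
  rw [algB_cay] at h0
  rw [algB_cay, algB_cay, e]
  generalize cx K + I • (1 : Mat (N + 1)) = M at h0 h1 ⊢
  generalize M⁻¹ = G at h0 h1 ⊢
  have h2 : G 0 0 ≠ 0 := by simpa using h0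
  rw [Matrix.inv_eq_right_inv
    (B := Matrix.of fun i j => G i.succ j.succ - G i.succ 0 * G 0 j.succ / G 0 0) ?_]
  · ext i j
    simp [sub, Matrix.one_apply, Fin.succ_ne_zero, (Fin.succ_ne_zero _).symm]
    field_simp
    ring
  · ext i j
    have h3 := congrFun (congrFun h1 i.succ) j.succ
    have h4 := congrFun (congrFun h1 i.succ) 0
    simp only [Matrix.mul_apply, Fin.sum_univ_succ, Matrix.one_apply, Fin.succ_inj, Fin.succ_ne_zero,
      if_false] at h3 h4
    simp only [Matrix.mul_apply, Matrix.submatrix_apply, Matrix.of_apply, mul_sub, Finset.sum_sub_distrib,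
      mul_div_assoc, ← mul_assoc, ← Finset.sum_mul, Matrix.one_apply, ← h3, eq_neg_of_add_eq_zero_right h4]
    field_simp
    ring
theorem measurable_cay : Measurable (cay : Matrix ι ι ℝ → Matrix ι ι ℂ) := by
  have h : Continuous fun K : Matrix ι ι ℝ => cx K + I • (1 : Matrix ι ι ℂ) :=
    (continuous_id.matrix_map continuous_ofReal).add continuous_const
  refine measurable_pi_iff.2 fun i => measurable_pi_iff.2 fun j => ?_
  simp only [algB_cay, Matrix.inv_def, Ring.inverse_eq_inv', Matrix.sub_apply, Matrix.smul_apply, smul_eq_mul]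
  exact (((h.matrix_det.measurable.inv).mul (h.matrix_adjugate.matrix_elem i j).measurable).const_mul _).const_sub _
theorem continuousOn_cay : ContinuousOn (cay : Matrix ι ι ℝ → Matrix ι ι ℂ) {K | Kᵀ = K} := by
  have h : Continuous fun K : Matrix ι ι ℝ => cx K + I • (1 : Matrix ι ι ℂ) :=
    (continuous_id.matrix_map continuous_ofReal).add continuous_const
  intro K hK
  refine (continuousAt_const.sub (ContinuousAt.const_smul (ContinuousAt.comp (f := fun K => cx K + I • 1)
    (continuousAt_matrix_inv _ ?_) h.continuousAt) (2 * I))).continuousWithinAt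
  rw [Ring.inverse_eq_inv']
  exact continuousAt_inv₀ (isUnit_cay hK).ne_zero
theorem injOn_cay : Set.InjOn (cay : Matrix ι ι ℝ → Matrix ι ι ℂ) {K | Kᵀ = K} := by
  intro K hK K' hK' h
  rw [algB_cay, algB_cay, sub_right_inj, smul_right_inj (by simp)] at h
  have h1 := congrArg (·⁻¹) h
  simp only [Matrix.nonsing_inv_nonsing_inv _ (isUnit_cay hK), Matrix.nonsing_inv_nonsing_inv _ (isUnit_cay hK'),
    add_left_inj] at h1
  exact Matrix.map_injective ofReal_injective h1

end Crest.Agent.R166.H
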