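import Crest.Agent.R166.H.AlgB

/-! Row 166, block H: algebra of the Cayley transform. -/

set_option autoImplicit false
set_option linter.unusedSectionVars false

open MeasureTheory ProbabilityTheory Filter Topology Complex
open scoped ENNReal NNReal BigOperators Matrix ComplexConjugate

noncomputable section

namespace Crest.Agent.R166.H

variable {ι κ : Type} [Fintype ι] [DecidableEq ι] [Fintype κ] [DecidableEq κ] {N : ℕ}

theorem algC_det1 (S : Mat (N + 1)) (h : S 0 0 ≠ 1) :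
    (S - Matrix.single 0 0 1).det = (S 0 0 - 1) * (sub S).det := by
  have h1 : S 0 0 - 1 ≠ 0 := sub_ne_zero.2 h
  have h2 : 1 - S 0 0 ≠ 0 := sub_ne_zero.2 h.symm
  set T : Mat (N + 1) := S - Matrix.single 0 0 1 with hT
  have t0 : T 0 0 = S 0 0 - 1 := by simp [hT]
  have t1 : ∀ (i : Fin N) j, T i.succ j = S i.succ j := fun i j => by
    simp [hT, (Fin.succ_ne_zero i).symm]
  have t2 : ∀ i (j : Fin N), T i j.succ = S i j.succ := fun i j => by
    simp [hT, (Fin.succ_ne_zero j).symm]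
  let B : Mat (N + 1) := Matrix.of (Fin.cons (T 0) fun i j => T i.succ j - T i.succ 0 / (S 0 0 - 1) * T 0 j)
  have b0 : ∀ j, B 0 j = T 0 j := fun j => rfl
  have b1 : ∀ (i : Fin N) j, B i.succ j = T i.succ j - T i.succ 0 / (S 0 0 - 1) * T 0 j := fun i j => rfl
  rw [Matrix.det_eq_of_forall_row_eq_smul_add_const (A := T) (B := B)
    (Fin.cons 0 fun i => T i.succ 0 / (S 0 0 - 1)) 0 rfl fun i j => by
      refine Fin.cases ?_ (fun i => ?_) i
      · simp [b0]
      · simp [b0, b1], Matrix.det_succ_column_zero, Fin.sum_univ_succ,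
    Finset.sum_eq_zero fun i _ => by rw [b1, t0, div_mul_cancel₀ _ h1, sub_self, mul_zero, zero_mul]]
  simp only [Fin.val_zero, pow_zero, one_mul, b0, t0, add_zero, Fin.succAbove_zero]
  congr 2
  ext i j
  simp only [Matrix.submatrix_apply, b1, t1, t2, sub, Matrix.of_apply]
  field_simp
  ring

theorem algC_det2 {S : Mat (N + 1)} (hS : S ∈ Matrix.unitaryGroup (Fin (N + 1)) ℂ) :
    (S - Matrix.single 0 0 1).det = S.det * (1 - conj (S 0 0)) := by
  have h1 : S * star S = 1 := (Matrix.mem_unitaryGroup_iff).1 hS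
  have e : S - Matrix.single 0 0 1 = S * (1 + Matrix.replicateCol Unit (fun i => -((star S) i 0)) *
      Matrix.replicateRow Unit (Pi.single (0 : Fin (N + 1)) (1 : ℂ) : Fin (N + 1) → ℂ)) := by
    rw [Matrix.mul_add, Matrix.mul_one, ← Matrix.mul_assoc, sub_eq_add_neg]
    congr 1
    ext i j
    have h2 := congrFun (congrFun h1 i) 0
    rw [Matrix.mul_apply] at h2
    simp only [Matrix.mul_apply, Matrix.replicateCol_apply, Matrix.replicateRow_apply, Finset.univ_unique,
      Finset.sum_singleton, mul_neg, Finset.sum_neg_distrib, h2, Matrix.neg_apply, Matrix.single_apply,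
      Matrix.one_apply, Pi.single_apply]
    by_cases hi : i = 0 <;> by_cases hj : j = 0 <;> simp [hi, hj, eq_comm]
  rw [e, Matrix.det_mul, Matrix.det_one_add_replicateCol_mul_replicateRow]
  simp [sub_eq_add_neg]

/-- `det (S - E₀₀) = (s - 1) det (sub S)` (Schur, `Matrix.det_fromBlocks₁₁` after reindexing by
`Unit ⊕ Fin N ≃ Fin (N+1)`) and `det (S - E₀₀) = det S * det (1 - S* E₀₀) = det S * (1 - conj s)`. -/
theorem det_sub {S : Mat (N + 1)} (hS : Lam S) (h : S 0 0 ≠ 1) :
    (sub S).det = S.det * ((1 - conj (S 0 0)) / (S 0 0 - 1)) := by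
  rw [← mul_div_assoc, ← algC_det2 hS.1, algC_det1 S h, mul_div_cancel_left₀ _ (sub_ne_zero.2 h)]

theorem algC_circle : (Metric.sphere (0 : ℂ) 1).Infinite := by
  refine Set.Infinite.of_image Complex.re ((Set.Icc_infinite (by norm_num : (-1 : ℝ) < 1)).mono
    fun x hx => ⟨⟨x, √(1 - x ^ 2)⟩, ?_, rfl⟩)
  have : 0 ≤ 1 - x ^ 2 := by nlinarith [hx.1, hx.2]
  rw [mem_sphere_zero_iff_norm, Complex.norm_eq_sqrt_sq_add_sq, Real.sq_sqrt this]
  simp

theorem algC_exists_c (S : Matrix ι ι ℂ) : ∃ c : ℂ, ‖c‖ = 1 ∧ (1 - c⁻¹ • S).det ≠ 0 := by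
  obtain ⟨c, h1, h2⟩ := algC_circle.exists_notMem_finite
    (Polynomial.finite_setOfPred_isRoot (Matrix.charpoly_monic S).ne_zero)
  have h3 : ‖c‖ = 1 := mem_sphere_zero_iff_norm.1 h1
  have h4 : c ≠ 0 := norm_ne_zero_iff.1 (h3 ▸ one_ne_zero)
  refine ⟨c, h3, fun h => h2 ?_⟩
  have e : Matrix.scalar ι c - S = c • (1 - c⁻¹ • S) := by
    rw [smul_sub, smul_smul, mul_inv_cancel₀ h4, one_smul, Matrix.scalar_apply,
      Matrix.smul_one_eq_diagonal]
  show S.charpoly.eval c = 0
  rw [Matrix.eval_charpoly, e, Matrix.det_smul, h, mul_zero]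

/-- a symmetric unitary without eigenvalue `1` is a Cayley transform -/
theorem algC_cay {S : Matrix ι ι ℂ} (hS : Lam S) (h : (1 - S).det ≠ 0) :
    ∃ K : Matrix ι ι ℝ, Kᵀ = K ∧ cay K = S := by
  have hu : IsUnit (1 - S).det := isUnit_iff_ne_zero.2 h
  have h1 : star S * S = 1 := (Matrix.mem_unitaryGroup_iff').1 hS.1
  obtain ⟨Z, z1, z2⟩ : ∃ Z : Matrix ι ι ℂ, (1 - S) * Z = 1 ∧ Z * (1 - S) = 1 :=
    ⟨_, Matrix.mul_nonsing_inv _ hu, Matrix.nonsing_inv_mul _ hu⟩
  have zt : Zᵀ = Z := by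
    have h2 : Zᵀ * (1 - S) = 1 := by
      have := congrArg Matrix.transpose z1
      rwa [Matrix.transpose_mul, Matrix.transpose_sub, Matrix.transpose_one, hS.2] at this
    rw [← mul_one Zᵀ, ← z1, ← mul_assoc, h2, one_mul]
  have zs : star Z + Z = 1 := by
    have h2 : star Z * (1 - star S) = 1 := by
      have := congrArg star z1
      rwa [star_mul, star_sub, star_one] at this
    have h3 : (1 - S) + (1 - star S) = (1 - star S) * (1 - S) := by
      rw [sub_mul, one_mul, mul_sub, mul_one, h1]; abel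
    calc star Z + Z = star Z * ((1 - S) * Z) + star Z * (1 - star S) * Z := by rw [z1, h2, mul_one, one_mul]
      _ = star Z * ((1 - S) + (1 - star S)) * Z := by noncomm_ring
      _ = 1 := by rw [h3, ← mul_assoc, h2, one_mul, z1]
  have zsym : ∀ i j, Z j i = Z i j := fun i j => congrFun (congrFun zt i) j
  have e : (((2 * I) • Z - I • (1 : Matrix ι ι ℂ)).map Complex.re).map (fun x : ℝ => (x : ℂ)) =
      (2 * I) • Z - I • (1 : Matrix ι ι ℂ) := by
    ext i j
    have h2 := congrArg Complex.re (congrFun (congrFun zs i) j)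
    simp only [Matrix.add_apply, Matrix.star_apply, zsym i j, add_re, star_def, conj_re] at h2
    have h3 : ((1 : Matrix ι ι ℂ) i j).im = 0 := by
      rw [Matrix.one_apply]; split_ifs <;> simp
    apply Complex.ext
    · simp
    · simp only [Matrix.map_apply, ofReal_im, Matrix.sub_apply, Matrix.smul_apply, smul_eq_mul, sub_im,
        mul_im, mul_re, re_ofNat, I_re, im_ofNat, I_im]
      linarith
  refine ⟨((2 * I) • Z - I • (1 : Matrix ι ι ℂ)).map Complex.re, ?_, ?_⟩
  · rw [← Matrix.transpose_map, Matrix.transpose_sub, Matrix.transpose_smul, Matrix.transpose_smul, zt,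
      Matrix.transpose_one]
  · have h2 : (2 * I : ℂ) ≠ 0 := mul_ne_zero two_ne_zero I_ne_zero
    rw [cay, e, sub_add_cancel, Matrix.inv_eq_right_inv (B := (2 * I)⁻¹ • (1 - S)) (by
      rw [Matrix.smul_mul, Matrix.mul_smul, smul_smul, mul_inv_cancel₀ h2, one_smul, z2]),
      smul_smul, mul_inv_cancel₀ h2, one_smul, sub_sub_cancel]

theorem algC_norm (k : ℝ) : ‖1 - 2 * I / (k + I)‖ = 1 := by
  have h : (k + I : ℂ) ≠ 0 := fun h => by simpa using congrArg Complex.im h
  have e : 1 - 2 * I / (k + I) = conj (k + I) / (k + I) := by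
    rw [map_add, conj_ofReal, conj_I]
    field_simp
    ring
  rw [e, norm_div, Complex.norm_conj, div_self (norm_ne_zero_iff.2 h)]

/-- Pick `‖c‖ = 1` with `det (c - S) ≠ 0` (finitely many roots of the characteristic polynomial), `Y = 1 - c⁻¹ S`,
`K = 2 i Y⁻¹ - i` is symmetric and real (`Y⁻¹ + conj Y⁻¹ = 1`), `cay (re K) = c⁻¹ S`; real spectral theorem,
`cay_conj`, `cay_diagonal`. -/
theorem Lam.exists_diag {S : Matrix ι ι ℂ} (hS : Lam S) :
    ∃ (O : Matrix ι ι ℝ) (d : ι → ℂ), O * Oᵀ = 1 ∧ (∀ i, ‖d i‖ = 1) ∧ S = act (cx O) (Matrix.diagonal d) := by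
  obtain ⟨c, hc, hd⟩ := algC_exists_c S
  have hc0 : c ≠ 0 := norm_ne_zero_iff.1 (hc ▸ one_ne_zero)
  have hS' : Lam (c⁻¹ • S) := by
    refine ⟨Matrix.mem_unitaryGroup_iff.2 ?_, by rw [Matrix.transpose_smul, hS.2]⟩
    rw [star_smul, Matrix.smul_mul, Matrix.mul_smul, smul_smul, Matrix.mem_unitaryGroup_iff.1 hS.1,
      star_def, Complex.mul_conj, Complex.normSq_eq_norm_sq, norm_inv, hc]
    simp
  obtain ⟨K, hK, hcay⟩ := algC_cay hS' hd
  have hH : K.IsHermitian := by
    rwa [Matrix.IsHermitian, Matrix.conjTranspose_eq_transpose_of_trivial]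
  have hs := hH.spectral_theorem
  rw [Unitary.conjStarAlgAut_apply] at hs
  have u1 : (hH.eigenvectorUnitary : Matrix ι ι ℝ) * (hH.eigenvectorUnitary : Matrix ι ι ℝ)ᵀ = 1 := by
    rw [← Matrix.conjTranspose_eq_transpose_of_trivial]
    exact Matrix.mem_unitaryGroup_iff.1 hH.eigenvectorUnitary.2
  have u2 : (hH.eigenvectorUnitary : Matrix ι ι ℝ)ᵀ * (hH.eigenvectorUnitary : Matrix ι ι ℝ) = 1 := by
    rw [← Matrix.conjTranspose_eq_transpose_of_trivial]
    exact Matrix.mem_unitaryGroup_iff'.1 hH.eigenvectorUnitary.2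
  have hs' : K = (hH.eigenvectorUnitary : Matrix ι ι ℝ) * Matrix.diagonal hH.eigenvalues *
      (hH.eigenvectorUnitary : Matrix ι ι ℝ)ᵀ := by
    rw [← Matrix.conjTranspose_eq_transpose_of_trivial]
    exact hs
  refine ⟨hH.eigenvectorUnitary, fun i => c * (1 - 2 * I / (hH.eigenvalues i + I)), u1,
    fun i => by rw [norm_mul, hc, algC_norm, one_mul], ?_⟩
  have h1 := cay_conj u1 u2 (Matrix.diagonal_transpose hH.eigenvalues)
  rw [← hs', hcay, cay_diagonal] at h1
  rw [← smul_inv_smul₀ hc0 S, h1, act, act, ← Matrix.smul_mul, ← Matrix.mul_smul, ← Matrix.diagonal_smul]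
  rfl

end Crest.Agent.R166.H
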