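import Crest.Agent.R166.Iface
import Crest.Agent.R164.IBP
import Crest.Agent.R164.Haar2AuxB

/-! Row 166, block H (owner helper72): definitions.  FROZEN. -/

set_option autoImplicit false
set_option linter.unusedSectionVars false

open MeasureTheory ProbabilityTheory Filter Topology Complex
open scoped ENNReal NNReal BigOperators Matrix ComplexConjugate

noncomputable section

namespace Crest.Agent.R166.H

abbrev Mat (N : ℕ) : Type := Matrix (Fin N) (Fin N) ℂ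

/-- complexification of a real matrix -/
def cx {κ ι : Type} (T : Matrix κ ι ℝ) : Matrix κ ι ℂ := T.map fun x : ℝ => (x : ℂ)

/-- the action `S ↦ u S uᵀ` -/
def act {κ ι : Type} [Fintype ι] (u : Matrix κ ι ℂ) (S : Matrix ι ι ℂ) : Matrix κ κ ℂ := u * S * uᵀ

/-- symmetric unitary matrices -/
def Lam {ι : Type} [Fintype ι] [DecidableEq ι] (S : Matrix ι ι ℂ) : Prop :=
  S ∈ Matrix.unitaryGroup ι ℂ ∧ Sᵀ = S

/-- the `S`-matrix of the sub-block of `K` (row and column `0` removed) -/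
def sub {N : ℕ} (S : Mat (N + 1)) : Mat N :=
  Matrix.of fun i j => S i.succ j.succ + S i.succ 0 * S 0 j.succ / (1 - S 0 0)

/-- continuous approximation of the indicator of `{1}` -/
def chi (η : ℝ) (s : ℂ) : ℝ := η / (η + ‖1 - s‖)

/-- `modelK b x g = KK (b ∘ x) g` (by `rfl`) -/
def KK {n : ℕ} {ι : Type} (β : Fin n → ℝ) (g : Fin n → ι → ℝ) : Matrix ι ι ℝ :=
  fun a c => Real.pi⁻¹ * ∑ i, β i * (g i a * g i c)

theorem modelK_eq {n : ℕ} {ι : Type} (b : ℝ → ℝ) (x : Fin n → ℝ) (g : Fin n → ι → ℝ) :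
    modelK b x g = KK (fun i => b (x i)) g := rfl

def Inv {N : ℕ} (μ : Measure (Mat N)) (u : Mat N) : Prop := MeasurePreserving (act u) μ μ

/-- invariance under the orthogonal group -/
def OInv {N : ℕ} (μ : Measure (Mat N)) : Prop :=
  ∀ O : Matrix (Fin N) (Fin N) ℝ, O * Oᵀ = 1 → Inv μ (cx O)

/-- invariance under diagonal phases of determinant one -/
def Ph {N : ℕ} (μ : Measure (Mat N)) : Prop :=
  ∀ d : Fin N → ℂ, (∀ i, ‖d i‖ = 1) → ∏ i, d i = 1 → Inv μ (Matrix.diagonal d)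

/-- invariance under a non-real unitary which fixes a basis vector -/
def Sw {N : ℕ} (μ : Measure (Mat N)) : Prop :=
  ∃ (W : Mat N) (a j b : Fin N), W ∈ Matrix.unitaryGroup (Fin N) ℂ ∧ (W j a).im ≠ 0 ∧
    (∀ i, W i b = if i = b then 1 else 0) ∧ W b a = 0 ∧ Inv μ W

/-- limiting families of laws of `S`-matrices -/
structure Fam (μ : ∀ N, Measure (Mat N)) : Prop where
  prob : ∀ N, IsProbabilityMeasure (μ N)
  supp : ∀ N, ∀ᵐ S ∂μ N, Lam S
  orth : ∀ N, OInv (μ N)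
  cons : ∀ N, μ (N + 1) {S | S 0 0 = 1} = 0 → MeasurePreserving sub (μ (N + 1)) (μ N)
  sw : ∀ k, ∃ N, k ≤ N ∧ Sw (μ N)

/-- expectation of `F` of the model `S`-matrix at cut-off `p.1` and index `p.2` -/
def EE {n : ℕ → ℕ} (P : ∀ j, Measure (Fin (n j) → ℝ)) (b : ℝ → ℝ → ℝ) (δ : ℝ) {N : ℕ}
    (F : Mat N → ℝ) (p : ℝ × ℕ) : ℝ := ∫ ξ, modelE (b p.1) δ F ξ ∂P p.2

/-- the phase average of `((1 - conj s) / (s - 1)) ^ p` -/
def gp (p : ℕ) (s : ℂ) : ℂ :=
  (2 * Real.pi : ℝ)⁻¹ • ∫ θ in (0 : ℝ)..(2 * Real.pi),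
    ((1 - conj (cexp (θ * I) * s)) / (cexp (θ * I) * s - 1)) ^ p

/-- squared Hilbert-Schmidt norm -/
def hs {κ ι : Type} [Fintype κ] [Fintype ι] (X : Matrix κ ι ℝ) : ℝ := ∑ i, ∑ j, X i j ^ 2

/-- `tr (X² p(X))` -/
def Phi (p : Polynomial ℝ) {ι : Type} [Fintype ι] [DecidableEq ι] (X : Matrix ι ι ℝ) : ℝ :=
  ∑ m ∈ p.support, p.coeff m * (X ^ (m + 2)).trace

/-- plane rotation in the coordinates `a ≠ b` -/
def rot2 {N : ℕ} (a b : Fin N) (c s : ℝ) : Matrix (Fin N) (Fin N) ℝ :=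
  1 + (c - 1) • (Matrix.single a a 1 + Matrix.single b b 1) + s • (Matrix.single a b 1 - Matrix.single b a 1)

end Crest.Agent.R166.H
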