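import Crest.Agent.R166.H.AlgB

/-! Row 166, block H: the Gaussian model. -/

set_option autoImplicit false
set_option linter.unusedSectionVars false

open MeasureTheory ProbabilityTheory Filter Topology Complex
open scoped ENNReal NNReal BigOperators Matrix ComplexConjugate

noncomputable section

namespace Crest.Agent.R166.H

variable {ι κ : Type} [Fintype ι] [DecidableEq ι] [Fintype κ] [DecidableEq κ] {n : ℕ}

theorem KK_symm (β : Fin n → ℝ) (g : Fin n → ι → ℝ) : (KK β g)ᵀ = KK β g := by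
  ext a c
  simp only [Matrix.transpose_apply, KK, mul_comm (g _ c)]
theorem KK_mulVec (T : Matrix κ ι ℝ) (β : Fin n → ℝ) (g : Fin n → ι → ℝ) :
    KK β (fun i => T *ᵥ g i) = T * KK β g * Tᵀ := by
  have e : ∀ {τ : Type} (g : Fin n → τ → ℝ),
      KK β g = ∑ i, (Real.pi⁻¹ * β i) • Matrix.vecMulVec (g i) (g i) := fun g => by
    ext a c
    simp only [KK, Matrix.sum_apply, Matrix.smul_apply, Matrix.vecMulVec_apply, smul_eq_mul,
      Finset.mul_sum, mul_assoc]
  simp only [e, Matrix.mul_sum, Matrix.sum_mul, Matrix.mul_smul, Matrix.smul_mul,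
    Matrix.mul_vecMulVec, Matrix.vecMulVec_mul, Matrix.vecMul_transpose]
theorem continuous_KK : Continuous fun p : (Fin n → ℝ) × (Fin n → ι → ℝ) => KK p.1 p.2 := by
  refine continuous_matrix fun a c => ?_
  simp only [KK]
  fun_prop
/-- `measurePreserving_pi` + `R164.measurePreserving_gpi_mulVec` -/
theorem mp_mulVec {T : Matrix κ ι ℝ} (h : T * Tᵀ = 1) :
    MeasurePreserving (fun (g : Fin n → ι → ℝ) i => T *ᵥ g i) (gpi2 (Fin n) ι) (gpi2 (Fin n) κ) := by
  exact measurePreserving_pi _ _ fun _ => R164.measurePreserving_gpi_mulVec T h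
/-- `Measure.infinitePi_map_curry`, `infinitePi_eq_pi` -/
theorem mp_curry : MeasurePreserving (fun (G : κ × ι → ℝ) i a => G (i, a)) (gpi (κ × ι)) (gpi2 κ ι) := by
  refine ⟨by fun_prop, ?_⟩
  have h := Measure.infinitePi_map_curry (fun (_ : κ) (_ : ι) => gaussianReal 0 1)
  simp only [Measure.infinitePi_eq_pi] at h
  exact h
/-- variance of a sum of independent terms (`IndepFun.variance_sum`, `R164.h2_gpi_var`, `h2_gpi_mean`) -/
theorem mom_quad (β : Fin n → ℝ) (s : Finset (Fin n)) (a c : ι) :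
    Integrable (fun g : Fin n → ι → ℝ =>
      (∑ i ∈ s, β i * (g i a * g i c) - if a = c then ∑ i ∈ s, β i else 0) ^ 2) (gpi2 (Fin n) ι) ∧
    ∫ g, (∑ i ∈ s, β i * (g i a * g i c) - if a = c then ∑ i ∈ s, β i else 0) ^ 2 ∂gpi2 (Fin n) ι ≤
      2 * ∑ i ∈ s, β i ^ 2 := by
  have hp : ∀ i, MeasurePreserving (fun g : Fin n → ι → ℝ => g i) (gpi2 (Fin n) ι) (gpi ι) := fun i =>
    measurePreserving_eval (fun _ : Fin n => gpi ι) i
  have hX : ∀ i, MemLp (fun G : ι → ℝ => β i * (G a * G c)) 2 (gpi ι) := fun i =>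
    (R164.h2_gpi_memLp a c).const_mul _
  have hY : ∀ i, MemLp (fun g : Fin n → ι → ℝ => β i * (g i a * g i c)) 2 (gpi2 (Fin n) ι) := fun i =>
    (hX i).comp_measurePreserving (hp i)
  have hS : MemLp (fun g : Fin n → ι → ℝ => ∑ i ∈ s, β i * (g i a * g i c)) 2 (gpi2 (Fin n) ι) :=
    memLp_finsetSum _ fun i _ => hY i
  refine ⟨(hS.sub (memLp_const _)).integrable_sq, ?_⟩
  have hmean : ∫ g : Fin n → ι → ℝ, ∑ i ∈ s, β i * (g i a * g i c) ∂gpi2 (Fin n) ι =
      if a = c then ∑ i ∈ s, β i else 0 := by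
    have e : ∀ i, ∫ g : Fin n → ι → ℝ, β i * (g i a * g i c) ∂gpi2 (Fin n) ι =
        β i * if a = c then 1 else 0 := fun i => by
      rw [integral_const_mul, ← R164.h2_gpi_mean a c, ← show _ = R164.gpi ι from (hp i).map_eq,
        integral_map (hp i).measurable.aemeasurable (by fun_prop)]
    rw [integral_finsetSum _ fun i _ => (hY i).integrable one_le_two]
    simp only [e]
    split_ifs <;> simp
  have hvar := variance_eq_integral hS.aestronglyMeasurable.aemeasurable
  rw [hmean] at hvar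
  rw [← hvar]
  have e : (fun g : Fin n → ι → ℝ => ∑ i ∈ s, β i * (g i a * g i c)) =
      ∑ i ∈ s, fun g : Fin n → ι → ℝ => β i * (g i a * g i c) := by
    funext g
    simp only [Finset.sum_apply]
  rw [e, IndepFun.variance_sum (fun i _ => hY i), Finset.mul_sum]
  · refine Finset.sum_le_sum fun i _ => ?_
    rw [show Var[fun g : Fin n → ι → ℝ => β i * (g i a * g i c); gpi2 (Fin n) ι] = _ from
      (hp i).variance_fun_comp (hX i).aemeasurable, variance_const_mul, mul_comm]
    exact mul_le_mul_of_nonneg_right (R164.h2_gpi_var a c) (sq_nonneg _)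
  · intro i _ j _ hij
    exact (iIndepFun_pi (μ := fun _ : Fin n => gpi ι)
      (X := fun i (G : ι → ℝ) => β i * (G a * G c)) fun i => (hX i).aemeasurable).indepFun hij
/-- `R164.h2_gram_entry` + `mp_curry` -/
theorem mom_gram [Nonempty ι] (i j : Fin n) :
    Integrable (fun g : Fin n → ι → ℝ =>
      ((∑ a, g i a * g j a) / Fintype.card ι - if i = j then 1 else 0) ^ 2) (gpi2 (Fin n) ι) ∧
    ∫ g, ((∑ a, g i a * g j a) / Fintype.card ι - if i = j then 1 else 0) ^ 2 ∂gpi2 (Fin n) ι ≤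
      (2 : ℝ) / Fintype.card ι := by
  obtain ⟨h1, h2⟩ := R164.h2_gram_entry (I := ι) i j
  have hm : Measurable fun g : Fin n → ι → ℝ =>
      ((∑ a, g i a * g j a) / Fintype.card ι - if i = j then 1 else 0) ^ 2 := by fun_prop
  have hp := mp_curry (κ := Fin n) (ι := ι)
  refine ⟨(hp.integrable_comp hm.aestronglyMeasurable).1 h1, ?_⟩
  rw [← hp.map_eq, integral_map hp.measurable.aemeasurable hm.aestronglyMeasurable]
  exact h2
theorem measurable_model {b : ℝ → ℝ} (hb : Measurable b) :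
    Measurable fun q : ((Fin n → ℝ) × ℝ) × (Fin n → ι → ℝ) => cay (modelK b (fun i => q.1.1 i - q.1.2) q.2) := by
  refine measurable_cay.comp (measurable_pi_lambda _ fun a => measurable_pi_lambda _ fun c => ?_)
  simp only [modelK]
  fun_prop
theorem measurable_inner {b : ℝ → ℝ} (hb : Measurable b) {F : Matrix ι ι ℂ → ℝ} (hF : Measurable F) :
    Measurable fun q : (Fin n → ℝ) × ℝ => ∫ g, F (cay (modelK b (fun i => q.1 i - q.2) g)) ∂gpi2 (Fin n) ι := by
  exact ((hF.comp (measurable_model hb)).stronglyMeasurable.integral_prod_right').measurable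
theorem measurable_modelE {b : ℝ → ℝ} (hb : Measurable b) (δ : ℝ) {F : Matrix ι ι ℂ → ℝ} (hF : Measurable F) :
    Measurable (modelE b δ F : (Fin n → ℝ) → ℝ) := by
  have h := (measurable_inner (n := n) hb hF).stronglyMeasurable
  exact (h.integral_prod_right'.measurable.sub h.integral_prod_right'.measurable).const_mul _
theorem abs_inner_le {F : Matrix ι ι ℂ → ℝ} {C : ℝ} (hC : ∀ S, Lam S → |F S| ≤ C) (β : Fin n → ℝ) :
    |∫ g, F (cay (KK β g)) ∂gpi2 (Fin n) ι| ≤ C := by
  simpa using norm_integral_le_of_norm_le_const (μ := gpi2 (Fin n) ι)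
    (f := fun g => F (cay (KK β g))) (Eventually.of_forall fun g => hC _ (lam_cay (KK_symm β g)))
theorem abs_modelE_le (b : ℝ → ℝ) {δ : ℝ} (hδ : 0 < δ) {F : Matrix ι ι ℂ → ℝ} {C : ℝ}
    (hC : ∀ S, Lam S → |F S| ≤ C) (ξ : Fin n → ℝ) : |modelE b δ F ξ| ≤ C := by
  have h := intervalIntegral.norm_integral_le_of_norm_le_const (a := 0) (b := δ)
    (f := fun t => ∫ g, F (cay (modelK b (fun i => ξ i - t) g)) ∂gpi2 (Fin n) ι)
    fun t _ => abs_inner_le hC _
  rw [sub_zero, abs_of_pos hδ, Real.norm_eq_abs] at h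
  rw [modelE, abs_mul, abs_of_pos (inv_pos.2 hδ), inv_mul_le_iff₀ hδ, mul_comm]
  exact h
/-- Chebyshev with `mom_quad` (`s = univ`): `P(|π K - ∑ β| ≥ 2 √B + 1) ≤ 1/2`; if `|K| ≥ 2/η` then
`‖1 - cay K 0 0‖ ≤ η` (`cay_one`) and `chi ≥ 1/2`. -/
theorem x3 (B : ℝ) {η : ℝ} (hη : 0 < η) : ∃ B₃ : ℝ, ∀ (n : ℕ) (β : Fin n → ℝ), ∑ i, β i ^ 2 ≤ B →
    B₃ ≤ |∑ i, β i| → 1 / 4 ≤ ∫ g, chi η (cay (KK β g) 0 0) ∂gpi2 (Fin n) (Fin 1) := by
  refine ⟨B + 1 + Real.pi * (2 / η), fun n β hB h3 => ?_⟩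
  have hB0 : 0 ≤ B := (Finset.sum_nonneg fun i _ => sq_nonneg _).trans hB
  have hpi := Real.pi_pos
  obtain ⟨h1, h2⟩ := mom_quad β Finset.univ (0 : Fin 1) 0
  simp only [if_true] at h1 h2
  have hI : Integrable (fun g => chi η (cay (KK β g) 0 0)) (gpi2 (Fin n) (Fin 1)) := by
    refine Integrable.of_bound ((continuous_chi hη).measurable.comp ((measurable_entry 0 0).comp
      (measurable_cay.comp (continuous_KK.comp (Continuous.prodMk_right β)).measurable))).aestronglyMeasurable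
      1 (Eventually.of_forall fun g => ?_)
    rw [Real.norm_of_nonneg (chi_pos hη _).le]
    exact chi_le_one hη _
  refine le_trans ?_ (integral_mono ((integrable_const (1 / 2 : ℝ)).sub
    (h1.div_const (2 * (B + 1) ^ 2))) hI fun g => ?_)
  · simp only [Pi.sub_apply]
    rw [integral_sub (integrable_const _) (h1.div_const _), integral_const,
      probReal_univ, one_smul, integral_div, le_sub_comm, div_le_iff₀ (by positivity)]
    nlinarith [sq_nonneg (B - 1)]
  · simp only [Pi.sub_apply]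
    rcases le_or_gt (B + 1) |∑ i, β i * (g i 0 * g i 0) - ∑ i, β i| with h | h
    · refine le_trans ?_ (chi_pos hη _).le
      rw [sub_nonpos, le_div_iff₀ (by positivity), ← sq_abs (_ - _)]
      nlinarith
    · refine (sub_le_self _ (by positivity)).trans ?_
      have h4 : 2 / η ≤ |KK β g 0 0| := by
        have := abs_sub_abs_le_abs_sub (∑ i, β i) (∑ i, β i * (g i 0 * g i 0))
        rw [abs_sub_comm] at this
        rw [KK, abs_mul, abs_of_pos (inv_pos.2 hpi), le_inv_mul_iff₀ hpi]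
        linarith
      have h5 : |KK β g 0 0| ≤ ‖(KK β g 0 0 : ℂ) + I‖ := by
        simpa using Complex.abs_re_le_norm ((KK β g 0 0 : ℂ) + I)
      have h6 : 0 < ‖(KK β g 0 0 : ℂ) + I‖ := lt_of_lt_of_le (by positivity) (h4.trans h5)
      have h7 : ‖1 - cay (KK β g) 0 0‖ ≤ η := by
        rw [cay_one, sub_sub_cancel, norm_div, norm_mul, norm_I, mul_one, Complex.norm_two,
          div_le_comm₀ h6 hη]
        exact h4.trans h5
      rw [chi, le_div_iff₀ (by positivity)]
      linarith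

end Crest.Agent.R166.H
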