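import Crest.Agent.R166.H.AlgA
import Crest.Agent.R166.H.Top

/-! Row 166, block H: the invariance group contains the diagonal phases. -/

set_option autoImplicit false
set_option linter.unusedSectionVars false

open MeasureTheory ProbabilityTheory Filter Topology Complex
open scoped ENNReal NNReal BigOperators Matrix ComplexConjugate BoundedContinuousFunction

noncomputable section

namespace Crest.Agent.R166.H

section Abs
variable {A : Type} [NormedRing A] [NormedAlgebra ℝ A] {G : Submonoid A} {X Y : A}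

theorem norm_pow_sub_pow {x y : A} (hx : ‖x‖ ≤ 1) (hy : ‖y‖ ≤ 1) (m : ℕ) :
    ‖x ^ (m + 1) - y ^ (m + 1)‖ ≤ (m + 1) * ‖x - y‖ := by
  induction m with
  | zero => simp
  | succ m ih =>
    have e : x ^ (m + 1 + 1) - y ^ (m + 1 + 1) = (x ^ (m + 1) - y ^ (m + 1)) * x + y ^ (m + 1) * (x - y) := by
      rw [pow_succ x (m + 1), pow_succ y (m + 1)]
      noncomm_ring
    have h1 : ‖y ^ (m + 1)‖ ≤ 1 := (norm_pow_le' _ m.succ_pos).trans (pow_le_one₀ (norm_nonneg _) hy)
    rw [e]
    refine (norm_add_le _ _).trans ?_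
    have h2 := (norm_mul_le (x ^ (m + 1) - y ^ (m + 1)) x).trans (mul_le_of_le_one_right (norm_nonneg _) hx)
    have h3 := (norm_mul_le (y ^ (m + 1)) (x - y)).trans (mul_le_of_le_one_left (norm_nonneg _) h1)
    push_cast
    linarith

/-- tangent vectors at the identity -/
def Tan (G : Submonoid A) (X : A) : Prop := ∃ γ : ℝ → A, (∀ t, γ t ∈ G) ∧ γ 0 = 1 ∧ HasDerivAt γ X 0

theorem Tan.add (hX : Tan G X) (hY : Tan G Y) : Tan G (X + Y) := by
  obtain ⟨γ, h1, h2, h3⟩ := hX
  obtain ⟨δ, k1, k2, k3⟩ := hY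
  exact ⟨fun t => γ t * δ t, fun t => G.mul_mem (h1 t) (k1 t), by simp [h2, k2],
    (h3.fun_mul k3).congr_deriv (by simp [h2, k2])⟩

theorem Tan.smul (hX : Tan G X) (c : ℝ) : Tan G (c • X) := by
  obtain ⟨γ, h1, h2, h3⟩ := hX
  refine ⟨fun t => γ (c * t), fun t => h1 _, by simp [h2], ?_⟩
  exact (HasDerivAt.scomp (0 : ℝ) (by simpa using h3) ((hasDerivAt_id (0 : ℝ)).const_mul c)).congr_deriv (by simp)

theorem Tan.conj (hX : Tan G X) {g h : A} (hg : g ∈ G) (hh : h ∈ G) (e : g * h = 1) : Tan G (g * X * h) := by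
  obtain ⟨γ, h1, h2, h3⟩ := hX
  exact ⟨fun t => g * γ t * h, fun t => G.mul_mem (G.mul_mem hg (h1 t)) hh, by simp [h2, e],
    (h3.const_mul g).mul_const h⟩

theorem Tan.sum {ι : Type} (s : Finset ι) {X : ι → A} (h : ∀ i ∈ s, Tan G (X i)) : Tan G (∑ i ∈ s, X i) :=
  Finset.sum_induction _ _ (fun _ _ => Tan.add) ⟨fun _ => 1, fun _ => G.one_mem, rfl, hasDerivAt_const _ _⟩ h

theorem Tan.mem (hX : Tan G X) (hG : IsClosed (G : Set A)) (hn : ∀ g ∈ G, ‖g‖ ≤ 1) {D : ℝ → A}
    (hD : ∀ (m : ℕ) (t : ℝ), D t ^ m = D (m * t)) (hn' : ∀ t, ‖D t‖ ≤ 1) (hd : HasDerivAt D X 0) : D 1 ∈ G := by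
  obtain ⟨γ, h1, h2, h3⟩ := hX
  have h0 : D 0 = 1 := by simpa using (hD 0 0).symm
  have h4 := hasDerivAt_iff_tendsto_slope_zero.1 (h3.fun_sub hd)
  have h5 : Tendsto (fun m : ℕ => 1 / ((m : ℝ) + 1)) atTop (𝓝[≠] 0) :=
    tendsto_nhdsWithin_iff.2 ⟨tendsto_one_div_add_atTop_nhds_zero_nat, .of_forall fun m => by
      simp only [Set.mem_compl_iff, Set.mem_singleton_iff]
      positivity⟩
  refine hG.mem_of_tendsto (f := fun m : ℕ => γ (1 / (m + 1)) ^ (m + 1)) (b := atTop) ?_
    (.of_forall fun m => G.pow_mem (h1 _) _)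
  rw [tendsto_iff_norm_sub_tendsto_zero]
  refine squeeze_zero (fun _ => norm_nonneg _) (fun m => ?_) (by simpa using (h4.comp h5).norm)
  have h6 := norm_pow_sub_pow (hn _ (h1 (1 / (m + 1)))) (hn' (1 / (m + 1))) m
  rw [hD, Nat.cast_succ, mul_one_div_cancel (by positivity)] at h6
  simpa [h0, h2, norm_smul, abs_of_pos (show (0 : ℝ) < m + 1 by positivity)] using h6

end Abs

variable {N : ℕ} {μ : Measure (Mat N)}

theorem Inv.mul {u v : Mat N} (hu : Inv μ u) (hv : Inv μ v) : Inv μ (u * v) := by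
  have : act (u * v) = act u ∘ act v := funext (act_mul u v)
  rw [Inv, this]
  exact hu.comp hv

theorem inv_one : Inv μ 1 := by
  have : act (1 : Mat N) = id := funext act_one
  rw [Inv, this]
  exact .id μ

theorem Inv.star {u : Mat N} (h : u ∈ Matrix.unitaryGroup (Fin N) ℂ) (hu : Inv μ u) : Inv μ (star u) := by
  refine ⟨measurable_act _, ?_⟩
  conv_lhs => rw [← hu.map_eq]
  rw [Measure.map_map (measurable_act _) (measurable_act _),
    show act (Star.star u) ∘ act u = act (Star.star u * u) from (funext (act_mul _ u)).symm,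
    Matrix.mem_unitaryGroup_iff'.1 h, inv_one.map_eq]

theorem isClosed_inv [IsFiniteMeasure μ] : IsClosed {u : Mat N | Inv μ u} := by
  have : {u : Mat N | Inv μ u} = ⋂ F : Mat N →ᵇ ℝ, {u | ∫ S, F (act u S) ∂μ = ∫ S, F S ∂μ} :=
    Set.ext fun u => ⟨fun h => Set.mem_iInter.2 fun F => h.integral_comp_of_sm F.continuous.measurable,
      fun h => mp_of_integral (measurable_act _) (Set.mem_iInter.1 h)⟩
  rw [this]
  refine isClosed_iInter fun F => isClosed_eq (continuous_of_dominated (bound := fun _ => ‖F‖)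
    (fun u => (F.continuous.measurable.comp (measurable_act u)).aestronglyMeasurable)
    (fun u => ae_of_all _ fun S => F.norm_coe_le_norm _) (integrable_const _) (ae_of_all _ fun S => ?_))
    continuous_const
  exact F.continuous.comp (continuous_act.comp (continuous_id.prodMk continuous_const))

/-- the invariance group -/
def stab (μ : Measure (Mat N)) : Submonoid (Mat N) where
  carrier := {u | u ∈ Matrix.unitaryGroup (Fin N) ℂ ∧ Inv μ u}
  mul_mem' hu hv := ⟨mul_mem hu.1 hv.1, hu.2.mul hv.2⟩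
  one_mem' := ⟨one_mem _, inv_one⟩

theorem mul_E_mul (u v : Mat N) (p q i l : Fin N) : 
    (u * Matrix.single p q (1 : ℂ) * v : Mat N) i l = u i p * v q l := by
  simp [Matrix.mul_apply, Matrix.single_apply, ite_and]

open scoped Matrix.Norms.L2Operator

theorem Tan.orth (hO : OInv μ) {X : Mat N} (hX : Tan (stab μ) X) {O : Matrix (Fin N) (Fin N) ℝ} (h : O * Oᵀ = 1) :
    Tan (stab μ) (cx O * X * cx Oᵀ) := by
  have h' : Oᵀ * Oᵀᵀ = 1 := mul_eq_one_comm.1 h
  exact hX.conj ⟨cx_mem h, hO O h⟩ ⟨cx_mem h', hO _ h'⟩ (by rw [← cx_mul, h, cx_one])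

theorem tan_J (hO : OInv μ) {a b : Fin N} (hab : a ≠ b) :
    Tan (stab μ) (Matrix.single a b 1 - Matrix.single b a 1) := by
  have e : ∀ t : ℝ, cx (rot2 a b (Real.cos t) (Real.sin t)) = 1 + (Real.cos t - 1) •
      (Matrix.single a a 1 + Matrix.single b b 1) + Real.sin t • (Matrix.single a b 1 - Matrix.single b a 1) :=
    fun t => by
      ext i l
      simp [cx, rot2, Matrix.single_apply, Matrix.one_apply, apply_ite ((↑) : ℝ → ℂ)]
  refine ⟨fun t => cx (rot2 a b (Real.cos t) (Real.sin t)), fun t => ?_, (e 0).trans (by simp), ?_⟩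
  · have h := rot2_orth hab (Real.cos_sq_add_sin_sq t)
    exact ⟨cx_mem h, hO _ h⟩
  · simp only [e]
    exact (((((Real.hasDerivAt_cos 0).sub_const 1).smul_const _).const_add 1).fun_add
      ((Real.hasDerivAt_sin 0).smul_const _)).congr_deriv (by simp)

theorem tan_sym (hO : OInv μ) (h : Sw μ) : ∃ j b : Fin N, j ≠ b ∧
    Tan (stab μ) (I • (Matrix.single j b 1 + Matrix.single b j 1)) := by
  obtain ⟨W, a, j, b, hW, hj, hb, hba, hI⟩ := h
  have hab : a ≠ b := by
    rintro rfl
    rw [hb] at hj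
    split_ifs at hj <;> simp at hj
  have hjb : j ≠ b := by
    rintro rfl
    simp [hba] at hj
  have h1 := (tan_J hO hab).conj ⟨hW, hI⟩ ⟨Unitary.star_mem hW, hI.star hW⟩ (Matrix.mem_unitaryGroup_iff.1 hW)
  have h2 := h1.orth hO (O := Matrix.diagonal fun i => if i = j then -1 else 1) (by
    rw [Matrix.diagonal_transpose, Matrix.diagonal_mul_diagonal, ← Matrix.diagonal_one]
    congr 1
    funext i
    split_ifs <;> simp)
  refine ⟨j, b, hjb, ?_⟩
  convert ((h1.add (h2.smul (-1))).add ((tan_J hO hjb).smul (-2 * (W j a).re))).smul (2 * (W j a).im)⁻¹ using 1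
  rw [eq_inv_smul_iff₀ (mul_ne_zero two_ne_zero hj), Matrix.diagonal_transpose, cx,
    Matrix.diagonal_map (by simp)]
  ext i l
  simp only [Matrix.add_apply, Matrix.smul_apply, Matrix.mul_diagonal, Matrix.diagonal_mul, mul_sub, sub_mul,
    Matrix.sub_apply, mul_E_mul, Matrix.star_apply, hb, Matrix.single_apply]
  by_cases h1 : i = j <;> by_cases h2 : l = j <;> by_cases h3 : i = b <;> by_cases h4 : l = b <;>
    simp_all [Complex.ext_iff, eq_comm] <;> ring_nf <;> simp

theorem tan_diag (hO : OInv μ) (h : Sw μ) : ∃ b : Fin N, ∀ p,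
    Tan (stab μ) (I • (Matrix.single p p 1 - Matrix.single b b 1)) := by
  obtain ⟨j, b, hjb, h1⟩ := tan_sym hO h
  have hc : (√2 / 2) * (√2 / 2) = 1 / 2 := by
    rw [div_mul_div_comm, Real.mul_self_sqrt zero_le_two]
    norm_num
  have h2 : Tan (stab μ) (I • (Matrix.single j j 1 - Matrix.single b b 1)) := by
    convert h1.orth hO (rot2_orth hjb (c := √2 / 2) (s := √2 / 2) (by linarith)) using 1
    generalize √2 / 2 = c at hc
    have hc' : (c : ℂ) * c = 1 / 2 := by rw [← Complex.ofReal_mul, hc]; simp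
    rw [Matrix.mul_smul, Matrix.smul_mul]
    congr 1
    ext i l
    simp only [mul_add, add_mul, Matrix.add_apply, mul_E_mul]
    by_cases h1 : i = j <;> by_cases h2 : l = j <;> by_cases h3 : i = b <;> by_cases h4 : l = b <;>
      simp_all [cx, rot2, Matrix.single_apply, Matrix.one_apply, eq_comm] <;> norm_num
  refine ⟨b, fun p => ?_⟩
  by_cases hp : p = b
  · simpa [hp] using h2.smul 0
  by_cases hj : j = p
  · exact hj ▸ h2
  convert h2.orth hO (rot2_orth hj (c := 0) (s := 1) (by simp)) using 1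
  rw [Matrix.mul_smul, Matrix.smul_mul]
  congr 1
  ext i l
  simp only [mul_sub, sub_mul, Matrix.sub_apply, mul_E_mul]
  by_cases h1 : i = j <;> by_cases h2 : l = j <;> by_cases h3 : i = b <;> by_cases h4 : l = b <;>
    by_cases h5 : i = p <;> by_cases h6 : l = p <;>
    simp_all [cx, rot2, Matrix.single_apply, Matrix.one_apply, eq_comm]

theorem Sw.ph [IsFiniteMeasure μ] (hO : OInv μ) (h : Sw μ) : Ph μ := by
  obtain ⟨b, hb⟩ := tan_diag hO h
  intro d hd hp
  have : Nonempty (Fin N) := ⟨b⟩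
  have hn : ∀ g ∈ Matrix.unitaryGroup (Fin N) ℂ, ‖g‖ ≤ 1 := fun g hg => (CStarRing.norm_of_mem_unitary hg).le
  have he : ∀ p, cexp (arg (d p) * I) = d p := fun p => by simpa [hd p] using norm_mul_exp_arg_mul_I (d p)
  set c : Fin N → ℝ := fun p => arg (d p) - if p = b then ∑ q, arg (d q) else 0
  have h1 := (Tan.sum Finset.univ fun p _ => (hb p).smul (arg (d p))).mem
    (isClosed_unitary.inter isClosed_inv) (fun g hg => hn g hg.1)
    (D := fun t => Matrix.diagonal fun p => cexp (t * (c p * I))) (fun m t => ?_)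
    (fun t => hn _ (lam_diagonal fun p => ?_).1) ?_
  · convert h1.2 using 2
    funext p
    simp only [c, ofReal_one, one_mul, ofReal_sub, sub_mul, Complex.exp_sub, he]
    split_ifs
    · rw [ofReal_sum, Finset.sum_mul, Complex.exp_sum, Finset.prod_congr rfl fun q _ => he q, hp, div_one]
    · simp
  · rw [Matrix.diagonal_pow]
    congr 1
    funext p
    simp [← Complex.exp_nat_mul, mul_assoc]
  · rw [← mul_assoc, ← ofReal_mul, norm_exp_ofReal_mul_I]
  · refine ((LinearMap.toContinuousLinearMap (Matrix.diagonalLinearMap (Fin N) ℝ ℂ)).hasFDerivAt.comp_hasDerivAt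
      (0 : ℝ) (hasDerivAt_pi.2 fun p => (((hasDerivAt_id (0 : ℝ)).ofReal_comp.mul_const
        (c p * I)).cexp))).congr_deriv ?_
    ext i l
    simp only [c, Matrix.sum_apply]
    by_cases hil : i = l
    · subst hil
      by_cases hib : b = i <;>
        simp [hib, Matrix.single_apply, mul_sub, sub_mul, Finset.sum_mul, eq_comm]
    · have : ∀ x, ¬(x = i ∧ x = l) := fun x h => hil (h.1.symm.trans h.2)
      simp [hil, this]

end Crest.Agent.R166.H
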