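import Crest.Agent.R166.H.Grp
import Crest.Agent.R166.H.AlgC

/-! Row 166, block H: averaging over the invariance group. -/

set_option autoImplicit false
set_option linter.unusedSectionVars false

open MeasureTheory ProbabilityTheory Filter Topology Complex
open scoped ENNReal NNReal BigOperators Matrix ComplexConjugate BoundedContinuousFunction

noncomputable section

namespace Crest.Agent.R166.H

theorem exists_haar {n : ℕ} (G : Submonoid (Mat n)) (hc : IsClosed (G : Set (Mat n)))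
    (hu : ∀ u ∈ G, u ∈ Matrix.unitaryGroup (Fin n) ℂ) (hs : ∀ u ∈ G, star u ∈ G) :
    ∃ ν : Measure (Mat n), IsProbabilityMeasure ν ∧ (∀ᵐ u ∂ν, u ∈ G) ∧
      ∀ v ∈ G, MeasurePreserving (· * v) ν ν := by
  let H : Subgroup (Matrix.unitaryGroup (Fin n) ℂ) :=
    { carrier := {u | u.1 ∈ G}
      mul_mem' := fun ha hb => G.mul_mem ha hb
      one_mem' := G.one_mem
      inv_mem' := fun ha => hs _ ha }
  have : CompactSpace (Matrix.unitaryGroup (Fin n) ℂ) := isCompact_iff_compactSpace.1 isCompact_unitary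
  have : CompactSpace H := isCompact_iff_compactSpace.1 (hc.preimage continuous_subtype_val).isCompact
  borelize ↥H
  have : IsProbabilityMeasure (Measure.haarMeasure (G := H) ⊤) := ⟨Measure.haarMeasure_self⟩
  have hφ : Measurable fun u : H => star u.1.1 :=
    (continuous_star.comp (continuous_subtype_val.comp continuous_subtype_val)).measurable
  refine ⟨(Measure.haarMeasure ⊤).map fun u : H => star u.1.1, Measure.isProbabilityMeasure_map hφ.aemeasurable,
    (ae_map_iff hφ.aemeasurable hc.measurableSet).2 (ae_of_all _ fun u => hs _ u.2), fun v hv => ?_⟩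
  have hm : Measurable fun u : Mat n => u * v := (continuous_id.matrix_mul continuous_const).measurable
  refine ⟨hm, ?_⟩
  conv_rhs => rw [← map_mul_left_eq_self (Measure.haarMeasure ⊤) (⟨⟨v, hu v hv⟩, hv⟩ : H)⁻¹]
  rw [Measure.map_map hm hφ, Measure.map_map hφ (measurable_const_mul _)]
  congr 1
  funext u
  show star u.1.1 * v = star (star v * u.1.1)
  rw [star_mul, star_star]

theorem Lam.act {n : ℕ} {u S : Mat n} (hS : Lam S) (hu : u ∈ Matrix.unitaryGroup (Fin n) ℂ) : Lam (act u S) :=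
  ⟨mul_mem (mul_mem hu hS.1) (Matrix.transpose_mem_unitaryGroup_iff.2 hu), by
    simp [H.act, Matrix.transpose_mul, hS.2, Matrix.mul_assoc]⟩

theorem exists_trans {n : ℕ} {S : Mat (n + 1)} (hS : Lam S) {d' : Fin (n + 1) → ℂ} (hd' : ∀ i, ‖d' i‖ = 1)
    (h : ∏ i, d' i = S.det) : ∃ (O : Matrix (Fin (n + 1)) (Fin (n + 1)) ℝ) (e : Fin (n + 1) → ℂ), O * Oᵀ = 1 ∧
      (∀ i, ‖e i‖ = 1) ∧ ∏ i, e i = 1 ∧ S = act (cx O * Matrix.diagonal e) (Matrix.diagonal d') := by
  obtain ⟨O, d, hO, hd, rfl⟩ := hS.exists_diag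
  rw [det_act, det_cx_sq hO, one_mul, Matrix.det_diagonal, Fin.prod_univ_succ, Fin.prod_univ_succ] at h
  have h0 : ∀ i, d' i ≠ 0 := fun i => norm_ne_zero_iff.1 (by simp [hd'])
  choose r hr using fun i : Fin n => IsAlgClosed.exists_pow_nat_eq (d i.succ / d' i.succ) two_pos
  have h1 : ∀ i, ‖r i‖ = 1 := fun i => by
    rw [← pow_eq_one_iff_of_nonneg (norm_nonneg _) two_ne_zero, ← norm_pow, hr, norm_div, hd, hd', div_one]
  have h2 : ∏ i, r i ≠ 0 := norm_ne_zero_iff.1 (by simp [h1])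
  refine ⟨O, Fin.cons (∏ i, r i)⁻¹ r, hO, Fin.cases (by simp [h1]) (by simpa using h1),
    by simp [Fin.prod_univ_succ, h2], ?_⟩
  rw [act_mul]
  congr 1
  rw [act, Matrix.diagonal_transpose, Matrix.diagonal_mul_diagonal, Matrix.diagonal_mul_diagonal]
  congr 1
  refine funext (Fin.cases ?_ fun i => ?_)
  · have h3 : (∏ i, r i) ^ 2 * ∏ i : Fin n, d' i.succ = ∏ i : Fin n, d i.succ := by
      rw [← Finset.prod_pow, ← Finset.prod_mul_distrib]
      exact Finset.prod_congr rfl fun i _ => by rw [hr, div_mul_cancel₀ _ (h0 _)]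
    have h4 : ∏ i : Fin n, d' i.succ ≠ 0 := Finset.prod_ne_zero_iff.2 fun i _ => h0 _
    simp only [Fin.cons_zero]
    field_simp
    refine mul_right_cancel₀ h4 ?_
    rw [h, ← h3]
    ring
  · simp only [Fin.cons_succ]
    rw [mul_right_comm, ← sq, hr, div_mul_cancel₀ _ (h0 _)]

theorem measurable_act₂ {n : ℕ} : Measurable fun p : Mat n × Mat n => act p.2 p.1 :=
  (continuous_act.comp continuous_swap).measurable

theorem avg_swap {n : ℕ} {μ ν : Measure (Mat n)} [IsProbabilityMeasure μ] [IsProbabilityMeasure ν]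
    (hs : ∀ᵐ S ∂μ, Lam S) (hν : ∀ᵐ u ∂ν, u ∈ Matrix.unitaryGroup (Fin n) ℂ ∧ Inv μ u ∧ u.det ^ 2 = 1)
    {F : Mat n → ℂ} (hF : Measurable F) {C : ℝ} (hC : ∀ S, Lam S → ‖F S‖ ≤ C) {ψ : ℂ → ℂ} (hψ : Continuous ψ) :
    ∫ S, ψ S.det * F S ∂μ = ∫ S, ψ S.det * ∫ u, F (act u S) ∂ν ∂μ := by
  obtain ⟨D, hD⟩ := (isCompact_sphere (0 : ℂ) 1).exists_bound_of_continuousOn hψ.continuousOn
  have m3 : Measurable fun S : Mat n => ψ S.det := hψ.measurable.comp measurable_det
  have i1 : Integrable (Function.uncurry fun S u : Mat n => ψ S.det * F (act u S)) (μ.prod ν) := by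
    refine .of_bound ((m3.comp measurable_fst).mul (hF.comp measurable_act₂)).aestronglyMeasurable (D * C) ?_
    filter_upwards [Measure.quasiMeasurePreserving_fst.ae hs, Measure.quasiMeasurePreserving_snd.ae hν]
      with p h1 h2
    have := hD _ (mem_sphere_zero_iff_norm.2 h1.norm_det)
    exact (norm_mul _ _).trans_le
      (mul_le_mul this (hC _ (h1.act h2.1)) (norm_nonneg _) ((norm_nonneg _).trans this))
  have e : ∀ᵐ u ∂ν, ∫ S, ψ S.det * F (act u S) ∂μ = ∫ S, ψ S.det * F S ∂μ := hν.mono fun u hu => by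
    rw [← hu.2.1.integral_comp_of_sm (F := fun S => ψ S.det * F S) (m3.mul hF)]
    simp only [det_act, hu.2.2, one_mul]
  simp only [← integral_const_mul]
  rw [integral_integral_swap i1, integral_congr_ae e, integral_const, probReal_univ, one_smul]

variable {N : ℕ} {μ μ' : Measure (Mat (N + 1))} [IsProbabilityMeasure μ] [IsProbabilityMeasure μ']

/-- `G` = closed subgroup of the unitary group of all `u` with `Inv μ u`, `Inv μ' u`, `det u ^ 2 = 1`; `ν` = Haar
probability measure of `G`; `Fb S = ∫ F (act u⁻¹ S) dν(u)`, `f c = Fb (diagonal (Fin.cons c 1))`.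
`Fb (act v S) = Fb S` for `v ∈ G` (left invariance), `G` is transitive on `{Lam S, det S = c}`
(`Lam.exists_diag`, square roots `e = Fin.cons (∏ r)⁻¹ r`), Fubini. -/
theorem exists_avg (hs : ∀ᵐ S ∂μ, Lam S) (hO : OInv μ) (hP : Ph μ) (hs' : ∀ᵐ S ∂μ', Lam S) (hO' : OInv μ')
    (hP' : Ph μ') {F : Mat (N + 1) → ℂ} (hF : Measurable F) {C : ℝ} (hC : ∀ S, Lam S → ‖F S‖ ≤ C) :
    ∃ f : ℂ → ℂ, Measurable f ∧
      (∀ ψ : ℂ → ℂ, Continuous ψ → ∫ S, ψ S.det * F S ∂μ = ∫ S, ψ S.det * f S.det ∂μ) ∧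
      ∫ S, F S ∂μ' = ∫ S, f S.det ∂μ' ∧
      ((∀ (c : ℂ) S, ‖c‖ = 1 → F (c • S) = F S) → ∀ c : ℂ, ‖c‖ = 1 → f c = f 1) := by
  let G : Submonoid (Mat (N + 1)) :=
    { carrier := {u | u ∈ stab μ ∧ u ∈ stab μ' ∧ u.det ^ 2 = 1}
      mul_mem' := fun ha hb => ⟨mul_mem ha.1 hb.1, mul_mem ha.2.1 hb.2.1, by
        rw [Matrix.det_mul, mul_pow, ha.2.2, hb.2.2, one_mul]⟩
      one_mem' := ⟨one_mem _, one_mem _, by simp⟩ }
  obtain ⟨ν, _, hν, hR⟩ := exists_haar G ((isClosed_unitary.inter isClosed_inv).inter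
    ((isClosed_unitary.inter isClosed_inv).inter (isClosed_eq (continuous_id.matrix_det.pow 2) continuous_const)))
    (fun u hu => hu.1.1) fun u hu => ⟨⟨Unitary.star_mem hu.1.1, hu.1.2.star hu.1.1⟩,
      ⟨Unitary.star_mem hu.1.1, hu.2.1.2.star hu.1.1⟩, by
        rw [Matrix.star_eq_conjTranspose, Matrix.det_conjTranspose, ← star_pow, hu.2.2, star_one]⟩
  have m1 : Measurable fun p : Mat (N + 1) × Mat (N + 1) => F (act p.2 p.1) :=
    hF.comp measurable_act₂
  obtain ⟨Fb, hFb⟩ : ∃ Fb : Mat (N + 1) → ℂ, ∀ S, Fb S = ∫ u, F (act u S) ∂ν := ⟨_, fun _ => rfl⟩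
  have m2 : Measurable Fb := by
    rw [funext hFb]
    exact (m1.stronglyMeasurable.integral_prod_right' (ν := ν)).measurable
  have h1 : ∀ S, Lam S → ∀ d' : Fin (N + 1) → ℂ, (∀ i, ‖d' i‖ = 1) → ∏ i, d' i = S.det →
      Fb S = Fb (Matrix.diagonal d') := fun S hS d' h1 h2 => by
    obtain ⟨O, e, hO1, he, he1, h⟩ := exists_trans hS h1 h2
    have hu := (lam_diagonal he).1
    have hv : cx O * Matrix.diagonal e ∈ G := G.mul_mem ⟨⟨cx_mem hO1, hO O hO1⟩, ⟨cx_mem hO1, hO' O hO1⟩, det_cx_sq hO1⟩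
      ⟨⟨hu, hP e he he1⟩, ⟨hu, hP' e he he1⟩, by simp [he1]⟩
    rw [h]
    simp only [hFb, ← act_mul]
    exact (hR _ hv).integral_comp_of_sm (F := fun u => F (act u (Matrix.diagonal d')))
      (hF.comp (continuous_act.comp (continuous_id.prodMk continuous_const)).measurable)
  have hc : ∀ c : ℂ, ‖c‖ = 1 → ∀ i, ‖(Fin.cons c 1 : Fin (N + 1) → ℂ) i‖ = 1 := fun c hc =>
    Fin.cases hc (by simp)
  have key := fun (μ : Measure (Mat (N + 1))) [IsProbabilityMeasure μ] (hs : ∀ᵐ S ∂μ, Lam S)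
      (hI : ∀ u ∈ G, Inv μ u) (ψ : ℂ → ℂ) (hψ : Continuous ψ) =>
    (avg_swap hs (hν.mono fun u hu => ⟨hu.1.1, hI u hu, hu.2.2⟩) hF hC hψ).trans
      (integral_congr_ae (hs.mono fun S hS => congrArg (ψ S.det * ·)
        ((hFb S).symm.trans (h1 S hS _ (hc _ hS.norm_det) (by simp [Fin.prod_univ_succ])))))
  refine ⟨fun c => Fb (Matrix.diagonal (Fin.cons c 1)), m2.comp (Continuous.measurable ?_),
    key μ hs fun u hu => hu.1.2, by simpa using key μ' hs' (fun u hu => hu.2.1.2) 1 continuous_const,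
    fun h c hc1 => ?_⟩
  · exact Continuous.matrix_diagonal (continuous_pi (Fin.cases continuous_id fun _ => continuous_const))
  · obtain ⟨l, hl⟩ := IsAlgClosed.exists_pow_nat_eq c N.succ_pos
    have hl1 : ‖l‖ = 1 := by
      rw [← pow_eq_one_iff_of_nonneg (norm_nonneg _) N.succ_ne_zero, ← norm_pow, hl, hc1]
    simp only
    rw [h1 _ (lam_diagonal (hc c hc1)) (fun _ => l) (fun _ => hl1) (by simp [hl, Fin.prod_univ_succ]),
      h1 _ (lam_diagonal (hc 1 norm_one)) (fun _ => 1) (fun _ => norm_one) (by simp [Fin.prod_univ_succ])]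
    rw [hFb, hFb]
    refine integral_congr_ae (ae_of_all _ fun u => ?_)
    simp only
    rw [← h l (act u (Matrix.diagonal fun _ => 1)) hl1, ← Matrix.smul_one_eq_diagonal]
    simp [act]

theorem factor (hs : ∀ᵐ S ∂μ, Lam S) (hO : OInv μ) (hP : Ph μ) {F : Mat (N + 1) → ℂ} (hF : Measurable F)
    {C : ℝ} (hC : ∀ S, Lam S → ‖F S‖ ≤ C) (hc : ∀ (c : ℂ) S, ‖c‖ = 1 → F (c • S) = F S) {ψ : ℂ → ℂ}
    (hψ : Continuous ψ) : ∫ S, ψ S.det * F S ∂μ = (∫ S, ψ S.det ∂μ) * ∫ S, F S ∂μ := by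
  obtain ⟨f, -, h1, h2, h3⟩ := exists_avg hs hO hP hs hO hP hF hC
  have e := hs.mono fun S hS => h3 hc _ hS.norm_det
  rw [h1 ψ hψ, h2, integral_congr_ae e, integral_const, probReal_univ, one_smul, ← integral_mul_const]
  exact integral_congr_ae (e.mono fun S hS => congrArg _ hS)

theorem eq_of_det (hs : ∀ᵐ S ∂μ, Lam S) (hO : OInv μ) (hP : Ph μ) (hs' : ∀ᵐ S ∂μ', Lam S) (hO' : OInv μ')
    (hP' : Ph μ') (h : μ.map Matrix.det = μ'.map Matrix.det) : μ = μ' := by
  refine ext_of_forall_integral_eq_of_IsFiniteMeasure fun F => ?_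
  obtain ⟨f, hf, h1, h2, -⟩ := exists_avg hs hO hP hs' hO' hP' (F := fun S => F S)
    (continuous_ofReal.comp F.continuous).measurable (C := ‖F‖) fun S _ => by simpa using F.norm_coe_le_norm S
  have h3 := h1 1 continuous_const
  simp only [Pi.one_apply, one_mul] at h3
  rw [← ofReal_inj, ← integral_complex_ofReal, ← integral_complex_ofReal, h3, h2,
    ← integral_map_of_stronglyMeasurable measurable_det hf.stronglyMeasurable, h,
    integral_map_of_stronglyMeasurable measurable_det hf.stronglyMeasurable]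

end Crest.Agent.R166.H
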