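import Crest.Agent.R166.H.X1

/-! Row 166, block H: extraction of the Laplace functional. -/

set_option autoImplicit false
set_option linter.unusedSectionVars false

open MeasureTheory ProbabilityTheory Filter Topology Complex
open scoped ENNReal NNReal BigOperators Matrix ComplexConjugate

noncomputable section

namespace Crest.Agent.R166.H

theorem x0_avg {f c w : ℝ → ℝ} {δ E e m : ℝ} (hδ : 0 < δ) (hf : IntervalIntegrable f volume 0 δ)
    (hc : IntervalIntegrable c volume 0 δ) (hw : IntervalIntegrable w volume 0 δ)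
    (hle : ∀ t ∈ Set.Icc 0 δ, |f t - E| ≤ e + 4 * c t + w t) (hw' : ∫ t in (0 : ℝ)..δ, w t ≤ m * δ) :
    |δ⁻¹ * (∫ t in (0 : ℝ)..δ, f t) - E| ≤ e + m + 4 * (δ⁻¹ * ∫ t in (0 : ℝ)..δ, c t) := by
  have hk : ∀ a : ℝ, IntervalIntegrable (fun _ : ℝ => a) volume 0 δ := fun a => intervalIntegrable_const
  have h1 : δ⁻¹ * (∫ t in (0 : ℝ)..δ, f t) - E = δ⁻¹ * ∫ t in (0 : ℝ)..δ, (f t - E) := by
    rw [intervalIntegral.integral_sub hf (hk E), intervalIntegral.integral_const, smul_eq_mul]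
    field_simp
    ring
  have h2 := (intervalIntegral.abs_integral_le_integral_abs (f := fun t => f t - E) (μ := volume) hδ.le).trans
    (intervalIntegral.integral_mono_on hδ.le (hf.sub (hk E)).abs (((hk e).add (hc.const_mul 4)).add hw) hle)
  rw [intervalIntegral.integral_add ((hk e).add (hc.const_mul 4)) hw,
    intervalIntegral.integral_add (hk e) (hc.const_mul 4), intervalIntegral.integral_const,
    intervalIntegral.integral_const_mul, smul_eq_mul, sub_zero] at h2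
  rw [h1, abs_mul, abs_of_pos (inv_pos.2 hδ), inv_mul_le_iff₀ hδ]
  have h3 : δ * (e + m + 4 * (δ⁻¹ * ∫ t in (0 : ℝ)..δ, c t)) = δ * e + m * δ + 4 * ∫ t in (0 : ℝ)..δ, c t := by
    field_simp
  linarith

theorem x0_ii {f : ℝ → ℝ} (hf : Measurable f) {B : ℝ} (hB : ∀ t, |f t| ≤ B) (a b : ℝ) :
    IntervalIntegrable f volume a b :=
  (intervalIntegrable_const (c := B)).mono_fun' hf.aestronglyMeasurable (Eventually.of_forall hB)

theorem x0_exp {a b : ℝ} (ha : 0 ≤ a) (hb : 0 ≤ b) : |Real.exp (-a) - Real.exp (-b)| ≤ |a - b| := by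
  wlog hab : a ≤ b generalizing a b
  · rw [abs_sub_comm, abs_sub_comm a b]
    exact this hb ha (le_of_not_ge hab)
  have h1 : Real.exp (-b) ≤ Real.exp (-a) := Real.exp_le_exp.2 (by linarith)
  have h2 : Real.exp (-a) ≤ 1 := Real.exp_le_one_iff.2 (by linarith)
  have h3 := Real.add_one_le_exp (a - b)
  have h4 : Real.exp (-b) = Real.exp (-a) * Real.exp (a - b) := by
    rw [← Real.exp_add]
    congr 1
    ring
  rw [abs_of_nonneg (by linarith), abs_of_nonpos (by linarith), h4]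
  nlinarith [Real.exp_pos (-a)]

/-- counting: if every element of `s` has weight at least `1 / k` -/
theorem x0_card {n : ℕ} {w : Fin n → ℝ} (hw : ∀ i, 0 ≤ w i) {D k : ℝ} (hk : 0 ≤ k) (hD : ∑ i, w i ≤ D)
    (s : Finset (Fin n)) (h : ∀ i ∈ s, 1 ≤ k * w i) : (s.card : ℝ) ≤ k * D := by
  calc (s.card : ℝ) = ∑ _i ∈ s, (1 : ℝ) := by simp
    _ ≤ ∑ i ∈ s, k * w i := Finset.sum_le_sum h
    _ ≤ ∑ i, k * w i :=
        Finset.sum_le_sum_of_subset_of_nonneg (Finset.subset_univ s) fun i _ _ => mul_nonneg hk (hw i)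
    _ ≤ k * D := by
        rw [← Finset.mul_sum]
        exact mul_le_mul_of_nonneg_left hD hk

theorem x0_shift {ξ t R : ℝ} (h0 : 0 ≤ t) (h1 : t ≤ 1) (hR : 1 ≤ R) : ξ ^ 2 + R ^ 2 ≤ 3 * ((ξ - t) ^ 2 + R ^ 2) := by
  nlinarith [sq_nonneg (ξ - 2 * t), sq_nonneg (ξ - t)]

theorem x0_sq {β x ξ R k : ℝ} (hβ : |β| ≤ |x|⁻¹) (hx : x ≠ 0) (hR : 0 < R) (h : ξ ^ 2 + R ^ 2 ≤ k * R * x ^ 2) :
    β ^ 2 ≤ k * (R / (ξ ^ 2 + R ^ 2)) := by
  have h1 : β ^ 2 ≤ (x ^ 2)⁻¹ := by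
    rw [← sq_abs β, ← sq_abs x, ← inv_pow]
    exact pow_le_pow_left₀ (abs_nonneg _) hβ 2
  refine h1.trans ?_
  rw [← mul_div_assoc, le_div_iff₀ (by positivity), inv_mul_le_iff₀ (by positivity)]
  linarith

theorem x0_bad {n : ℕ} (ξ : Fin n → ℝ) (s : Finset (Fin n)) {γ δ : ℝ} (hγ : 0 < γ) (hδ : 0 < δ) :
    IntervalIntegrable (fun t => ∑ i ∈ s, (Metric.ball (ξ i) γ).indicator (fun _ => (1 : ℝ)) t) volume 0 δ ∧
      ∫ t in (0 : ℝ)..δ, ∑ i ∈ s, (Metric.ball (ξ i) γ).indicator (fun _ => (1 : ℝ)) t ≤ s.card * (2 * γ) := by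
  have hi : ∀ i, Integrable ((Metric.ball (ξ i) γ).indicator fun _ => (1 : ℝ)) := fun i =>
    (integrable_indicator_iff measurableSet_ball).2 (integrableOn_const measure_ball_lt_top.ne)
  refine ⟨(integrable_finsetSum s fun i _ => hi i).intervalIntegrable, ?_⟩
  rw [intervalIntegral.integral_finsetSum fun i _ => (hi i).intervalIntegrable, ← nsmul_eq_mul]
  refine Finset.sum_le_card_nsmul _ _ _ fun i _ => ?_
  rw [intervalIntegral.integral_of_le hδ.le]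
  refine (setIntegral_le_integral (hi i) (Eventually.of_forall fun t =>
    Set.indicator_nonneg (fun _ _ => zero_le_one) t)).trans ?_
  rw [integral_indicator_const _ measurableSet_ball, Real.volume_real_ball hγ.le, smul_eq_mul, mul_one]

/-- `#{|ξ i| ≤ R₁} ≤ 2 R₁ C`; `δ` from uniform continuity of `h`; `t ∈ [0,δ]` is good if all `|ξ i - t| ≥ γ`, the bad `t` have
measure `≤ 2 γ · 2 R₁ C`; for good `t`, `x = ξ - t`: `ξ² + R² ≤ 3 (x² + R²)`, `∑ x⁻² ≤ (1 + R₁²/γ²) 3 C / R₁`,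
`∑_{|x| > R} x⁻² ≤ 6 C / R`, `#{|x| ≤ R} ≤ 6 R C`; apply `x1`. -/
theorem x0 {h : ℝ → ℝ} (hc : Continuous h) (hs : HasCompactSupport h) (h0 : ∀ t, 0 ≤ h t) {ε : ℝ} (hε : 0 < ε)
    (C : ℝ) : ∃ R₀ : ℝ, ∀ R₁, R₀ ≤ R₁ → ∃ δ : ℝ, 0 < δ ∧ δ ≤ 1 ∧ ∃ R₂ : ℝ, ∀ R, R₂ ≤ R → ∀ η : ℝ, 0 < η →
      ∃ (N : ℕ) (F : Mat (N + 1) → ℝ) (ε' : ℝ), Continuous F ∧ (∀ S, 0 ≤ F S ∧ F S ≤ 1) ∧ 0 < ε' ∧
        ∀ (n : ℕ) (b : ℝ → ℝ) (ξ : Fin n → ℝ), Measurable b → (∀ x, |b x| ≤ |x|⁻¹) →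
          (∀ x, x ≠ 0 → |x| ≤ R → |x * b x - 1| ≤ ε') → ∑ i, R₁ / (ξ i ^ 2 + R₁ ^ 2) ≤ C →
          ∑ i, R / (ξ i ^ 2 + R ^ 2) ≤ C →
          |modelE b δ F ξ - Real.exp (-∑ i, h (ξ i))| ≤
            ε + 4 * modelE b δ (fun S : Mat 1 => chi η (S 0 0)) ξ := by
  obtain ⟨ρ, hρ⟩ := hs.isCompact.isBounded.subset_closedBall (0 : ℝ)
  have hz : ∀ t, ρ < |t| → h t = 0 := fun t ht => by
    by_contra hne
    have := hρ (subset_tsupport h hne)
    rw [mem_closedBall_zero_iff, Real.norm_eq_abs] at this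
    linarith
  obtain ⟨D, hD, hCD⟩ : ∃ D : ℝ, 0 < D ∧ C ≤ D := ⟨|C| + 1, by positivity, by linarith [le_abs_self C]⟩
  refine ⟨max 2 (ρ + 1), fun R₁ hR₁ => ?_⟩
  have r2 : 2 ≤ R₁ := (le_max_left _ _).trans hR₁
  have rρ : ρ + 1 ≤ R₁ := (le_max_right _ _).trans hR₁
  have r0 : 0 < R₁ := by linarith
  obtain ⟨δ₀, hδ₀, hu⟩ := Metric.uniformContinuous_iff.1 (hs.uniformContinuous_of_continuous hc)
    (ε / 3 / (2 * R₁ * D)) (by positivity)
  obtain ⟨δ, hδ, hδ1, hδ2⟩ : ∃ δ : ℝ, 0 < δ ∧ δ ≤ 1 ∧ δ < δ₀ :=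
    ⟨min 1 (δ₀ / 2), by positivity, min_le_left _ _, (min_le_right _ _).trans_lt (by linarith)⟩
  obtain ⟨γ, hγ, hγ1, hγ2⟩ : ∃ γ : ℝ, 0 < γ ∧ γ ≤ 1 ∧ 2 * R₁ * D * (2 * γ) ≤ ε / 3 * δ := by
    refine ⟨min 1 (ε / 3 * δ / (4 * R₁ * D)), by positivity, min_le_left _ _, ?_⟩
    have := (le_div_iff₀ (by positivity)).1 (min_le_right 1 (ε / 3 * δ / (4 * R₁ * D)))
    linarith
  obtain ⟨τ, hτ, R₀, H⟩ := x1 hc hs h0 (ε := ε / 3) (by positivity) (3 * (1 + R₁ ^ 2 / γ ^ 2) / R₁ * D)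
  refine ⟨δ, hδ, hδ1, max (max R₀ 1) (6 * D / τ), fun R hR η hη => ?_⟩
  have hR0 : R₀ ≤ R := (le_max_left _ _).trans ((le_max_left _ _).trans hR)
  have hR1 : 1 ≤ R := (le_max_right _ _).trans ((le_max_left _ _).trans hR)
  have hRτ : 6 * D / τ ≤ R := (le_max_right _ _).trans hR
  have hRp : 0 < R := by linarith
  obtain ⟨N, F, ε', hF, hF1, hε', H⟩ := H R hR0 ⌈6 * R * D⌉₊ η hη
  refine ⟨N, F, ε', hF, hF1, hε', fun n b ξ hb hb1 hb2 hs1 hs2 => ?_⟩
  replace hs1 := hs1.trans hCD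
  replace hs2 := hs2.trans hCD
  have w1 : ∀ i, 0 ≤ R₁ / (ξ i ^ 2 + R₁ ^ 2) := fun i => by positivity
  have w2 : ∀ i, 0 ≤ R / (ξ i ^ 2 + R ^ 2) := fun i => by positivity
  set s : Finset (Fin n) := Finset.univ.filter fun i => |ξ i| ≤ R₁ with hsdef
  have hsm : ∀ i, i ∈ s ↔ |ξ i| ≤ R₁ := fun i => by simp [hsdef]
  clear_value s
  have hcard : (s.card : ℝ) ≤ 2 * R₁ * D := x0_card w1 (by positivity) hs1 s fun i hi => by
    rw [← mul_div_assoc, le_div_iff₀ (by positivity)]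
    have := sq_le_sq' (abs_le.1 ((hsm i).1 hi)).1 (abs_le.1 ((hsm i).1 hi)).2
    nlinarith
  have hG : Continuous fun S : Mat 1 => chi η (S 0 0) := (continuous_chi hη).comp (by fun_prop)
  have hFb : ∀ β : Fin n → ℝ, |∫ g, F (cay (KK β g)) ∂gpi2 (Fin n) (Fin (N + 1))| ≤ 1 :=
    abs_inner_le fun S _ => abs_le.2 ⟨by linarith [(hF1 S).1], (hF1 S).2⟩
  have hGb : ∀ β : Fin n → ℝ, |∫ g, chi η (cay (KK β g) 0 0) ∂gpi2 (Fin n) (Fin 1)| ≤ 1 :=
    abs_inner_le (F := fun S : Mat 1 => chi η (S 0 0)) fun S _ =>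
      abs_le.2 ⟨by linarith [chi_pos hη (S 0 0)], chi_le_one hη _⟩
  have hm : Measurable fun t : ℝ => (ξ, t) := measurable_prodMk_left
  obtain ⟨i1, i2⟩ := x0_bad ξ s hγ hδ
  have key := x0_avg (E := Real.exp (-∑ i, h (ξ i))) (e := 2 * (ε / 3)) (m := ε / 3) hδ
    (x0_ii ((measurable_inner hb hF.measurable).comp hm) (fun t => hFb _) 0 δ)
    (x0_ii ((measurable_inner hb hG.measurable).comp hm) (fun t => hGb _) 0 δ) i1 (fun t ht => ?_)
    (i2.trans ((mul_le_mul_of_nonneg_right hcard (by positivity)).trans hγ2))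
  · rw [show 2 * (ε / 3) + ε / 3 = ε by ring] at key
    exact key
  have t0 := ht.1
  have t1 : t ≤ 1 := ht.2.trans hδ1
  change |∫ g, F (cay (KK (fun i => b (ξ i - t)) g)) ∂gpi2 (Fin n) (Fin (N + 1)) - Real.exp (-∑ i, h (ξ i))| ≤
    2 * (ε / 3) + 4 * ∫ g, chi η (cay (KK (fun i => b (ξ i - t)) g) 0 0) ∂gpi2 (Fin n) (Fin 1) + _
  have c0 : 0 ≤ ∫ g, chi η (cay (KK (fun i => b (ξ i - t)) g) 0 0) ∂gpi2 (Fin n) (Fin 1) :=
    integral_nonneg fun g => (chi_pos hη _).le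
  have n0 : ∀ i, 0 ≤ (Metric.ball (ξ i) γ).indicator (fun _ => (1 : ℝ)) t := fun i =>
    Set.indicator_nonneg (fun _ _ => zero_le_one) t
  by_cases hgood : ∀ i, γ ≤ |ξ i - t|
  · have hne : ∀ i, ξ i - t ≠ 0 := fun i => abs_pos.1 (hγ.trans_le (hgood i))
    have h1 := H n (fun i => ξ i - t) (fun i => b (ξ i - t)) ?_ ?_ ?_ fun i hi => hb2 _ (hne i) hi
    · have h2 := x0_exp (Finset.sum_nonneg fun i (_ : i ∈ Finset.univ) => h0 (ξ i - t))
        (Finset.sum_nonneg fun i (_ : i ∈ Finset.univ) => h0 (ξ i))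
      have h3 : |∑ i, h (ξ i - t) - ∑ i, h (ξ i)| ≤ ε / 3 := by
        rw [← Finset.sum_sub_distrib, ← Finset.sum_subset (Finset.subset_univ s) fun i _ hi => ?_]
        · refine (Finset.abs_sum_le_sum_abs _ _).trans
            ((Finset.sum_le_card_nsmul _ _ (ε / 3 / (2 * R₁ * D)) fun i _ => ?_).trans ?_)
          · refine (hu ?_).le
            rw [Real.dist_eq, sub_sub_cancel_left, abs_neg, abs_of_nonneg t0]
            exact ht.2.trans_lt hδ2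
          · rw [nsmul_eq_mul, ← mul_div_assoc, div_le_iff₀ (by positivity), mul_comm]
            exact mul_le_mul_of_nonneg_left hcard (by positivity)
        · rw [hsm, not_le] at hi
          have := abs_sub_abs_le_abs_sub (ξ i) t
          rw [abs_of_nonneg t0] at this
          rw [hz _ (by linarith), hz _ (by linarith), sub_self]
      have h4 := abs_sub_le (∫ g, F (cay (KK (fun i => b (ξ i - t)) g)) ∂gpi2 (Fin n) (Fin (N + 1)))
        (Real.exp (-∑ i, h (ξ i - t))) (Real.exp (-∑ i, h (ξ i)))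
      have h5 := Finset.sum_nonneg fun i (_ : i ∈ s) => n0 i
      linarith
    · refine (Finset.sum_le_sum fun i _ => x0_sq (ξ := ξ i) (k := 3 * (1 + R₁ ^ 2 / γ ^ 2) / R₁) (hb1 _) (hne i) r0
        ?_).trans ?_
      · rw [div_mul_cancel₀ _ r0.ne']
        have h6 : γ ^ 2 ≤ (ξ i - t) ^ 2 := by
          rw [← sq_abs (ξ i - t)]
          exact pow_le_pow_left₀ hγ.le (hgood i) 2
        have h7 : R₁ ^ 2 ≤ R₁ ^ 2 / γ ^ 2 * (ξ i - t) ^ 2 := by
          rw [div_mul_eq_mul_div, le_div_iff₀ (by positivity)]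
          exact mul_le_mul_of_nonneg_left h6 (by positivity)
        linarith [x0_shift (ξ := ξ i) t0 t1 (by linarith : 1 ≤ R₁)]
      · rw [← Finset.mul_sum]
        exact mul_le_mul_of_nonneg_left hs1 (by positivity)
    · refine (Finset.sum_le_sum fun i hi => x0_sq (ξ := ξ i) (k := 6 / R) (hb1 _) (hne i) hRp ?_).trans
        ((Finset.sum_le_sum_of_subset_of_nonneg (Finset.subset_univ _) fun i _ _ => by positivity).trans ?_)
      · rw [div_mul_cancel₀ _ hRp.ne']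
        have h6 : R ^ 2 ≤ (ξ i - t) ^ 2 := by
          rw [← sq_abs (ξ i - t)]
          exact pow_le_pow_left₀ hRp.le (Finset.mem_filter.1 hi).2.le 2
        linarith [x0_shift (ξ := ξ i) t0 t1 hR1]
      · rw [← Finset.mul_sum]
        refine (mul_le_mul_of_nonneg_left hs2 (by positivity)).trans ?_
        rw [div_le_iff₀ hτ] at hRτ
        rw [div_mul_eq_mul_div, div_le_iff₀ hRp]
        linarith
    · refine Nat.cast_le.1 ((x0_card w2 (k := 6 * R) (by positivity) hs2 _ fun i hi => ?_).trans (Nat.le_ceil _))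
      rw [← mul_div_assoc, le_div_iff₀ (by positivity)]
      have h6 := abs_le.1 (Finset.mem_filter.1 hi).2
      have h7 := sq_le_sq' h6.1 h6.2
      linarith [x0_shift (ξ := ξ i) t0 t1 hR1]
  · push Not at hgood
    obtain ⟨i, hi⟩ := hgood
    have h1 : i ∈ s := by
      have := abs_sub_abs_le_abs_sub (ξ i) t
      rw [abs_of_nonneg t0] at this
      rw [hsm]
      linarith
    have h2 := Finset.single_le_sum (fun i (_ : i ∈ s) => n0 i) h1
    rw [Set.indicator_of_mem (by rwa [Metric.mem_ball, dist_comm, Real.dist_eq])] at h2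
    have h3 : 0 ≤ ∫ g, F (cay (KK (fun i => b (ξ i - t)) g)) ∂gpi2 (Fin n) (Fin (N + 1)) :=
      integral_nonneg fun g => (hF1 _).1
    have h4 := (abs_le.1 (hFb fun i => b (ξ i - t))).2
    have h5 := Real.exp_pos (-∑ i, h (ξ i))
    have h6 : Real.exp (-∑ i, h (ξ i)) ≤ 1 :=
      Real.exp_le_one_iff.2 (neg_nonpos.2 (Finset.sum_nonneg fun i _ => h0 _))
    rw [abs_le]
    constructor <;> linarith

end Crest.Agent.R166.H
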