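import Crest.Agent.R166.H.X2

/-! Row 166, block H: extraction of the Laplace functional. -/

set_option autoImplicit false
set_option linter.unusedSectionVars false

open MeasureTheory ProbabilityTheory Filter Topology Complex
open scoped ENNReal NNReal BigOperators Matrix ComplexConjugate

noncomputable section

namespace Crest.Agent.R166.H

theorem x1_exp {a b : ℝ} (ha : 0 ≤ a) (hb : 0 ≤ b) : |Real.exp (-a) - Real.exp (-b)| ≤ |a - b| := by
  have key : ∀ {a b : ℝ}, 0 ≤ a → Real.exp (-a) - Real.exp (-b) ≤ |a - b| := fun {a b} ha => by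
    have h1 := Real.add_one_le_exp (a - b)
    have h2 : Real.exp (-b) = Real.exp (-a) * Real.exp (a - b) := by rw [← Real.exp_add]; congr 1; ring
    have h3 : Real.exp (-a) ≤ 1 := Real.exp_le_one_iff.2 (neg_nonpos.2 ha)
    have h4 := Real.exp_pos (-a)
    nlinarith [neg_abs_le (a - b), abs_nonneg (a - b)]
  exact abs_sub_le_iff.2 ⟨key ha, abs_sub_comm a b ▸ key hb⟩

/-- `q k = h k⁻¹ * k⁻¹ ^ 2` is continuous (vanishes near `0`); `s = {|x i| ≤ R}`; if `B₃ ≤ |∑ β|` use `x3` (the left side is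
`≤ 1`), otherwise `|∑_{sᶜ} β| ≤ B₃ + M (B + 1)` and `x2`; `|(β i)⁻¹ - x i| ≤ 2 ε' |R|`, uniform continuity of `h`,
`h (x i) = 0` for `|x i| > R ≥ R₀`. -/
theorem x1 {h : ℝ → ℝ} (hc : Continuous h) (hs : HasCompactSupport h) (h0 : ∀ t, 0 ≤ h t) {ε : ℝ} (hε : 0 < ε)
    (B : ℝ) : ∃ τ : ℝ, 0 < τ ∧ ∃ R₀ : ℝ, ∀ R, R₀ ≤ R → ∀ (M : ℕ) (η : ℝ), 0 < η →
      ∃ (N : ℕ) (F : Mat (N + 1) → ℝ) (ε' : ℝ), Continuous F ∧ (∀ S, 0 ≤ F S ∧ F S ≤ 1) ∧ 0 < ε' ∧
        ∀ (n : ℕ) (x β : Fin n → ℝ), ∑ i, β i ^ 2 ≤ B → ∑ i with R < |x i|, β i ^ 2 ≤ τ →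
          (Finset.univ.filter fun i => |x i| ≤ R).card ≤ M → (∀ i, |x i| ≤ R → |x i * β i - 1| ≤ ε') →
          |∫ g, F (cay (KK β g)) ∂gpi2 (Fin n) (Fin (N + 1)) - Real.exp (-∑ i, h (x i))| ≤
            ε + 4 * ∫ g, chi η (cay (KK β g) 0 0) ∂gpi2 (Fin n) (Fin 1) := by
  obtain ⟨R₀, hR₀, hz⟩ := hs.exists_pos_le_norm
  have hq : Continuous fun k : ℝ => h k⁻¹ * k⁻¹ ^ 2 := continuous_iff_continuousAt.2 fun k => by
    rcases eq_or_ne k 0 with rfl | hk
    · refine continuousAt_const (y := 0) |>.congr ?_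
      filter_upwards [Metric.ball_mem_nhds (0 : ℝ) (inv_pos.2 hR₀)] with k hk
      rcases eq_or_ne k 0 with rfl | hk0
      · simp
      · rw [hz _ ?_, zero_mul]
        rw [norm_inv]
        exact le_inv_of_le_inv₀ (norm_pos_iff.2 hk0) (mem_ball_zero_iff.1 hk).le
    · exact (hc.continuousAt.comp (continuousAt_inv₀ hk)).mul ((continuousAt_inv₀ hk).pow 2)
  obtain ⟨τ, hτ, h2⟩ := x2 hq (fun k => mul_nonneg (h0 _) (sq_nonneg _)) (half_pos hε) B
  refine ⟨τ, hτ, R₀, fun R hR M η hη => ?_⟩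
  have hR0 : 0 < R := hR₀.trans_le hR
  obtain ⟨B₃, h3⟩ := x3 B hη
  obtain ⟨N, F, hF, hF1, h2⟩ := h2 M (B₃ + M * (B + 1))
  obtain ⟨δ, hδ, huc⟩ := Metric.uniformContinuous_iff.1 (hs.uniformContinuous_of_continuous hc)
    (ε / 2 / (M + 1)) (by positivity)
  refine ⟨N, F, min (1 / 2) (δ / (4 * R)), hF, hF1, by positivity, fun n x β hB hτ' hM hx => ?_⟩
  have hchi : 0 ≤ ∫ g, chi η (cay (KK β g) 0 0) ∂gpi2 (Fin n) (Fin 1) :=
    integral_nonneg fun g => (chi_pos hη _).le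
  rcases le_or_gt B₃ |∑ i, β i| with hb | hb
  · have a1 := h3 n β hB hb
    have a2 := (abs_le.1 (abs_inner_le (F := F) (C := 1)
      (fun S _ => abs_le.2 ⟨by linarith [(hF1 S).1], (hF1 S).2⟩) β)).2
    have a3 : 0 ≤ ∫ g, F (cay (KK β g)) ∂gpi2 (Fin n) (Fin (N + 1)) := integral_nonneg fun g => (hF1 _).1
    have a4 := Real.exp_pos (-∑ i, h (x i))
    have a5 : Real.exp (-∑ i, h (x i)) ≤ 1 :=
      Real.exp_le_one_iff.2 (neg_nonpos.2 (Finset.sum_nonneg fun i _ => h0 _))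
    rw [abs_le]
    constructor <;> linarith
  set s := Finset.univ.filter fun i => |x i| ≤ R with hsd
  have hM' : (s.card : ℝ) ≤ M := by exact_mod_cast hM
  have hsc : sᶜ = Finset.univ.filter fun i => R < |x i| := by
    ext i; simp [hsd]
  have hB0 : 0 ≤ B := (Finset.sum_nonneg fun i _ => sq_nonneg (β i)).trans hB
  have b1 : |∑ i ∈ s, β i| ≤ M * (B + 1) := by
    refine (Finset.abs_sum_le_sum_abs _ _).trans ((Finset.sum_le_card_nsmul _ _ (B + 1) fun i _ => ?_).trans ?_)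
    · have := Finset.single_le_sum (f := fun i => β i ^ 2) (fun i _ => sq_nonneg _) (Finset.mem_univ i)
      nlinarith [sq_abs (β i), sq_nonneg (|β i| - 1), abs_nonneg (β i)]
    · rw [nsmul_eq_mul]
      exact mul_le_mul_of_nonneg_right hM' (by linarith)
  have b2 : |∑ i ∈ sᶜ, β i| ≤ B₃ + M * (B + 1) := by
    rw [eq_sub_of_add_eq' (Finset.sum_add_sum_compl s β)]
    exact (abs_sub _ _).trans (by linarith)
  have b3 := h2 n β s hM hB (hsc ▸ hτ') b2
  have b4 : ∑ i, h (x i) = ∑ i ∈ s, h (x i) :=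
    (Finset.sum_subset (Finset.subset_univ s) fun i _ hi => hz _ (by
      simp only [hsd, Finset.mem_filter, Finset.mem_univ, true_and, not_le] at hi
      exact hR.trans hi.le)).symm
  have b5 : ∀ i ∈ s, |β i ^ 2 * (h (β i)⁻¹ * (β i)⁻¹ ^ 2) - h (x i)| ≤ ε / 2 / (M + 1) := fun i hi => by
    have hi' : |x i| ≤ R := (Finset.mem_filter.1 hi).2
    have c1 := (hx i hi').trans (min_le_left _ _)
    have c2 := (hx i hi').trans (min_le_right _ _)
    have c3 : 1 / 2 ≤ |x i| * |β i| := by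
      rw [← abs_mul]
      linarith [(abs_le.1 c1).1, le_abs_self (x i * β i)]
    have hβ : β i ≠ 0 := fun h => by simp [h] at c3; linarith
    have hβ' := abs_pos.2 hβ
    rw [show β i ^ 2 * (h (β i)⁻¹ * (β i)⁻¹ ^ 2) = h (β i)⁻¹ by field_simp]
    refine (huc ?_).le
    rw [Real.dist_eq, abs_sub_comm, show x i - (β i)⁻¹ = (x i * β i - 1) / β i by field_simp, abs_div,
      div_lt_iff₀ hβ']
    rw [le_div_iff₀ (by positivity)] at c2
    have c4 : 1 / 2 ≤ R * |β i| := c3.trans (mul_le_mul_of_nonneg_right hi' hβ'.le)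
    refine lt_of_mul_lt_mul_right ?_ (by positivity : 0 ≤ 4 * R)
    nlinarith
  have b6 := x1_exp (Finset.sum_nonneg (s := s) fun i _ => mul_nonneg (sq_nonneg (β i))
    (mul_nonneg (h0 (β i)⁻¹) (sq_nonneg (β i)⁻¹))) (Finset.sum_nonneg (s := s) fun i _ => h0 (x i))
  have b7 : |∑ i ∈ s, β i ^ 2 * (h (β i)⁻¹ * (β i)⁻¹ ^ 2) - ∑ i ∈ s, h (x i)| ≤ ε / 2 := by
    rw [← Finset.sum_sub_distrib]
    refine (Finset.abs_sum_le_sum_abs _ _).trans ((Finset.sum_le_card_nsmul _ _ _ b5).trans ?_)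
    rw [nsmul_eq_mul, ← mul_div_assoc, div_le_iff₀ (by positivity)]
    nlinarith
  rw [b4]
  exact (abs_sub_le _ _ _).trans (by linarith)

end Crest.Agent.R166.H
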