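import Crest.Agent.R166.H.X2a
import Crest.Agent.R166.H.Gauss

/-! Row 166, block H: reading off a linear statistic from the `K`-matrix. -/

set_option autoImplicit false
set_option linter.unusedSectionVars false

open MeasureTheory ProbabilityTheory Filter Topology Complex
open scoped ENNReal NNReal BigOperators Matrix ComplexConjugate

noncomputable section

namespace Crest.Agent.R166.H

theorem x2_exp {a b : ℝ} (hb : 0 ≤ b) : |Real.exp (-max a 0) - Real.exp (-b)| ≤ |a - b| := by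
  have key : ∀ x y : ℝ, 0 ≤ x → Real.exp (-x) - Real.exp (-y) ≤ |x - y| := fun x y hx => by
    have h1 : Real.exp (-x) ≤ 1 := Real.exp_le_one_iff.2 (neg_nonpos.2 hx)
    have h2 : Real.exp (-y) = Real.exp (-x) * Real.exp (x - y) := by rw [← Real.exp_add]; ring_nf
    nlinarith [Real.add_one_le_exp (x - y), Real.exp_pos (-x), neg_abs_le (x - y), abs_nonneg (x - y)]
  refine le_trans ?_ ((abs_max_sub_max_le_abs a b 0).trans' (by rw [max_eq_left hb]))
  exact abs_sub_le_iff.2 ⟨key _ _ (le_max_right _ _), (key _ _ hb).trans_eq (abs_sub_comm _ _)⟩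

theorem x2_hs_nonneg {ι κ : Type} [Fintype ι] [Fintype κ] (X : Matrix ι κ ℝ) : 0 ≤ hs X :=
  Finset.sum_nonneg fun _ _ => Finset.sum_nonneg fun _ _ => sq_nonneg _

/-- the deterministic estimate -/
theorem x2_det {p : Polynomial ℝ} {B Λ κ : ℝ} (hΛ : 0 < Λ) (hκ : 0 < κ) (hκ1 : κ ≤ 1)
    (hL : ∀ (ι : Type) [Fintype ι] [DecidableEq ι] (X Y : Matrix ι ι ℝ), hs X ≤ 4 * B + 6 → hs Y ≤ 4 * B + 6 →
      |Phi p X - Phi p Y| ≤ Λ * √(hs (X - Y))) {ι σ : Type} [Fintype ι] [DecidableEq ι] [Fintype σ] [DecidableEq σ]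
    {U : Matrix ι σ ℝ} {V : Matrix σ ι ℝ} {T : Matrix ι ι ℝ} {β : σ → ℝ} (hB : 0 ≤ B) (h : (U * V)ᵀ = U * V)
    (hβ : ∑ i, β i ^ 2 ≤ B) (hT : hs T ≤ κ ^ 2) (hE : hs (V * U - Matrix.diagonal β) ≤ κ ^ 2) :
    hs (U * V + T) ≤ 4 * B + 6 ∧ |Phi p (U * V + T) - ∑ i, β i ^ 2 * p.eval (β i)| ≤ 2 * (Λ * κ) := by
  have h0 : κ ^ 2 ≤ 1 := pow_le_one₀ hκ.le hκ1
  have h1 : hs (Matrix.diagonal β) ≤ B := le_trans (by simp [hs, Matrix.diagonal_apply]) hβ
  have h2 := hs_add_le (Matrix.diagonal β) (V * U - Matrix.diagonal β)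
  rw [add_sub_cancel] at h2
  have h3 := hs_comm_le U V h
  have h4 := hs_add_le (U * V) T
  have h5 := hL _ (U * V + T) (U * V) (by linarith) (by linarith)
  have h6 := hL _ (V * U) (Matrix.diagonal β) (by linarith) (by linarith)
  rw [add_sub_cancel_left, Phi_comm] at h5
  rw [Phi_diagonal] at h6
  have h7 := mul_le_mul_of_nonneg_left (Real.sqrt_le_iff.2 ⟨hκ.le, hT⟩) hΛ.le
  have h8 := mul_le_mul_of_nonneg_left (Real.sqrt_le_iff.2 ⟨hκ.le, hE⟩) hΛ.le
  exact ⟨by linarith, (abs_sub_le _ _ _).trans (by linarith)⟩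

/-- the second moment bound -/
theorem x2_mom {n : ℕ} (N : ℕ) (β : Fin n → ℝ) (s : Finset (Fin n)) : ∃ W : (Fin n → Fin (N + 1) → ℝ) → ℝ,
    Integrable W (gpi2 (Fin n) (Fin (N + 1))) ∧
    ∫ g, W g ∂gpi2 (Fin n) (Fin (N + 1)) ≤ 4 * ∑ i ∈ sᶜ, β i ^ 2 +
      (2 * (∑ i ∈ sᶜ, β i) ^ 2 + 2 * s.card * ∑ i : s, β i ^ 2) / (N + 1) ∧
    ∀ g, hs (Matrix.of fun a c => (∑ i ∈ sᶜ, β i * (g i a * g i c)) / (N + 1)) +
      hs ((Matrix.of fun (i : s) a => β i * g i a / (N + 1)) * (Matrix.of fun a (i : s) => g i a) -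
        Matrix.diagonal fun i : s => β i) ≤ W g := by
  have hN : (0 : ℝ) < N + 1 := by positivity
  have i1 := fun a c : Fin (N + 1) => (mom_quad β sᶜ a c).1.const_mul (2 / (N + 1) ^ 2)
  have i2 := fun i j : s => (mom_gram (ι := Fin (N + 1)) (i : Fin n) j).1.const_mul (β i ^ 2)
  have j1 := integrable_finsetSum Finset.univ fun a _ => integrable_finsetSum Finset.univ fun c _ => i1 a c
  have j2 := integrable_finsetSum Finset.univ fun i _ => integrable_finsetSum Finset.univ fun j _ => i2 i j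
  refine ⟨_, (j1.add (integrable_const (2 * (∑ i ∈ sᶜ, β i) ^ 2 / (N + 1)))).add j2, ?_, fun g => ?_⟩
  · rw [integral_add' (j1.add (integrable_const _)) j2, integral_add' j1 (integrable_const _),
      integral_finsetSum _ fun a _ => integrable_finsetSum _ fun c _ => i1 a c,
      integral_finsetSum _ fun i _ => integrable_finsetSum _ fun j _ => i2 i j, add_div, ← add_assoc]
    simp only [integral_finsetSum _ fun c _ => i1 _ c, integral_finsetSum _ fun j _ => i2 _ j, integral_const_mul,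
      integral_const, probReal_univ, one_smul]
    refine add_le_add (add_le_add ((Finset.sum_le_sum fun a _ => Finset.sum_le_sum fun c _ =>
      mul_le_mul_of_nonneg_left (mom_quad β sᶜ a c).2 (by positivity)).trans_eq ?_) le_rfl)
      ((Finset.sum_le_sum fun i _ => Finset.sum_le_sum fun j _ =>
        mul_le_mul_of_nonneg_left (mom_gram _ _).2 (sq_nonneg _)).trans_eq ?_)
    · simp only [Finset.sum_const, Finset.card_univ, Fintype.card_fin, nsmul_eq_mul, Nat.cast_succ]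
      field_simp
      ring
    · simp only [Finset.sum_const, Finset.card_univ, Fintype.card_fin, nsmul_eq_mul, Nat.cast_succ,
        Fintype.card_coe, ← Finset.mul_sum, ← Finset.sum_mul]
      ring
  · refine add_le_add ?_ (Finset.sum_le_sum fun i _ => Finset.sum_le_sum fun j _ => le_of_eq ?_)
    · have e : 2 * (∑ i ∈ sᶜ, β i) ^ 2 / (N + 1) = ∑ a : Fin (N + 1), ∑ c : Fin (N + 1),
          2 / (N + 1) ^ 2 * (if a = c then ∑ i ∈ sᶜ, β i else 0) ^ 2 := by
        simp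
        field_simp
      simp only [Pi.add_apply, e, ← Finset.sum_add_distrib, ← mul_add]
      refine Finset.sum_le_sum fun a _ => Finset.sum_le_sum fun c _ => ?_
      rw [Matrix.of_apply, div_pow, div_mul_eq_mul_div]
      gcongr
      nlinarith [sq_nonneg (∑ i ∈ sᶜ, β i * (g i a * g i c) - 2 * if a = c then ∑ i ∈ sᶜ, β i else 0)]
    · rw [← mul_pow, mul_sub, Finset.sum_div, Finset.mul_sum]
      simp only [Matrix.sub_apply, Matrix.mul_apply, Matrix.of_apply, Matrix.diagonal_apply, Subtype.ext_iff,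
        mul_ite, mul_one, mul_zero, Fintype.card_fin, Nat.cast_succ]
      congr 2
      exact Finset.sum_congr rfl fun a _ => by ring

theorem x2 {q : ℝ → ℝ} (hq : Continuous q) (h0 : ∀ k, 0 ≤ q k) {ε : ℝ} (hε : 0 < ε) (B : ℝ) :
    ∃ τ : ℝ, 0 < τ ∧ ∀ (M : ℕ) (B₂ : ℝ), ∃ (N : ℕ) (F : Mat (N + 1) → ℝ), Continuous F ∧
      (∀ S, 0 ≤ F S ∧ F S ≤ 1) ∧ ∀ (n : ℕ) (β : Fin n → ℝ) (s : Finset (Fin n)), s.card ≤ M →
        ∑ i, β i ^ 2 ≤ B → ∑ i ∈ sᶜ, β i ^ 2 ≤ τ → |∑ i ∈ sᶜ, β i| ≤ B₂ →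
        |∫ g, F (cay (KK β g)) ∂gpi2 (Fin n) (Fin (N + 1)) - Real.exp (-∑ i ∈ s, β i ^ 2 * q (β i))| ≤ ε := by
  obtain ⟨B', hB', hB⟩ : ∃ B' : ℝ, 1 ≤ B' ∧ B ≤ B' := ⟨max 1 B, le_max_left _ _, le_max_right _ _⟩
  obtain ⟨p, hp⟩ := exists_polynomial_near_of_continuousOn (-B') B' q hq.continuousOn (ε / 4 / B') (by positivity)
  obtain ⟨Λ, hΛ, hL⟩ := Phi_lip p (4 * B' + 6)
  obtain ⟨κ, hκ, hκ1, hκ2⟩ : ∃ κ : ℝ, 0 < κ ∧ κ ≤ 1 ∧ Λ * κ ≤ ε / 4 := ⟨min 1 (ε / 4 / Λ), by positivity,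
    min_le_left _ _, (le_div_iff₀' hΛ).1 (min_le_right _ _)⟩
  refine ⟨κ ^ 2 * ε / 32, by positivity, fun M B₂ => ?_⟩
  obtain ⟨N, hN⟩ := exists_nat_ge ((2 * B₂ ^ 2 + 2 * M * B') / (κ ^ 2 * ε / 8))
  have hN0 : (0 : ℝ) < N + 1 := by positivity
  obtain ⟨F, hF, hF1, hFG⟩ := exists_ext (N := N + 1)
    (G := fun K => Real.exp (-max (Phi p ((Real.pi / (N + 1)) • K)) 0))
    (((continuous_Phi p).comp (continuous_const_smul _)).max continuous_const).neg.rexp
    (fun K => ⟨(Real.exp_pos _).le, Real.exp_le_one_iff.2 (neg_nonpos.2 (le_max_right _ _))⟩)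
    ((4 * B' + 6) / (Real.pi / (N + 1)) ^ 2)
  refine ⟨N, F, hF, hF1, fun n β s hM h1 h2 h3 => ?_⟩
  obtain ⟨W, hW, hW1, hW2⟩ := x2_mom N β s
  have h4 : ∑ i : s, β i ^ 2 ≤ B' := by
    rw [Finset.sum_coe_sort s fun i => β i ^ 2]
    exact (Finset.sum_le_univ_sum_of_nonneg fun i => sq_nonneg _).trans (h1.trans hB)
  have h5 : 0 ≤ ∑ i ∈ s, β i ^ 2 * q (β i) := Finset.sum_nonneg fun i _ => mul_nonneg (sq_nonneg _) (h0 _)
  have h6 : |∑ i : s, β i ^ 2 * p.eval (β i) - ∑ i ∈ s, β i ^ 2 * q (β i)| ≤ ε / 4 := by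
    rw [← Finset.sum_coe_sort s, ← Finset.sum_sub_distrib]
    refine (Finset.abs_sum_le_sum_abs _ _).trans ((Finset.sum_le_sum (g := fun i : s => β i ^ 2 * (ε / 4 / B'))
      fun i _ => ?_).trans ?_)
    · have := (Finset.single_le_sum (f := fun i : s => β i ^ 2) (fun _ _ => sq_nonneg _) (Finset.mem_univ i)).trans h4
      rw [← mul_sub, abs_mul, abs_sq]
      exact mul_le_mul_of_nonneg_left (hp _ (abs_le.1 (abs_le_of_sq_le_sq' (by nlinarith) (by linarith) |>
        abs_le.2))).le (sq_nonneg _)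
    · rw [← Finset.sum_mul]
      exact (mul_le_mul_of_nonneg_right h4 (by positivity)).trans_eq (by field_simp)
  have i1 : Integrable (fun g => F (cay (KK β g))) (gpi2 (Fin n) (Fin (N + 1))) :=
    .of_bound (hF.measurable.comp (measurable_cay.comp (continuous_KK.comp
      (continuous_const.prodMk continuous_id)).measurable)).aestronglyMeasurable 1 (ae_of_all _ fun g =>
        abs_le.2 ⟨by linarith [(hF1 (cay (KK β g))).1], (hF1 _).2⟩)
  have key : ∀ g : Fin n → Fin (N + 1) → ℝ,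
      ‖F (cay (KK β g)) - Real.exp (-∑ i ∈ s, β i ^ 2 * q (β i))‖ ≤ 3 * ε / 4 + W g / κ ^ 2 := fun g => by
    have a0 := hW2 g
    set T : Matrix (Fin (N + 1)) (Fin (N + 1)) ℝ := Matrix.of fun a c => (∑ i ∈ sᶜ, β i * (g i a * g i c)) / (N + 1)
    set V : Matrix s (Fin (N + 1)) ℝ := Matrix.of fun i a => β i * g i a / (N + 1)
    set U : Matrix (Fin (N + 1)) s ℝ := Matrix.of fun a i => g i a
    have a1 := x2_hs_nonneg T
    have a2 := x2_hs_nonneg (V * U - Matrix.diagonal fun i : s => β i)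
    rcases le_total (W g) (κ ^ 2) with h | h
    · have e : (Real.pi / (N + 1)) • KK β g = U * V + T := by
        ext a c
        simp only [KK, Matrix.smul_apply, smul_eq_mul, Matrix.add_apply, Matrix.mul_apply, U, V, T, Matrix.of_apply,
          ← Finset.sum_add_sum_compl s, Finset.sum_coe_sort s fun i => g i a * (β i * g i c / (N + 1))]
        rw [Finset.sum_congr rfl fun i _ => show g i a * (β i * g i c / (N + 1)) = β i * (g i a * g i c) / (N + 1) by
          ring, ← Finset.sum_div]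
        field_simp
      obtain ⟨b1, b2⟩ := x2_det hΛ hκ hκ1 hL (U := U) (V := V) (T := T) (by linarith) (by
        ext a c
        simp only [Matrix.transpose_apply, Matrix.mul_apply, U, V, Matrix.of_apply]
        exact Finset.sum_congr rfl fun i _ => by ring) h4 (by linarith) (by linarith)
      rw [← e] at b1 b2
      rw [hFG _ (KK_symm _ _) (by
        rw [le_div_iff₀' (by positivity)]
        simpa only [hs, Matrix.smul_apply, smul_eq_mul, mul_pow, ← Finset.mul_sum] using b1)]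
      refine (x2_exp h5).trans ((abs_sub_le _ _ _).trans ((add_le_add b2 h6).trans ?_))
      have : 0 ≤ W g / κ ^ 2 := div_nonneg (by linarith) (sq_nonneg _)
      linarith
    · have b1 := (one_le_div (by positivity)).2 h
      have b2 := Real.exp_le_one_iff.2 (neg_nonpos.2 h5)
      have b3 := Real.exp_pos (-∑ i ∈ s, β i ^ 2 * q (β i))
      obtain ⟨b4, b5⟩ := hF1 (cay (KK β g))
      exact abs_le.2 ⟨by linarith, by linarith⟩
  have h7 := norm_integral_le_of_norm_le ((integrable_const (3 * ε / 4)).add (hW.div_const (κ ^ 2)))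
    (ae_of_all _ key)
  rw [integral_sub i1 (integrable_const _), integral_add' (integrable_const _) (hW.div_const _),
    integral_div (κ ^ 2)] at h7
  simp only [integral_const, probReal_univ, one_smul] at h7
  refine h7.trans ?_
  have h8 : (2 * (∑ i ∈ sᶜ, β i) ^ 2 + 2 * s.card * ∑ i : s, β i ^ 2) / (N + 1) ≤ κ ^ 2 * ε / 8 := by
    rw [div_le_iff₀' (by positivity)] at hN
    rw [div_le_iff₀' hN0]
    have c1 : (∑ i ∈ sᶜ, β i) ^ 2 ≤ B₂ ^ 2 := sq_le_sq' (abs_le.1 h3).1 (abs_le.1 h3).2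
    have c2 : (s.card : ℝ) * ∑ i : s, β i ^ 2 ≤ M * B' := by
      gcongr
    have c3 : 0 < κ ^ 2 * ε / 8 := by positivity
    nlinarith
  have h9 : (∫ g, W g ∂gpi2 (Fin n) (Fin (N + 1))) / κ ^ 2 ≤ ε / 4 := by
    rw [div_le_iff₀ (by positivity)]
    linarith
  linarith

end Crest.Agent.R166.H
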