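import Crest.Agent.R166.H.AlgB

/-! Row 166, block H: reading off a linear statistic from the `K`-matrix. -/

set_option autoImplicit false
set_option linter.unusedSectionVars false

open MeasureTheory ProbabilityTheory Filter Topology Complex
open scoped ENNReal NNReal BigOperators Matrix ComplexConjugate

noncomputable section

namespace Crest.Agent.R166.H

theorem X2a_hs_nonneg {ι κ : Type} [Fintype ι] [Fintype κ] (X : Matrix ι κ ℝ) : 0 ≤ hs X :=
  Finset.sum_nonneg fun _ _ => Finset.sum_nonneg fun _ _ => sq_nonneg _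

theorem X2a_tr_sq {ι κ : Type} [Fintype ι] [Fintype κ] (X : Matrix ι κ ℝ) (Y : Matrix κ ι ℝ) :
    (X * Y).trace ^ 2 ≤ hs X * hs Y := by
  have h := Finset.sum_mul_sq_le_sq_mul_sq (Finset.univ : Finset (ι × κ)) (fun q => X q.1 q.2)
    (fun q => Y q.2 q.1)
  simp only [Fintype.sum_prod_type] at h
  have e : hs Y = ∑ i, ∑ j, Y j i ^ 2 := by
    unfold hs
    exact Finset.sum_comm
  rw [e]
  simpa [Matrix.trace, Matrix.mul_apply, hs] using h

theorem X2a_tr_le {ι κ : Type} [Fintype ι] [Fintype κ] (X : Matrix ι κ ℝ) (Y : Matrix κ ι ℝ) :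
    |(X * Y).trace| ≤ √(hs X) * √(hs Y) := by
  rw [← Real.sqrt_mul (X2a_hs_nonneg X)]
  exact Real.abs_le_sqrt (X2a_tr_sq X Y)

theorem X2a_pow_sub {A : Type} [NormedRing A] {X Y : A} {R : ℝ} (hX : ‖X‖ ≤ R) (hY : ‖Y‖ ≤ R) (m : ℕ) :
    ‖Y ^ (m + 1)‖ ≤ R ^ (m + 1) ∧ ‖X ^ (m + 1) - Y ^ (m + 1)‖ ≤ (m + 1) * R ^ m * ‖X - Y‖ := by
  have hR : 0 ≤ R := (norm_nonneg _).trans hX
  have h1 : ∀ m : ℕ, ‖Y ^ (m + 1)‖ ≤ R ^ (m + 1) := fun m =>
    (norm_pow_le' Y m.succ_pos).trans (pow_le_pow_left₀ (norm_nonneg _) hY _)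
  refine ⟨h1 m, ?_⟩
  induction m with
  | zero => simp
  | succ m ih =>
    have e : X ^ (m + 1 + 1) - Y ^ (m + 1 + 1) = (X ^ (m + 1) - Y ^ (m + 1)) * X + Y ^ (m + 1) * (X - Y) := by
      rw [pow_succ X (m + 1), pow_succ Y (m + 1)]
      noncomm_ring
    rw [e]
    have h2 : ‖(X ^ (m + 1) - Y ^ (m + 1)) * X‖ ≤ (m + 1) * R ^ m * ‖X - Y‖ * R :=
      (norm_mul_le _ _).trans (mul_le_mul ih hX (norm_nonneg _) (by positivity))
    have h3 : ‖Y ^ (m + 1) * (X - Y)‖ ≤ R ^ (m + 1) * ‖X - Y‖ :=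
      (norm_mul_le _ _).trans (mul_le_mul_of_nonneg_right (h1 m) (norm_nonneg _))
    refine (norm_add_le _ _).trans ((add_le_add h2 h3).trans (le_of_eq ?_))
    push_cast
    ring

open scoped Matrix.Norms.Frobenius in
theorem X2a_norm {ι κ : Type} [Fintype ι] [Fintype κ] (X : Matrix ι κ ℝ) : ‖X‖ = √(hs X) := by
  rw [Matrix.frobenius_norm_def, Real.sqrt_eq_rpow]
  simp [hs]

open scoped Matrix.Norms.Frobenius in
theorem X2a_pow_sub' {ι : Type} [Fintype ι] [DecidableEq ι] {X Y : Matrix ι ι ℝ} {R : ℝ} (hX : √(hs X) ≤ R)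
    (hY : √(hs Y) ≤ R) (m : ℕ) : √(hs (Y ^ (m + 1))) ≤ R ^ (m + 1) ∧
      √(hs (X ^ (m + 1) - Y ^ (m + 1))) ≤ (m + 1) * R ^ m * √(hs (X - Y)) := by
  rw [← X2a_norm] at hX hY
  rw [← X2a_norm, ← X2a_norm, ← X2a_norm]
  exact X2a_pow_sub hX hY m

theorem X2a_tr_pow {ι : Type} [Fintype ι] [DecidableEq ι] {X Y : Matrix ι ι ℝ} {R : ℝ} (hX : √(hs X) ≤ R)
    (hY : √(hs Y) ≤ R) (m : ℕ) :
    |(X ^ (m + 2)).trace - (Y ^ (m + 2)).trace| ≤ (m + 2) * R ^ (m + 1) * √(hs (X - Y)) := by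
  have hR : 0 ≤ R := (Real.sqrt_nonneg _).trans hX
  obtain ⟨h1, h2⟩ := X2a_pow_sub' hX hY m
  have e : X ^ (m + 2) - Y ^ (m + 2) = (X ^ (m + 1) - Y ^ (m + 1)) * X + Y ^ (m + 1) * (X - Y) := by
    rw [pow_succ X (m + 1), pow_succ Y (m + 1)]
    noncomm_ring
  rw [← Matrix.trace_sub, e, Matrix.trace_add]
  have h3 := (X2a_tr_le (X ^ (m + 1) - Y ^ (m + 1)) X).trans
    (mul_le_mul h2 hX (Real.sqrt_nonneg _) (by positivity))
  have h4 := (X2a_tr_le (Y ^ (m + 1)) (X - Y)).trans (mul_le_mul_of_nonneg_right h1 (Real.sqrt_nonneg _))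
  refine (abs_add_le _ _).trans ((add_le_add h3 h4).trans (le_of_eq ?_))
  ring

/-- Frobenius norm (`open scoped Matrix.Norms.Frobenius`): `|tr (X Y)| ≤ ‖X‖ ‖Y‖`,
`‖X^(m+1) - Y^(m+1)‖ ≤ (m+1) r^m ‖X - Y‖`,
`tr X^(m+2) - tr Y^(m+2) = tr ((X^(m+1) - Y^(m+1)) X) + tr (Y^(m+1) (X - Y))`. -/
theorem Phi_lip (p : Polynomial ℝ) (r : ℝ) : ∃ Λ : ℝ, 0 < Λ ∧ ∀ (ι : Type) [Fintype ι] [DecidableEq ι]
    (X Y : Matrix ι ι ℝ), hs X ≤ r → hs Y ≤ r → |Phi p X - Phi p Y| ≤ Λ * √(hs (X - Y)) := by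
  refine ⟨1 + ∑ m ∈ p.support, |p.coeff m| * ((m + 2) * √r ^ (m + 1)), ?_, fun ι _ _ X Y hX hY => ?_⟩
  · have := Finset.sum_nonneg (s := p.support) (f := fun m => |p.coeff m| * ((m + 2) * √r ^ (m + 1)))
      fun m _ => by positivity
    linarith
  · have hX' : √(hs X) ≤ √r := Real.sqrt_le_sqrt hX
    have hY' : √(hs Y) ≤ √r := Real.sqrt_le_sqrt hY
    unfold Phi
    rw [← Finset.sum_sub_distrib]
    refine (Finset.abs_sum_le_sum_abs _ _).trans ?_
    rw [add_mul, one_mul, Finset.sum_mul]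
    refine le_add_of_nonneg_of_le (Real.sqrt_nonneg _) (Finset.sum_le_sum fun m _ => ?_)
    rw [← mul_sub, abs_mul, mul_assoc]
    exact mul_le_mul_of_nonneg_left (X2a_tr_pow hX' hY' m) (abs_nonneg _)
theorem Phi_comm (p : Polynomial ℝ) {ι κ : Type} [Fintype ι] [DecidableEq ι] [Fintype κ] [DecidableEq κ]
    (U : Matrix ι κ ℝ) (V : Matrix κ ι ℝ) : Phi p (U * V) = Phi p (V * U) := by
  have h : ∀ k : ℕ, (U * V) ^ (k + 1) = U * (V * U) ^ k * V := fun k => by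
    induction k with
    | zero => simp
    | succ k ih => rw [pow_succ, ih, pow_succ]; simp only [Matrix.mul_assoc]
  unfold Phi
  refine Finset.sum_congr rfl fun m _ => ?_
  rw [h (m + 1), Matrix.trace_mul_comm, ← Matrix.mul_assoc, ← pow_succ']
theorem Phi_diagonal (p : Polynomial ℝ) {ι : Type} [Fintype ι] [DecidableEq ι] (β : ι → ℝ) :
    Phi p (Matrix.diagonal β) = ∑ i, β i ^ 2 * p.eval (β i) := by
  unfold Phi
  simp only [Matrix.diagonal_pow, Matrix.trace_diagonal, Pi.pow_apply, Polynomial.eval_eq_sum,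
    Polynomial.sum_def, Finset.mul_sum]
  rw [Finset.sum_comm]
  refine Finset.sum_congr rfl fun i _ => Finset.sum_congr rfl fun m _ => ?_
  ring
theorem continuous_Phi (p : Polynomial ℝ) {ι : Type} [Fintype ι] [DecidableEq ι] :
    Continuous (Phi p : Matrix ι ι ℝ → ℝ) := by
  unfold Phi
  refine continuous_finsetSum _ fun m _ => continuous_const.mul ?_
  exact (continuous_id.pow (m + 2)).matrix_trace
theorem hs_add_le {ι κ : Type} [Fintype ι] [Fintype κ] (X Y : Matrix ι κ ℝ) : hs (X + Y) ≤ 2 * hs X + 2 * hs Y := by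
  unfold hs
  simp only [Finset.mul_sum, ← Finset.sum_add_distrib, Matrix.add_apply]
  refine Finset.sum_le_sum fun i _ => Finset.sum_le_sum fun j _ => ?_
  nlinarith [sq_nonneg (X i j - Y i j)]
/-- `hs (U V) = tr (U V)² = tr (V U)² ≤ hs (V U)` -/
theorem hs_comm_le {ι κ : Type} [Fintype ι] [Fintype κ] (U : Matrix ι κ ℝ) (V : Matrix κ ι ℝ)
    (h : (U * V)ᵀ = U * V) : hs (U * V) ≤ hs (V * U) := by
  have e1 : hs (U * V) = (U * V * (U * V)).trace := by
    conv_rhs => rw [← h]; arg 1; arg 1; rw [h]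
    simp only [hs, Matrix.trace, Matrix.diag_apply, Matrix.mul_apply (M := U * V), Matrix.transpose_apply, sq]
  have e2 : (U * V * (U * V)).trace = (V * U * (V * U)).trace := by
    rw [Matrix.mul_assoc, Matrix.trace_mul_comm]
    simp only [Matrix.mul_assoc]
  have h3 := X2a_tr_le (V * U) (V * U)
  rw [Real.mul_self_sqrt (X2a_hs_nonneg _)] at h3
  rw [e1, e2]
  exact (le_abs_self _).trans h3
/-- Tietze (`exists_extension_forall_mem_Icc_of_isClosedEmbedding`) from the compact set `{Kᵀ = K, hs K ≤ r}`,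
on which `cay` is continuous and injective -/
theorem exists_ext {N : ℕ} {G : Matrix (Fin N) (Fin N) ℝ → ℝ} (hG : Continuous G) (h01 : ∀ K, 0 ≤ G K ∧ G K ≤ 1)
    (r : ℝ) : ∃ F : Mat N → ℝ, Continuous F ∧ (∀ S, 0 ≤ F S ∧ F S ≤ 1) ∧
      ∀ K, Kᵀ = K → hs K ≤ r → F (cay K) = G K := by
  set s : Set (Matrix (Fin N) (Fin N) ℝ) := {K | Kᵀ = K ∧ hs K ≤ r} with hs_def
  have hc : Continuous (hs : Matrix (Fin N) (Fin N) ℝ → ℝ) := by
    unfold hs
    fun_prop
  have hcl : IsClosed s := (isClosed_eq continuous_id.matrix_transpose continuous_id).inter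
    (isClosed_le hc continuous_const)
  have hcp : IsCompact s := by
    have h1 : IsCompact (Set.pi Set.univ fun _ : Fin N => Set.pi Set.univ fun _ : Fin N =>
        Set.Icc (-√r) (√r)) := isCompact_univ_pi fun _ => isCompact_univ_pi fun _ => isCompact_Icc
    refine IsCompact.of_isClosed_subset (X := Matrix (Fin N) (Fin N) ℝ) h1 hcl fun K hK i _ j _ => ?_
    have h2 : K i j ^ 2 ≤ hs K :=
      (Finset.single_le_sum (f := fun j => K i j ^ 2) (fun _ _ => sq_nonneg _) (Finset.mem_univ j)).trans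
        (Finset.single_le_sum (f := fun i => ∑ j, K i j ^ 2)
          (fun _ _ => Finset.sum_nonneg fun _ _ => sq_nonneg _) (Finset.mem_univ i))
    exact abs_le.1 (Real.abs_le_sqrt (h2.trans hK.2))
  have : CompactSpace s := isCompact_iff_compactSpace.1 hcp
  have he : IsClosedEmbedding fun K : s => cay K.1 := by
    refine Continuous.isClosedEmbedding ?_ fun K K' h => Subtype.ext (injOn_cay K.2.1 K'.2.1 h)
    exact (continuousOn_cay.mono (t := s) fun K hK => hK.1).domRestrict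
  have : NormalSpace (Mat N) := inferInstanceAs (NormalSpace (Fin N → Fin N → ℂ))
  obtain ⟨g, hg, hgf⟩ := ContinuousMap.exists_extension_forall_mem_of_isClosedEmbedding
    (⟨fun K : s => G K.1, hG.comp continuous_subtype_val⟩ : C(s, ℝ)) (t := Set.Icc 0 1) (fun K => h01 K.1)
    ⟨0, le_rfl, zero_le_one⟩ he
  exact ⟨g, g.continuous, hg, fun K h1 h2 => congrFun hgf ⟨K, h1, h2⟩⟩

end Crest.Agent.R166.H
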